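import Vale.Agent.Lib.P183.UCertH

/-!
# A ninety point algebra: the group `S_6` acting on the cosets of a subgroup of order eight
-/

namespace Vale.Agent.Lib.P183.UC

/-- Certificate data. -/
def dL3 : HData where
  k := 90
  n := 7
  m := 284795138549631
  pairs := [(1924816987015374188352352802875347192208139402654708366294751053330497024702806160199634570620902561543130364907801473192429831652363437832616192087941653717640845785320030944178672925267180360185801783143190929350430, 1924816987015374188352352802875347192208139402654708366294751053330497024702806160199634570620902561543130364907801473192429831652363437832616192087941653717640845785320030944178672925267180360185801783143190929350430),
    (43514492310276093293321806513801432185695000061279163617768114998152646248940425892186977359290749380781473115014072007296556519120641902339658057312964989751270579744186179412193529893986411306346371740373928848170, 1686802077430391751591948911909055132723766603050473448021839036396086028210785387177254932251508492488743364196061583070930374250632536416354045039451054999068990298718865235189670932117753666176391794953160213746245),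
    (1686802077430391751591948911909055132723766603050473448021839036396086028210785387177254932251508492488743364196061583070930374250632536416354045039451054999068990298718865235189670932117753666176391794953160213746245, 43514492310276093293321806513801432185695000061279163617768114998152646248940425892186977359290749380781473115014072007296556519120641902339658057312964989751270579744186179412193529893986411306346371740373928848170),
    (843322125808704661951218319612782066630363599429703338204522228910707977294808263948280982792212678094077106017484597525039078402113249053721153193210793256952030118383157867845252358786005750879492132126862668602880, 843322125808704661951218319612782066630363599429703338204522228910707977294808263948280982792212678094077106017484597525039078402113249053721153193210793256952030118383157867845252358786005750879492132126862668602880),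
    (1903524611819438405085639883097070975430861396438831742718443695339320773386563201492228732722991757756880103592337701721099948963702866994675129963425649290290929059051769930865350002890367655833104392301426405146880, 1903524611819438405085639883097070975430861396438831742718443695339320773386563201492228732722991757756880103592337701721099948963702866994675129963425649290290929059051769930865350002890367655833104392301426405146880)]
  labs := [1924985966302752783657820191302378434102737699309150937895434550983935679372628278692807536856790343595538860042353212056178215682497242772174073547137001241690109768481736580890622364389580145201453452879081087566080,
    1817005567757273080833028195020037058234202867405982416587781429911314344253517285623627058589450676477894673480023895884065076740012198129407943859393831858477409647530973773543781108536316212634796178092745151348992,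
    258798686371465874792039613554383347068671372275947196558697889908809313169710881337603085872255093627387979728879200291396681215735108294959724072030240846054106256054999779702927739981502293899026222746808340316416,
    1816920745492418423619848915527218126602477445273004765479218839403478090167304227730787783745229798765943603373673664830866555708715306727886369843869645837378008143438657186365268456546772884825689574544204638585088,
    195432486262012576299506293238154848862809999621393656178736284867335905046477064915837000489573844306785428456417769966755424960061774993602495666524537409211558862148951093020945321399498738900397211791831995514880,
    302058702832036234746389688738360715517546966081258293147204602713394173311800448235701504626061777528270207653606213102858525024638934464660582240523935475073781673633250102919033757445141639192341311954861351371008,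
    0]
  roots := [1, 3, 4, 6, 7, 8, 21, 23, 27, 29, 31, 33, 34, 36, 38, 42, 49]
  nrun := 2
  fuel := 6
  fuelY := 4
  fuelZ := 4

theorem rep_dL3 : RepT dL3.n dL3.m := repT_of_checkH dL3 (by decide +kernel)

end Vale.Agent.Lib.P183.UC
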