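import Vale.Agent.Lib.P183.Defs

/-!
# The doubling construction: polygons of copies glued over a new pair
-/

open Function

namespace Vale.Agent.Lib.P183

/-- Pre-vertices: a root copy of the carrier, one new point, and copies of the carrier indexed by
polygons and positions along the chain of the polygon. -/
inductive PV (X Y' : Type) (n : ℕ) : Type
  | rt (x : X) : PV X Y' n
  | tt : PV X Y' n
  | cp (y : Y') (i : Fin n) (x : X) : PV X Y' n

/-- The identifications of the polygon: consecutive copies share a chain vertex. -/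
inductive Glue {X Y' : Type} {n : ℕ} (π : Y' → ℕ → X × X) (x₀ : X) :
    PV X Y' n → PV X Y' n → Prop
  | first (y : Y') (i : Fin n) (h : i.val = 0) : Glue π x₀ (.cp y i (π y i).1) (.rt x₀)
  | step (y : Y') (i j : Fin n) (h : i.val + 1 = j.val) :
      Glue π x₀ (.cp y i (π y i).2) (.cp y j (π y j).1)
  | last (y : Y') (i : Fin n) (h : i.val + 1 = n) : Glue π x₀ (.cp y i (π y i).2) .tt

/-- The data of the construction. -/
structure Dt (L X : Type) [PartialOrder L] where
  θ : L → Setoid X
  x₀ : X
  u : L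
  Y : Set L
  N : ℕ
  w : ℕ → X × X
  hN : 0 < N
  hw : ∀ (p : X × X) (k : ℕ), k < 3 → ∃ i, k * N ≤ i ∧ i < (k + 1) * N ∧ w i = p
  hθ : ∀ a b, θ a ≤ θ b ↔ a ≤ b
  hYup : ∀ a b, a ∈ Y → a ≤ b → b ∈ Y
  hYu : ∀ y ∈ Y, u ≤ y

namespace Dt

variable {L X : Type} [PartialOrder L] (D : Dt L X)

open Classical in
/-- The pair along the chain of a polygon: the enumerated pair if it lies in the relation of the
polygon, a trivial pair otherwise. -/
noncomputable def pr (y : D.Y) (i : ℕ) : X × X :=
  if D.θ y (D.w i).1 (D.w i).2 then D.w i else (D.x₀, D.x₀)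

/-- The vertices. -/
def V : Type := Quot (Glue (n := 3 * D.N) D.pr D.x₀)

/-- The root copy. -/
def rtV (x : X) : D.V := Quot.mk _ (.rt x)

/-- The new point. -/
def ttV : D.V := Quot.mk _ .tt

/-- The copies on the chains. -/
def ptV (y : D.Y) (i : Fin (3 * D.N)) (x : X) : D.V := Quot.mk _ (.cp y i x)

/-- The base point. -/
def sV : D.V := D.rtV D.x₀

lemma glue_first (y : D.Y) (i : Fin (3 * D.N)) (h : i.val = 0) :
    D.ptV y i (D.pr y i).1 = D.sV := Quot.sound (Glue.first y i h)

lemma glue_step (y : D.Y) (i j : Fin (3 * D.N)) (h : i.val + 1 = j.val) :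
    D.ptV y i (D.pr y i).2 = D.ptV y j (D.pr y j).1 := Quot.sound (Glue.step y i j h)

lemma glue_last (y : D.Y) (i : Fin (3 * D.N)) (h : i.val + 1 = 3 * D.N) :
    D.ptV y i (D.pr y i).2 = D.ttV := Quot.sound (Glue.last y i h)

/-- Generators of the relations on the vertices. -/
inductive Gen (D : Dt L X) (b : L) (ε : Bool) : D.V → D.V → Prop
  | rt {x x' : X} : D.θ b x x' → Gen D b ε (D.rtV x) (D.rtV x')
  | pt {y : D.Y} {i : Fin (3 * D.N)} {x x' : X} : D.θ b x x' → Gen D b ε (D.ptV y i x) (D.ptV y i x')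
  | spec : ε = true → Gen D b ε D.sV D.ttV

/-- The relation attached to a pair `(b, ε)`. -/
def R (b : L) (ε : Bool) : Setoid D.V := Relation.EqvGen.setoid (Gen D b ε)

lemma R_of_gen {b : L} {ε : Bool} {v v' : D.V} (h : Gen D b ε v v') : D.R b ε v v' :=
  Relation.EqvGen.rel _ _ h

lemma R_refl (b : L) (ε : Bool) (v : D.V) : D.R b ε v v := (D.R b ε).refl v

lemma R_symm {b : L} {ε : Bool} {v v' : D.V} (h : D.R b ε v v') : D.R b ε v' v :=
  (D.R b ε).symm h

lemma R_trans {b : L} {ε : Bool} {v v' v'' : D.V} (h : D.R b ε v v') (h' : D.R b ε v' v'') :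
    D.R b ε v v'' := (D.R b ε).trans h h'

lemma R_pt {b : L} {ε : Bool} {y : D.Y} {i : Fin (3 * D.N)} {x x' : X} (h : D.θ b x x') :
    D.R b ε (D.ptV y i x) (D.ptV y i x') := D.R_of_gen (Gen.pt h)

lemma R_rt {b : L} {ε : Bool} {x x' : X} (h : D.θ b x x') :
    D.R b ε (D.rtV x) (D.rtV x') := D.R_of_gen (Gen.rt h)

/-- Maps to the carrier which respect the generators. -/
structure IsHom (φ : D.V → X) : Prop where
  rt : ∀ b x x', D.θ b x x' → D.θ b (φ (D.rtV x)) (φ (D.rtV x'))
  pt : ∀ b y i x x', D.θ b x x' → D.θ b (φ (D.ptV y i x)) (φ (D.ptV y i x'))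
  spec : D.θ D.u (φ D.sV) (φ D.ttV)

lemma IsHom.map {D : Dt L X} {φ : D.V → X} (h : D.IsHom φ) {b : L} {ε : Bool}
    (hε : ε = true → D.u ≤ b) {v v' : D.V} (hv : D.R b ε v v') : D.θ b (φ v) (φ v') := by
  have hle : D.R b ε ≤ Setoid.comap φ (D.θ b) := by
    refine Setoid.eqvGen_le ?_
    intro a a' ha
    rw [Setoid.comap_rel]
    cases ha with
    | rt hx => exact h.rt _ _ _ hx
    | pt hx => exact h.pt _ _ _ _ _ hx
    | spec he => exact ((D.hθ _ _).2 (hε he)) h.spec
  have := hle hv
  rwa [Setoid.comap_rel] at this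

lemma R_mono {b b' : L} {ε ε' : Bool} (hb : b ≤ b') (hε : ε = true → ε' = true) :
    D.R b ε ≤ D.R b' ε' := by
  refine Setoid.eqvGen_le ?_
  intro a a' ha
  refine D.R_of_gen ?_
  cases ha with
  | rt hx => exact Gen.rt (((D.hθ _ _).2 hb) hx)
  | pt hx => exact Gen.pt (((D.hθ _ _).2 hb) hx)
  | spec he => exact Gen.spec (hε he)

/-! ### The retraction on the root copy -/

/-- All of the polygons and the new point go to the base point. -/
def retr : D.V → X :=
  Quot.lift (fun p => match p with
    | .rt x => x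
    | .tt => D.x₀
    | .cp _ _ _ => D.x₀) (by
      intro a b h
      cases h <;> rfl)

@[simp] lemma retr_rt (x : X) : D.retr (D.rtV x) = x := rfl
@[simp] lemma retr_tt : D.retr D.ttV = D.x₀ := rfl
@[simp] lemma retr_pt (y : D.Y) (i : Fin (3 * D.N)) (x : X) : D.retr (D.ptV y i x) = D.x₀ := rfl

lemma retr_isHom : D.IsHom D.retr where
  rt := fun _ _ _ h => h
  pt := fun b _ _ _ _ _ => (D.θ b).refl _
  spec := (D.θ D.u).refl _

/-! ### Maps sending the new pair to a pair of the relation of `u` -/

open Classical in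
/-- The map sending the chains onto a given pair. -/
noncomputable def hitF (a a' : X) (l : ℕ) : PV X D.Y (3 * D.N) → X := fun p => match p with
  | .rt _ => a
  | .tt => a'
  | .cp _ i z => if i.val < l then a else if i.val = l then z else a'

/-- The map sending the chains onto a given pair. -/
noncomputable def hit (a a' : X) (l : ℕ) (hl : l < 3 * D.N) (hp : ∀ y, D.pr y l = (a, a')) :
    D.V → X :=
  Quot.lift (D.hitF a a' l) (by
    intro p q h
    cases h with
    | first y i h =>
      simp only [hitF]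
      split_ifs with h1 h2
      · rfl
      · have : (i : ℕ) = l := h2
        rw [this, hp y]
      · omega
    | step y i j h =>
      simp only [hitF]
      split_ifs <;> first
        | rfl
        | omega
        | (have h3 : (j : ℕ) = l := by omega
           rw [h3, hp y])
        | (have h3 : (i : ℕ) = l := by omega
           rw [h3, hp y])
    | last y i h =>
      simp only [hitF]
      split_ifs with h1 h2
      · omega
      · have : (i : ℕ) = l := h2
        rw [this, hp y]
      · rfl)

lemma hit_isHom {a a' : X} {l : ℕ} (hl : l < 3 * D.N) (hp : ∀ y, D.pr y l = (a, a'))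
    (ha : D.θ D.u a a') : D.IsHom (D.hit a a' l hl hp) where
  rt := fun b _ _ _ => (D.θ b).refl _
  pt := by
    intro b y i x x' hx
    change D.θ b (D.hitF a a' l (.cp y i x)) (D.hitF a a' l (.cp y i x'))
    simp only [hitF]
    split_ifs
    · exact (D.θ b).refl _
    · exact hx
    · exact (D.θ b).refl _
  spec := ha

lemma hit_s {a a' : X} {l : ℕ} (hl : l < 3 * D.N) (hp : ∀ y, D.pr y l = (a, a')) :
    D.hit a a' l hl hp D.sV = a := rfl

lemma hit_t {a a' : X} {l : ℕ} (hl : l < 3 * D.N) (hp : ∀ y, D.pr y l = (a, a')) :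
    D.hit a a' l hl hp D.ttV = a' := rfl

/-! ### Folding a polygon onto one of its edges -/

open Classical in
/-- Folding along two edges carrying opposite pairs. -/
noncomputable def foldF (y : D.Y) (lo hi : ℕ) : PV X D.Y (3 * D.N) → X := fun p => match p with
  | .rt _ => (D.pr y lo).1
  | .tt => (D.pr y lo).1
  | .cp y' i z =>
    if y' = y then
      (if i.val < lo then (D.pr y lo).1
      else if i.val = lo then z
      else if i.val < hi then (D.pr y lo).2
      else if i.val = hi then z
      else (D.pr y lo).1)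
    else (D.pr y lo).1

/-- Folding along two edges carrying opposite pairs. -/
noncomputable def fold (y : D.Y) (lo hi : ℕ) (hlh : lo < hi) (hhi : hi < 3 * D.N)
    (hs : D.pr y hi = (D.pr y lo).swap) : D.V → X :=
  Quot.lift (D.foldF y lo hi) (by
    intro p q h
    have hs1 : (D.pr y hi).1 = (D.pr y lo).2 := by rw [hs]; rfl
    have hs2 : (D.pr y hi).2 = (D.pr y lo).1 := by rw [hs]; rfl
    cases h with
    | first y' i h =>
      simp only [foldF]
      by_cases hy : y' = y
      · subst hy
        simp only [if_true]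
        split_ifs <;> first
          | rfl
          | omega
          | (have h3 : (i : ℕ) = lo := by omega
             rw [h3])
      · simp only [if_neg hy]
    | step y' i j h =>
      simp only [foldF]
      by_cases hy : y' = y
      · subst hy
        simp only [if_true]
        split_ifs <;> first
          | rfl
          | omega
          | (have h3 : (j : ℕ) = lo := by omega
             rw [h3])
          | (have h3 : (i : ℕ) = lo := by omega
             have h4 : (j : ℕ) = hi := by omega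
             rw [h3, h4, hs1])
          | (have h3 : (i : ℕ) = lo := by omega
             rw [h3])
          | (have h4 : (j : ℕ) = hi := by omega
             rw [h4, hs1])
          | (have h4 : (i : ℕ) = hi := by omega
             rw [h4, hs2])
      · simp only [if_neg hy]
    | last y' i h =>
      simp only [foldF]
      by_cases hy : y' = y
      · subst hy
        simp only [if_true]
        split_ifs <;> first
          | rfl
          | omega
          | (have h4 : (i : ℕ) = hi := by omega
             rw [h4, hs2])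
      · simp only [if_neg hy])

lemma fold_pt (y : D.Y) (lo hi : ℕ) (hlh : lo < hi) (hhi : hi < 3 * D.N)
    (hs : D.pr y hi = (D.pr y lo).swap) (y' : D.Y) (i : Fin (3 * D.N)) (z : X) :
    D.fold y lo hi hlh hhi hs (D.ptV y' i z) = D.foldF y lo hi (.cp y' i z) := rfl

lemma fold_isHom (y : D.Y) (lo hi : ℕ) (hlh : lo < hi) (hhi : hi < 3 * D.N)
    (hs : D.pr y hi = (D.pr y lo).swap) : D.IsHom (D.fold y lo hi hlh hhi hs) where
  rt := fun b _ _ _ => (D.θ b).refl _
  pt := by
    intro b y' i x x' hx
    rw [fold_pt, fold_pt]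
    simp only [foldF]
    split_ifs <;> first
      | exact (D.θ b).refl _
      | exact hx
  spec := (D.θ D.u).refl _

/-- A point of a polygon or a point outside it: values of the folding map. -/
lemma fold_lo (y : D.Y) (lo hi : ℕ) (hlh : lo < hi) (hhi : hi < 3 * D.N)
    (hs : D.pr y hi = (D.pr y lo).swap) (i : Fin (3 * D.N)) (hi' : i.val = lo) (z : X) :
    D.fold y lo hi hlh hhi hs (D.ptV y i z) = z := by
  rw [fold_pt]
  simp only [foldF, if_true]
  rw [if_neg (by omega), if_pos hi']

lemma fold_hi (y : D.Y) (lo hi : ℕ) (hlh : lo < hi) (hhi : hi < 3 * D.N)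
    (hs : D.pr y hi = (D.pr y lo).swap) (i : Fin (3 * D.N)) (hi' : i.val = hi) (z : X) :
    D.fold y lo hi hlh hhi hs (D.ptV y i z) = z := by
  rw [fold_pt]
  simp only [foldF, if_true]
  rw [if_neg (by omega), if_neg (by omega), if_neg (by omega), if_pos hi']

lemma fold_in (y : D.Y) (lo hi : ℕ) (hlh : lo < hi) (hhi : hi < 3 * D.N)
    (hs : D.pr y hi = (D.pr y lo).swap) (i : Fin (3 * D.N)) (h1 : lo < i.val) (h2 : i.val < hi)
    (z : X) : D.fold y lo hi hlh hhi hs (D.ptV y i z) = (D.pr y lo).2 := by
  rw [fold_pt]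
  simp only [foldF, if_true]
  rw [if_neg (by omega), if_neg (by omega), if_pos h2]

lemma fold_out (y : D.Y) (lo hi : ℕ) (hlh : lo < hi) (hhi : hi < 3 * D.N)
    (hs : D.pr y hi = (D.pr y lo).swap) (i : Fin (3 * D.N)) (h1 : i.val < lo ∨ hi < i.val)
    (z : X) : D.fold y lo hi hlh hhi hs (D.ptV y i z) = (D.pr y lo).1 := by
  rw [fold_pt]
  simp only [foldF, if_true]
  rcases h1 with h1 | h1
  · rw [if_pos h1]
  · rw [if_neg (by omega), if_neg (by omega), if_neg (by omega), if_neg (by omega)]

/-- A vertex outside of the polygon `y`. -/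
def Outer (y : D.Y) (v : D.V) : Prop :=
  (∃ x, v = D.rtV x) ∨ v = D.ttV ∨ ∃ y' i z, y' ≠ y ∧ v = D.ptV y' i z

lemma fold_outer (y : D.Y) (lo hi : ℕ) (hlh : lo < hi) (hhi : hi < 3 * D.N)
    (hs : D.pr y hi = (D.pr y lo).swap) {v : D.V} (hv : D.Outer y v) :
    D.fold y lo hi hlh hhi hs v = (D.pr y lo).1 := by
  rcases hv with ⟨x, rfl⟩ | rfl | ⟨y', i, z, hy, rfl⟩
  · rfl
  · rfl
  · rw [fold_pt]
    simp only [foldF, if_neg hy]

/-! ### Opposite edges -/

lemma pr_swap {y : D.Y} {l j : ℕ} (h : D.w j = (D.w l).swap) : D.pr y j = (D.pr y l).swap := by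
  unfold pr
  by_cases hθ : D.θ y (D.w l).1 (D.w l).2
  · have h2 : D.θ y (D.w j).1 (D.w j).2 := by
      rw [h]
      exact (D.θ y).symm hθ
    rw [if_pos hθ, if_pos h2, h]
  · have h2 : ¬ D.θ y (D.w j).1 (D.w j).2 := by
      rw [h]
      exact fun h3 => hθ ((D.θ y).symm h3)
    rw [if_neg hθ, if_neg h2]
    rfl

/-- In each of the three blocks of the chain there is an edge opposite to a given edge. -/
lemma exists_twin (y : D.Y) (l k : ℕ) (hk : k < 3) :
    ∃ j, k * D.N ≤ j ∧ j < (k + 1) * D.N ∧ D.pr y j = (D.pr y l).swap := by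
  obtain ⟨j, h1, h2, h3⟩ := D.hw (D.w l).swap k hk
  exact ⟨j, h1, h2, D.pr_swap h3⟩

lemma block_lt {k j : ℕ} (hk : k < 3) (h : j < (k + 1) * D.N) : j < 3 * D.N :=
  lt_of_lt_of_le h (Nat.mul_le_mul_right _ hk)

lemma pr_mem (y : D.Y) (i : ℕ) : D.θ y (D.pr y i).1 (D.pr y i).2 := by
  unfold pr
  by_cases hθ : D.θ y (D.w i).1 (D.w i).2
  · rw [if_pos hθ]; exact hθ
  · rw [if_neg hθ]

/-! ### Chains -/

lemma chain_s (b : L) (ε : Bool) (y : D.Y) (i : ℕ) :
    ∀ (hi : i < 3 * D.N), (∀ l, l < i → D.θ b (D.pr y l).1 (D.pr y l).2) →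
      D.R b ε D.sV (D.ptV y ⟨i, hi⟩ (D.pr y i).1) := by
  induction i with
  | zero =>
    intro hi _
    rw [D.glue_first y ⟨0, hi⟩ rfl]
  | succ i ih =>
    intro hi h
    have hi' : i < 3 * D.N := by omega
    have h1 := ih hi' (fun l hl => h l (by omega))
    have h2 : D.R b ε (D.ptV y ⟨i, hi'⟩ (D.pr y i).1) (D.ptV y ⟨i, hi'⟩ (D.pr y i).2) :=
      D.R_pt (h i (by omega))
    have h3 := D.glue_step y ⟨i, hi'⟩ ⟨i + 1, hi⟩ rfl
    simp only at h3
    rw [← h3]
    exact D.R_trans h1 h2

lemma chain_t (b : L) (ε : Bool) (y : D.Y) (d : ℕ) :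
    ∀ (i : ℕ) (hi : i < 3 * D.N), i + 1 + d = 3 * D.N →
      (∀ l, i < l → l < 3 * D.N → D.θ b (D.pr y l).1 (D.pr y l).2) →
      D.R b ε (D.ptV y ⟨i, hi⟩ (D.pr y i).2) D.ttV := by
  induction d with
  | zero =>
    intro i hi hd _
    rw [D.glue_last y ⟨i, hi⟩ (by simpa using hd)]
  | succ d ih =>
    intro i hi hd h
    have hi' : i + 1 < 3 * D.N := by omega
    have h1 := ih (i + 1) hi' (by omega) (fun l hl hl' => h l (by omega) hl')
    have h2 : D.R b ε (D.ptV y ⟨i + 1, hi'⟩ (D.pr y (i + 1)).1)
        (D.ptV y ⟨i + 1, hi'⟩ (D.pr y (i + 1)).2) :=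
      D.R_pt (h (i + 1) (by omega) hi')
    have h3 := D.glue_step y ⟨i, hi⟩ ⟨i + 1, hi'⟩ rfl
    simp only at h3
    rw [h3]
    exact D.R_trans h2 h1

lemma chain_between (b : L) (ε : Bool) (y : D.Y) (i d : ℕ) :
    ∀ (hi : i < 3 * D.N) (hi' : i + 1 + d < 3 * D.N),
      (∀ l, i < l → l < i + 1 + d → D.θ b (D.pr y l).1 (D.pr y l).2) →
      D.R b ε (D.ptV y ⟨i, hi⟩ (D.pr y i).2) (D.ptV y ⟨i + 1 + d, hi'⟩ (D.pr y (i + 1 + d)).1) := by
  induction d with
  | zero =>
    intro hi hi' _
    have h3 := D.glue_step y ⟨i, hi⟩ ⟨i + 1 + 0, hi'⟩ rfl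
    simp only at h3
    rw [h3]
  | succ d ih =>
    intro hi hi' h
    have hd : i + 1 + d < 3 * D.N := by omega
    have h1 := ih hi hd (fun l hl hl' => h l hl (by omega))
    have h2 : D.R b ε (D.ptV y ⟨i + 1 + d, hd⟩ (D.pr y (i + 1 + d)).1)
        (D.ptV y ⟨i + 1 + d, hd⟩ (D.pr y (i + 1 + d)).2) :=
      D.R_pt (h _ (by omega) (by omega))
    have h3 := D.glue_step y ⟨i + 1 + d, hd⟩ ⟨i + 1 + (d + 1), hi'⟩ rfl
    simp only at h3
    rw [← h3]
    exact D.R_trans h1 h2

/-! ### The key lemma -/

/-- The pairs which are related under all the maps to the carrier. -/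
def HH (b : L) (v v' : D.V) : Prop := ∀ φ, D.IsHom φ → D.θ b (φ v) (φ v')

lemma HH.symm {D : Dt L X} {b : L} {v v' : D.V} (h : D.HH b v v') : D.HH b v' v :=
  fun φ hφ => (D.θ b).symm (h φ hφ)

/-- A vertex of a polygon, related to a vertex outside of the polygon, is linked to the ends. -/
lemma link_outer {b : L} {y : D.Y} {i : Fin (3 * D.N)} {z : X} {v' : D.V}
    (hout : D.Outer y v') (H : D.HH b (D.ptV y i z) v') :
    D.R b false (D.ptV y i z) D.sV ∨ D.R b false (D.ptV y i z) D.ttV := by
  have hN := D.hN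
  have hi3 := i.2
  by_cases hi : i.val < 2 * D.N
  · left
    have hchain : ∀ l, l < i.val → D.θ b (D.pr y l).1 (D.pr y l).2 := by
      intro l hl
      obtain ⟨j, hj1, hj2, hj3⟩ := D.exists_twin y l 2 (by norm_num)
      have hlj : l < j := by nlinarith
      have hji : i.val < j := by nlinarith
      have hj : j < 3 * D.N := by nlinarith
      have h1 := H _ (D.fold_isHom y l j hlj hj hj3)
      rw [D.fold_in y l j hlj hj hj3 i hl hji, D.fold_outer y l j hlj hj hj3 hout] at h1
      exact (D.θ b).symm h1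
    obtain ⟨j, hj1, hj2, hj3⟩ := D.exists_twin y i.val 2 (by norm_num)
    have hij : i.val < j := by nlinarith
    have hj : j < 3 * D.N := by nlinarith
    have h1 := H _ (D.fold_isHom y i.val j hij hj hj3)
    rw [D.fold_lo y i.val j hij hj hj3 i rfl, D.fold_outer y i.val j hij hj hj3 hout] at h1
    have h2 : D.R b false (D.ptV y i z) (D.ptV y i (D.pr y i.val).1) := D.R_pt h1
    exact D.R_trans h2 (D.R_symm (D.chain_s b false y i.val i.2 hchain))
  · right
    have hchain : ∀ l, i.val < l → l < 3 * D.N → D.θ b (D.pr y l).1 (D.pr y l).2 := by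
      intro l hl hl3
      obtain ⟨j, hj1, hj2, hj3⟩ := D.exists_twin y l 0 (by norm_num)
      have hj3' : D.pr y l = (D.pr y j).swap := by rw [hj3, Prod.swap_swap]
      have hji : j < i.val := by nlinarith
      have hjl : j < l := by omega
      have h1 := H _ (D.fold_isHom y j l hjl hl3 hj3')
      rw [D.fold_in y j l hjl hl3 hj3' i hji hl, D.fold_outer y j l hjl hl3 hj3' hout] at h1
      rw [hj3']
      exact h1
    obtain ⟨j, hj1, hj2, hj3⟩ := D.exists_twin y i.val 0 (by norm_num)
    have hj3' : D.pr y i.val = (D.pr y j).swap := by rw [hj3, Prod.swap_swap]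
    have hji : j < i.val := by nlinarith
    have h1 := H _ (D.fold_isHom y j i.val hji i.2 hj3')
    rw [D.fold_hi y j i.val hji i.2 hj3' i rfl, D.fold_outer y j i.val hji i.2 hj3' hout] at h1
    have h2 : D.R b false (D.ptV y i z) (D.ptV y i (D.pr y i.val).2) := by
      refine D.R_pt ?_
      rw [hj3']
      exact h1
    have h3 : i.val + 1 + (3 * D.N - i.val - 1) = 3 * D.N := by omega
    exact D.R_trans h2 (D.chain_t b false y _ i.val i.2 h3 hchain)

/-- The conclusion of the key lemma. -/
def Concl (b : L) (v v' : D.V) : Prop :=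
  D.R b false v v' ∨ (D.R b false v D.sV ∧ D.R b false v' D.ttV) ∨
    (D.R b false v D.ttV ∧ D.R b false v' D.sV)

lemma Concl.symm {D : Dt L X} {b : L} {v v' : D.V} (h : D.Concl b v v') : D.Concl b v' v := by
  rcases h with h | ⟨h1, h2⟩ | ⟨h1, h2⟩
  · exact Or.inl (D.R_symm h)
  · exact Or.inr (Or.inr ⟨h2, h1⟩)
  · exact Or.inr (Or.inl ⟨h2, h1⟩)

lemma concl_of_ends {b : L} {v v' : D.V}
    (h1 : D.R b false v D.sV ∨ D.R b false v D.ttV)
    (h2 : D.R b false v' D.sV ∨ D.R b false v' D.ttV) : D.Concl b v v' := by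
  rcases h1 with h1 | h1 <;> rcases h2 with h2 | h2
  · exact Or.inl (D.R_trans h1 (D.R_symm h2))
  · exact Or.inr (Or.inl ⟨h1, h2⟩)
  · exact Or.inr (Or.inr ⟨h1, h2⟩)
  · exact Or.inl (D.R_trans h1 (D.R_symm h2))

/-- Two points in a common copy. -/
lemma same_copy {b : L} {y : D.Y} {i : Fin (3 * D.N)} {z z' : X}
    (H : D.HH b (D.ptV y i z) (D.ptV y i z')) : D.R b false (D.ptV y i z) (D.ptV y i z') := by
  have hN := D.hN
  have hi3 := i.2
  refine D.R_pt ?_
  by_cases hi : i.val < 2 * D.N
  · obtain ⟨j, hj1, hj2, hj3⟩ := D.exists_twin y i.val 2 (by norm_num)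
    have hij : i.val < j := by nlinarith
    have hj : j < 3 * D.N := by nlinarith
    have h1 := H _ (D.fold_isHom y i.val j hij hj hj3)
    rwa [D.fold_lo y i.val j hij hj hj3 i rfl, D.fold_lo y i.val j hij hj hj3 i rfl] at h1
  · obtain ⟨j, hj1, hj2, hj3⟩ := D.exists_twin y i.val 0 (by norm_num)
    have hj3' : D.pr y i.val = (D.pr y j).swap := by rw [hj3, Prod.swap_swap]
    have hji : j < i.val := by nlinarith
    have h1 := H _ (D.fold_isHom y j i.val hji i.2 hj3')
    rwa [D.fold_hi y j i.val hji i.2 hj3' i rfl, D.fold_hi y j i.val hji i.2 hj3' i rfl] at h1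

/-- Two points in distinct copies of a polygon. -/
lemma same_polygon {b : L} {y : D.Y} {i i' : Fin (3 * D.N)} {z z' : X} (hii : i.val < i'.val)
    (H : D.HH b (D.ptV y i z) (D.ptV y i' z')) : D.Concl b (D.ptV y i z) (D.ptV y i' z') := by
  have hN := D.hN
  have hi3 := i.2
  have hi3' := i'.2
  by_cases hA : ∃ k, k < 3 ∧ i.val < k * D.N ∧ (k + 1) * D.N ≤ i'.val
  · -- a full block between the two copies: link to the two ends of the polygon
    obtain ⟨k, hk, hk1, hk2⟩ := hA
    right; left
    constructor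
    · have hchain : ∀ l, l < i.val → D.θ b (D.pr y l).1 (D.pr y l).2 := by
        intro l hl
        obtain ⟨j, hj1, hj2, hj3⟩ := D.exists_twin y l k hk
        have hlj : l < j := by omega
        have hj : j < 3 * D.N := D.block_lt hk hj2
        have h1 := H _ (D.fold_isHom y l j hlj hj hj3)
        rw [D.fold_in y l j hlj hj hj3 i hl (by omega),
          D.fold_out y l j hlj hj hj3 i' (Or.inr (by omega))] at h1
        exact (D.θ b).symm h1
      obtain ⟨j, hj1, hj2, hj3⟩ := D.exists_twin y i.val k hk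
      have hij : i.val < j := by omega
      have hj : j < 3 * D.N := D.block_lt hk hj2
      have h1 := H _ (D.fold_isHom y i.val j hij hj hj3)
      rw [D.fold_lo y i.val j hij hj hj3 i rfl,
        D.fold_out y i.val j hij hj hj3 i' (Or.inr (by omega))] at h1
      have h2 : D.R b false (D.ptV y i z) (D.ptV y i (D.pr y i.val).1) := D.R_pt h1
      exact D.R_trans h2 (D.R_symm (D.chain_s b false y i.val i.2 hchain))
    · have hchain : ∀ l, i'.val < l → l < 3 * D.N → D.θ b (D.pr y l).1 (D.pr y l).2 := by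
        intro l hl hl3
        obtain ⟨j, hj1, hj2, hj3⟩ := D.exists_twin y l k hk
        have hj3' : D.pr y l = (D.pr y j).swap := by rw [hj3, Prod.swap_swap]
        have hjl : j < l := by omega
        have h1 := H _ (D.fold_isHom y j l hjl hl3 hj3')
        rw [D.fold_out y j l hjl hl3 hj3' i (Or.inl (by omega)),
          D.fold_in y j l hjl hl3 hj3' i' (by omega) hl] at h1
        rw [hj3']
        exact (D.θ b).symm h1
      obtain ⟨j, hj1, hj2, hj3⟩ := D.exists_twin y i'.val k hk
      have hj3' : D.pr y i'.val = (D.pr y j).swap := by rw [hj3, Prod.swap_swap]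
      have hji : j < i'.val := by omega
      have h1 := H _ (D.fold_isHom y j i'.val hji i'.2 hj3')
      rw [D.fold_out y j i'.val hji i'.2 hj3' i (Or.inl (by omega)),
        D.fold_hi y j i'.val hji i'.2 hj3' i' rfl] at h1
      have h2 : D.R b false (D.ptV y i' z') (D.ptV y i' (D.pr y i'.val).2) := by
        refine D.R_pt ?_
        rw [hj3']
        exact (D.θ b).symm h1
      have h3 : i'.val + 1 + (3 * D.N - i'.val - 1) = 3 * D.N := by omega
      exact D.R_trans h2 (D.chain_t b false y _ i'.val i'.2 h3 hchain)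
  · -- a full block outside of the two copies: link along the short route
    left
    have hcase : i'.val < 2 * D.N ∨ D.N ≤ i.val := by
      by_contra hcon
      push Not at hcon
      exact hA ⟨1, by norm_num, by omega, by omega⟩
    obtain ⟨d, hd⟩ : ∃ d, i'.val = i.val + 1 + d := ⟨i'.val - i.val - 1, by omega⟩
    rcases hcase with hc | hc
    · have hchain : ∀ l, i.val < l → l < i'.val → D.θ b (D.pr y l).1 (D.pr y l).2 := by
        intro l hl hl'
        obtain ⟨j, hj1, hj2, hj3⟩ := D.exists_twin y l 2 (by norm_num)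
        have hlj : l < j := by nlinarith
        have hj : j < 3 * D.N := by nlinarith
        have h1 := H _ (D.fold_isHom y l j hlj hj hj3)
        rw [D.fold_out y l j hlj hj hj3 i (Or.inl hl),
          D.fold_in y l j hlj hj hj3 i' hl' (by nlinarith)] at h1
        exact h1
      have l1 : D.R b false (D.ptV y i z) (D.ptV y i (D.pr y i.val).2) := by
        obtain ⟨j, hj1, hj2, hj3⟩ := D.exists_twin y i.val 2 (by norm_num)
        have hij : i.val < j := by nlinarith
        have hj : j < 3 * D.N := by nlinarith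
        have h1 := H _ (D.fold_isHom y i.val j hij hj hj3)
        rw [D.fold_lo y i.val j hij hj hj3 i rfl,
          D.fold_in y i.val j hij hj hj3 i' hii (by nlinarith)] at h1
        exact D.R_pt h1
      have l2 : D.R b false (D.ptV y i' z') (D.ptV y i' (D.pr y i'.val).1) := by
        obtain ⟨j, hj1, hj2, hj3⟩ := D.exists_twin y i'.val 2 (by norm_num)
        have hij : i'.val < j := by nlinarith
        have hj : j < 3 * D.N := by nlinarith
        have h1 := H _ (D.fold_isHom y i'.val j hij hj hj3)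
        rw [D.fold_out y i'.val j hij hj hj3 i (Or.inl hii),
          D.fold_lo y i'.val j hij hj hj3 i' rfl] at h1
        exact D.R_pt ((D.θ b).symm h1)
      have hmid := D.chain_between b false y i.val d i.2 (by omega)
        (fun l hl hl' => hchain l hl (by omega))
      have hfin : (⟨i.val + 1 + d, by omega⟩ : Fin (3 * D.N)) = i' := Fin.ext hd.symm
      rw [hfin] at hmid
      have hp : D.pr y (i.val + 1 + d) = D.pr y i'.val := by rw [hd]
      rw [hp] at hmid
      exact D.R_trans l1 (D.R_trans hmid (D.R_symm l2))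
    · have hchain : ∀ l, i.val < l → l < i'.val → D.θ b (D.pr y l).1 (D.pr y l).2 := by
        intro l hl hl'
        obtain ⟨j, hj1, hj2, hj3⟩ := D.exists_twin y l 0 (by norm_num)
        have hj3' : D.pr y l = (D.pr y j).swap := by rw [hj3, Prod.swap_swap]
        have hjl : j < l := by omega
        have hl3 : l < 3 * D.N := by omega
        have h1 := H _ (D.fold_isHom y j l hjl hl3 hj3')
        rw [D.fold_in y j l hjl hl3 hj3' i (by omega) hl,
          D.fold_out y j l hjl hl3 hj3' i' (Or.inr hl')] at h1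
        rw [hj3']
        exact h1
      have l1 : D.R b false (D.ptV y i z) (D.ptV y i (D.pr y i.val).2) := by
        obtain ⟨j, hj1, hj2, hj3⟩ := D.exists_twin y i.val 0 (by norm_num)
        have hj3' : D.pr y i.val = (D.pr y j).swap := by rw [hj3, Prod.swap_swap]
        have hji : j < i.val := by omega
        have h1 := H _ (D.fold_isHom y j i.val hji i.2 hj3')
        rw [D.fold_hi y j i.val hji i.2 hj3' i rfl,
          D.fold_out y j i.val hji i.2 hj3' i' (Or.inr hii)] at h1
        refine D.R_pt ?_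
        rw [hj3']
        exact h1
      have l2 : D.R b false (D.ptV y i' z') (D.ptV y i' (D.pr y i'.val).1) := by
        obtain ⟨j, hj1, hj2, hj3⟩ := D.exists_twin y i'.val 0 (by norm_num)
        have hj3' : D.pr y i'.val = (D.pr y j).swap := by rw [hj3, Prod.swap_swap]
        have hji : j < i'.val := by omega
        have h1 := H _ (D.fold_isHom y j i'.val hji i'.2 hj3')
        rw [D.fold_in y j i'.val hji i'.2 hj3' i (by omega) hii,
          D.fold_hi y j i'.val hji i'.2 hj3' i' rfl] at h1
        refine D.R_pt ?_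
        rw [hj3']
        exact (D.θ b).symm h1
      have hmid := D.chain_between b false y i.val d i.2 (by omega)
        (fun l hl hl' => hchain l hl (by omega))
      have hfin : (⟨i.val + 1 + d, by omega⟩ : Fin (3 * D.N)) = i' := Fin.ext hd.symm
      rw [hfin] at hmid
      have hp : D.pr y (i.val + 1 + d) = D.pr y i'.val := by rw [hd]
      rw [hp] at hmid
      exact D.R_trans l1 (D.R_trans hmid (D.R_symm l2))

/-- **The key lemma.** -/
theorem key {b : L} (v v' : D.V) (H : D.HH b v v') : D.Concl b v v' := by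
  induction v using Quot.ind with
  | _ p =>
  induction v' using Quot.ind with
  | _ q =>
  cases p with
  | rt x =>
    cases q with
    | rt x' =>
      have h1 := H _ D.retr_isHom
      exact Or.inl (D.R_rt h1)
    | tt =>
      have h1 : D.θ b x D.x₀ := H _ D.retr_isHom
      exact Or.inr (Or.inl ⟨D.R_rt h1, D.R_refl _ _ _⟩)
    | cp y i z =>
      have h1 : D.θ b x D.x₀ := H _ D.retr_isHom
      refine D.concl_of_ends (Or.inl (D.R_rt h1)) (D.link_outer ?_ (HH.symm H))
      exact Or.inl ⟨x, rfl⟩
  | tt =>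
    cases q with
    | rt x' =>
      have h1 : D.θ b D.x₀ x' := H _ D.retr_isHom
      exact Or.inr (Or.inr ⟨D.R_refl _ _ _, D.R_rt ((D.θ b).symm h1)⟩)
    | tt => exact Or.inl (D.R_refl _ _ _)
    | cp y i z =>
      refine D.concl_of_ends (Or.inr (D.R_refl _ _ _)) (D.link_outer ?_ (HH.symm H))
      exact Or.inr (Or.inl rfl)
  | cp y i z =>
    cases q with
    | rt x' =>
      have h1 : D.θ b D.x₀ x' := H _ D.retr_isHom
      refine D.concl_of_ends (D.link_outer ?_ H) (Or.inl (D.R_rt ((D.θ b).symm h1)))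
      exact Or.inl ⟨x', rfl⟩
    | tt =>
      refine D.concl_of_ends (D.link_outer ?_ H) (Or.inr (D.R_refl _ _ _))
      exact Or.inr (Or.inl rfl)
    | cp y' i' z' =>
      by_cases hy : y' = y
      · subst hy
        rcases lt_trichotomy i.val i'.val with h | h | h
        · exact D.same_polygon h H
        · have hi : i = i' := Fin.ext h
          subst hi
          exact Or.inl (D.same_copy H)
        · exact Concl.symm (D.same_polygon h (HH.symm H))
      · refine D.concl_of_ends (D.link_outer ?_ H) (D.link_outer ?_ (HH.symm H))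
        · exact Or.inr (Or.inr ⟨y', i', z', hy, rfl⟩)
        · exact Or.inr (Or.inr ⟨y, i, z, fun h => hy h.symm, rfl⟩)

end Dt

end Vale.Agent.Lib.P183
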