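import Vale.Agent.Lib.P183.Defs

/-!
# Day doubling of a subset of a poset
-/

namespace Vale.Agent.Lib.P183

/-- Day doubling of a subset `C` of a poset `L`, as a subposet of `L × Bool` with the product order:
the pairs `(x, true)` with `x` above some element of `C`, and the pairs `(x, false)` with `x` not
strictly above `C`, that is, `x` in `C` or `x` above no element of `C`. For convex `C` this is the
poset obtained from `L` by replacing each element of `C` by two elements. -/
abbrev DayDoubling (L : Type) [PartialOrder L] (C : Set L) : Type :=
  {p : L × Bool // (p.2 = true → ∃ c ∈ C, c ≤ p.1) ∧ (p.2 = false → (∃ c ∈ C, c ≤ p.1) → p.1 ∈ C)}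

end Vale.Agent.Lib.P183
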