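import Vale.Agent.Lib.P183.LowerBounded
import Vale.Agent.Lib.P183.DayDef

/-!
# Day doubling of an arbitrary convex set: the construction

A root copy of the carrier, one new point, one hub for each element of the convex set, and chains
of copies of the carrier between hubs, between hubs and the new point, and from the root to hubs.
-/

open Function

namespace Vale.Agent.Lib.P183

/-- The chains of the construction. -/
inductive EdgeC {L : Type} [PartialOrder L] (C : Set L) : Type
  | hh (c c' : C) (u : L) (h : c.1 ≤ u) (h' : c'.1 ≤ u) : EdgeC C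
  | ht (c : C) (u : L) (h : c.1 ≤ u) (h' : u ∉ C) : EdgeC C
  | rh (c : C) : EdgeC C

/-- Pre-vertices. -/
inductive PVC (X E H : Type) (n : ℕ) : Type
  | rt (x : X) : PVC X E H n
  | tt : PVC X E H n
  | hb (c : H) : PVC X E H n
  | cp (e : E) (i : Fin n) (x : X) : PVC X E H n

/-- The identifications: consecutive copies of a chain share a vertex. -/
inductive GlueC {X E H : Type} {n : ℕ} (π : E → ℕ → X × X) (sr tg : E → PVC X E H n) :
    PVC X E H n → PVC X E H n → Prop
  | first (e : E) (i : Fin n) (h : i.val = 0) : GlueC π sr tg (.cp e i (π e i).1) (sr e)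
  | step (e : E) (i j : Fin n) (h : i.val + 1 = j.val) :
      GlueC π sr tg (.cp e i (π e i).2) (.cp e j (π e j).1)
  | last (e : E) (i : Fin n) (h : i.val + 1 = n) : GlueC π sr tg (.cp e i (π e i).2) (tg e)

/-- The data of the construction. -/
structure DtC (L X : Type) [PartialOrder L] where
  θ : L → Setoid X
  x₀ : X
  C : Set L
  hne : C.Nonempty
  top : L
  htop : ∀ a a', θ top a a'
  N : ℕ
  w : ℕ → X × X
  hN : 0 < N
  hw : ∀ (p : X × X) (k : ℕ), k < 3 → ∃ i, k * N ≤ i ∧ i < (k + 1) * N ∧ w i = p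
  hθ : ∀ a b, θ a ≤ θ b ↔ a ≤ b
  hconv : ∀ a b c, a ∈ C → c ∈ C → a ≤ b → b ≤ c → b ∈ C

namespace DtC

variable {L X : Type} [PartialOrder L] (D : DtC L X)

/-- The label of a chain. -/
def lab : EdgeC D.C → L
  | .hh _ _ u _ _ => u
  | .ht _ u _ _ => u
  | .rh _ => D.top

open Classical in
/-- The pair along a chain: the enumerated pair if it lies in the relation of the label, a trivial
pair otherwise. -/
noncomputable def pr (e : EdgeC D.C) (i : ℕ) : X × X :=
  if D.θ (D.lab e) (D.w i).1 (D.w i).2 then D.w i else (D.x₀, D.x₀)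

/-- The start of a chain. -/
def srcP : EdgeC D.C → PVC X (EdgeC D.C) D.C (3 * D.N)
  | .hh c _ _ _ _ => .hb c
  | .ht c _ _ _ => .hb c
  | .rh _ => .rt D.x₀

/-- The end of a chain. -/
def tgtP : EdgeC D.C → PVC X (EdgeC D.C) D.C (3 * D.N)
  | .hh _ c' _ _ _ => .hb c'
  | .ht _ _ _ _ => .tt
  | .rh c => .hb c

/-- The vertices. -/
def V : Type := Quot (GlueC (n := 3 * D.N) D.pr D.srcP D.tgtP)

/-- The root copy. -/
def rtV (x : X) : D.V := Quot.mk _ (.rt x)

/-- The new point. -/
def ttV : D.V := Quot.mk _ .tt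

/-- The hubs. -/
def hbV (c : D.C) : D.V := Quot.mk _ (.hb c)

/-- The copies on the chains. -/
def ptV (e : EdgeC D.C) (i : Fin (3 * D.N)) (x : X) : D.V := Quot.mk _ (.cp e i x)

/-- The start of a chain. -/
def srcV (e : EdgeC D.C) : D.V := Quot.mk _ (D.srcP e)

/-- The end of a chain. -/
def tgtV (e : EdgeC D.C) : D.V := Quot.mk _ (D.tgtP e)

lemma glue_first (e : EdgeC D.C) (i : Fin (3 * D.N)) (h : i.val = 0) :
    D.ptV e i (D.pr e i).1 = D.srcV e := Quot.sound (GlueC.first e i h)

lemma glue_step (e : EdgeC D.C) (i j : Fin (3 * D.N)) (h : i.val + 1 = j.val) :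
    D.ptV e i (D.pr e i).2 = D.ptV e j (D.pr e j).1 := Quot.sound (GlueC.step e i j h)

lemma glue_last (e : EdgeC D.C) (i : Fin (3 * D.N)) (h : i.val + 1 = 3 * D.N) :
    D.ptV e i (D.pr e i).2 = D.tgtV e := Quot.sound (GlueC.last e i h)

/-- Generators of the relations on the vertices. -/
inductive Gen (D : DtC L X) (b : L) (ε : Bool) : D.V → D.V → Prop
  | rt {x x' : X} : D.θ b x x' → Gen D b ε (D.rtV x) (D.rtV x')
  | pt {e : EdgeC D.C} {i : Fin (3 * D.N)} {x x' : X} : D.θ b x x' →
      Gen D b ε (D.ptV e i x) (D.ptV e i x')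
  | spec (c : D.C) : ε = true → c.1 ≤ b → Gen D b ε (D.hbV c) D.ttV

/-- The relation attached to a pair `(b, ε)`. -/
def R (b : L) (ε : Bool) : Setoid D.V := Relation.EqvGen.setoid (Gen D b ε)

lemma R_of_gen {b : L} {ε : Bool} {v v' : D.V} (h : Gen D b ε v v') : D.R b ε v v' :=
  Relation.EqvGen.rel _ _ h

lemma R_refl (b : L) (ε : Bool) (v : D.V) : D.R b ε v v := (D.R b ε).refl v

lemma R_symm {b : L} {ε : Bool} {v v' : D.V} (h : D.R b ε v v') : D.R b ε v' v :=
  (D.R b ε).symm h

lemma R_trans {b : L} {ε : Bool} {v v' v'' : D.V} (h : D.R b ε v v') (h' : D.R b ε v' v'') :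
    D.R b ε v v'' := (D.R b ε).trans h h'

lemma R_pt {b : L} {ε : Bool} {e : EdgeC D.C} {i : Fin (3 * D.N)} {x x' : X} (h : D.θ b x x') :
    D.R b ε (D.ptV e i x) (D.ptV e i x') := D.R_of_gen (Gen.pt h)

lemma R_rt {b : L} {ε : Bool} {x x' : X} (h : D.θ b x x') :
    D.R b ε (D.rtV x) (D.rtV x') := D.R_of_gen (Gen.rt h)

/-- Maps to the carrier which respect the generators. -/
structure IsHom (φ : D.V → X) : Prop where
  rt : ∀ b x x', D.θ b x x' → D.θ b (φ (D.rtV x)) (φ (D.rtV x'))
  pt : ∀ b e i x x', D.θ b x x' → D.θ b (φ (D.ptV e i x)) (φ (D.ptV e i x'))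
  spec : ∀ c : D.C, D.θ c.1 (φ (D.hbV c)) (φ D.ttV)

lemma IsHom.map {D : DtC L X} {φ : D.V → X} (h : D.IsHom φ) {b : L} {ε : Bool}
    {v v' : D.V} (hv : D.R b ε v v') : D.θ b (φ v) (φ v') := by
  have hle : D.R b ε ≤ Setoid.comap φ (D.θ b) := by
    refine Setoid.eqvGen_le ?_
    intro a a' ha
    rw [Setoid.comap_rel]
    cases ha with
    | rt hx => exact h.rt _ _ _ hx
    | pt hx => exact h.pt _ _ _ _ _ hx
    | spec c he hc => exact ((D.hθ _ _).2 hc) (h.spec c)
  have := hle hv
  rwa [Setoid.comap_rel] at this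

lemma R_mono {b b' : L} {ε ε' : Bool} (hb : b ≤ b') (hε : ε = true → ε' = true) :
    D.R b ε ≤ D.R b' ε' := by
  refine Setoid.eqvGen_le ?_
  intro a a' ha
  refine D.R_of_gen ?_
  cases ha with
  | rt hx => exact Gen.rt (((D.hθ _ _).2 hb) hx)
  | pt hx => exact Gen.pt (((D.hθ _ _).2 hb) hx)
  | spec c he hc => exact Gen.spec c (hε he) (le_trans hc hb)

/-! ### The retraction on the root copy -/

/-- All of the chains, the hubs and the new point go to the base point. -/
def retr : D.V → X :=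
  Quot.lift (fun p => match p with
    | .rt x => x
    | .tt => D.x₀
    | .hb _ => D.x₀
    | .cp _ _ _ => D.x₀) (by
      intro a b h
      cases h with
      | first e i h => cases e <;> rfl
      | step e i j h => rfl
      | last e i h => cases e <;> rfl)

@[simp] lemma retr_rt (x : X) : D.retr (D.rtV x) = x := rfl
@[simp] lemma retr_tt : D.retr D.ttV = D.x₀ := rfl
@[simp] lemma retr_hb (c : D.C) : D.retr (D.hbV c) = D.x₀ := rfl
@[simp] lemma retr_pt (e : EdgeC D.C) (i : Fin (3 * D.N)) (x : X) :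
    D.retr (D.ptV e i x) = D.x₀ := rfl

lemma retr_isHom : D.IsHom D.retr where
  rt := fun _ _ _ h => h
  pt := fun b _ _ _ _ _ => (D.θ b).refl _
  spec := fun c => (D.θ c.1).refl _

/-! ### Maps given by values on the hubs -/

section Val

variable (vr vt : X) (vh : D.C → X)

/-- The value at the start of a chain. -/
def srcX : EdgeC D.C → X
  | .hh c _ _ _ _ => vh c
  | .ht c _ _ _ => vh c
  | .rh _ => vr

/-- The value at the end of a chain. -/
def tgtX : EdgeC D.C → X
  | .hh _ c' _ _ _ => vh c'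
  | .ht _ _ _ _ => vt
  | .rh c => vh c

open Classical in
/-- The map with the given values: each chain goes along one of its copies. -/
noncomputable def valF (l : EdgeC D.C → ℕ) : PVC X (EdgeC D.C) D.C (3 * D.N) → X := fun p =>
  match p with
  | .rt _ => vr
  | .tt => vt
  | .hb c => vh c
  | .cp e i z =>
    if i.val < l e then D.srcX vr vh e else if i.val = l e then z else D.tgtX vt vh e

lemma valF_src (l : EdgeC D.C → ℕ) (e : EdgeC D.C) :
    D.valF vr vt vh l (D.srcP e) = D.srcX vr vh e := by cases e <;> rfl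

lemma valF_tgt (l : EdgeC D.C → ℕ) (e : EdgeC D.C) :
    D.valF vr vt vh l (D.tgtP e) = D.tgtX vt vh e := by cases e <;> rfl

/-- The map with the given values. -/
noncomputable def val (l : EdgeC D.C → ℕ) (hl : ∀ e, l e < 3 * D.N)
    (hp : ∀ e, D.pr e (l e) = (D.srcX vr vh e, D.tgtX vt vh e)) : D.V → X :=
  Quot.lift (D.valF vr vt vh l) (by
    intro p q h
    cases h with
    | first e i h =>
      rw [D.valF_src]
      simp only [valF]
      split_ifs with h1 h2
      · rfl
      · have h3 : (i : ℕ) = l e := h2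
        rw [h3, hp e]
      · omega
    | step e i j h =>
      simp only [valF]
      split_ifs <;> first
        | rfl
        | omega
        | (have h3 : (j : ℕ) = l e := by omega
           rw [h3, hp e])
        | (have h3 : (i : ℕ) = l e := by omega
           rw [h3, hp e])
    | last e i h =>
      rw [D.valF_tgt]
      simp only [valF]
      have := hl e
      split_ifs with h1 h2
      · omega
      · have h3 : (i : ℕ) = l e := h2
        rw [h3, hp e]
      · rfl)

/-- The maps with given values exist as soon as the labels allow them. -/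
lemma exists_val (hedge : ∀ e, D.θ (D.lab e) (D.srcX vr vh e) (D.tgtX vt vh e))
    (hspec : ∀ c : D.C, D.θ c.1 (vh c) vt) :
    ∃ φ : D.V → X, D.IsHom φ ∧ (∀ x, φ (D.rtV x) = vr) ∧ φ D.ttV = vt ∧
      ∀ c, φ (D.hbV c) = vh c := by
  have hex : ∀ e, ∃ l, l < 3 * D.N ∧ D.pr e l = (D.srcX vr vh e, D.tgtX vt vh e) := by
    intro e
    obtain ⟨i, _, h2, h3⟩ := D.hw (D.srcX vr vh e, D.tgtX vt vh e) 0 (by norm_num)
    refine ⟨i, by nlinarith [D.hN], ?_⟩
    unfold pr
    rw [h3, if_pos (hedge e)]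
  choose l hl hp using hex
  refine ⟨D.val vr vt vh l hl hp, ⟨?_, ?_, ?_⟩, fun _ => rfl, rfl, fun _ => rfl⟩
  · intro b _ _ _
    exact (D.θ b).refl _
  · intro b e i x x' hx
    change D.θ b (D.valF vr vt vh l (.cp e i x)) (D.valF vr vt vh l (.cp e i x'))
    simp only [valF]
    split_ifs
    · exact (D.θ b).refl _
    · exact hx
    · exact (D.θ b).refl _
  · exact hspec

end Val

/-- The top element is above everything. -/
lemma le_top (a : L) : a ≤ D.top := by
  refine (D.hθ _ _).1 ?_
  intro x y _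
  exact D.htop x y

open Classical in
/-- Values sending one hub to `a` and all the rest to `a'`. -/
lemma exists_hit (c₀ : D.C) {a a' : X} (ha : D.θ c₀.1 a a') :
    ∃ φ : D.V → X, D.IsHom φ ∧ (∀ x, φ (D.rtV x) = a') ∧ φ D.ttV = a' ∧ φ (D.hbV c₀) = a ∧
      ∀ c, c ≠ c₀ → φ (D.hbV c) = a' := by
  have hup : ∀ {u : L}, c₀.1 ≤ u → D.θ u a a' := fun h => ((D.hθ _ _).2 h) ha
  obtain ⟨φ, h1, h2, h3, h4⟩ := D.exists_val a' a' (fun c => if c = c₀ then a else a')
    (by
      intro e
      cases e with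
      | hh c c' u h h' =>
        simp only [srcX, tgtX]
        by_cases h5 : c = c₀
        · by_cases h6 : c' = c₀
          · rw [if_pos h5, if_pos h6]
          · rw [if_pos h5, if_neg h6]
            exact hup (h5 ▸ h)
        · by_cases h6 : c' = c₀
          · rw [if_neg h5, if_pos h6]
            exact (D.θ u).symm (hup (h6 ▸ h'))
          · rw [if_neg h5, if_neg h6]
      | ht c u h h' =>
        simp only [srcX, tgtX]
        by_cases h5 : c = c₀
        · rw [if_pos h5]
          exact hup (h5 ▸ h)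
        · rw [if_neg h5]
      | rh c =>
        exact D.htop _ _)
    (by
      intro c
      by_cases h5 : c = c₀
      · simp only [if_pos h5]
        rw [h5]
        exact ha
      · simp only [if_neg h5]
        exact (D.θ c.1).refl _)
  refine ⟨φ, h1, h2, h3, ?_, ?_⟩
  · rw [h4]; simp
  · intro c hc
    rw [h4]; simp [hc]

/-- Values sending the root to `a'` and all the rest to `a`. -/
lemma exists_sep (a a' : X) :
    ∃ φ : D.V → X, D.IsHom φ ∧ (∀ x, φ (D.rtV x) = a') ∧ φ D.ttV = a ∧ ∀ c, φ (D.hbV c) = a := by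
  obtain ⟨φ, h1, h2, h3, h4⟩ := D.exists_val a' a (fun _ => a)
    (by
      intro e
      cases e with
      | hh c c' u h h' => exact (D.θ u).refl _
      | ht c u h h' => exact (D.θ u).refl _
      | rh c => exact D.htop _ _)
    (fun c => (D.θ c.1).refl _)
  exact ⟨φ, h1, h2, h3, h4⟩

/-! ### Folding a chain onto one of its edges -/

open Classical in
/-- Folding along two edges carrying opposite pairs. -/
noncomputable def foldF (y : EdgeC D.C) (lo hi : ℕ) : PVC X (EdgeC D.C) D.C (3 * D.N) → X := fun p =>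
  match p with
  | .rt _ => (D.pr y lo).1
  | .tt => (D.pr y lo).1
  | .hb _ => (D.pr y lo).1
  | .cp y' i z =>
    if y' = y then
      (if i.val < lo then (D.pr y lo).1
      else if i.val = lo then z
      else if i.val < hi then (D.pr y lo).2
      else if i.val = hi then z
      else (D.pr y lo).1)
    else (D.pr y lo).1

lemma foldF_src (y : EdgeC D.C) (lo hi : ℕ) (e : EdgeC D.C) :
    D.foldF y lo hi (D.srcP e) = (D.pr y lo).1 := by cases e <;> rfl

lemma foldF_tgt (y : EdgeC D.C) (lo hi : ℕ) (e : EdgeC D.C) :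
    D.foldF y lo hi (D.tgtP e) = (D.pr y lo).1 := by cases e <;> rfl

/-- Folding along two edges carrying opposite pairs. -/
noncomputable def fold (y : EdgeC D.C) (lo hi : ℕ) (hlh : lo < hi) (hhi : hi < 3 * D.N)
    (hs : D.pr y hi = (D.pr y lo).swap) : D.V → X :=
  Quot.lift (D.foldF y lo hi) (by
    intro p q h
    have hs1 : (D.pr y hi).1 = (D.pr y lo).2 := by rw [hs]; rfl
    have hs2 : (D.pr y hi).2 = (D.pr y lo).1 := by rw [hs]; rfl
    cases h with
    | first y' i h =>
      rw [D.foldF_src]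
      simp only [foldF]
      by_cases hy : y' = y
      · subst hy
        simp only [if_true]
        split_ifs <;> first
          | rfl
          | omega
          | (have h3 : (i : ℕ) = lo := by omega
             rw [h3])
      · simp only [if_neg hy]
    | step y' i j h =>
      simp only [foldF]
      by_cases hy : y' = y
      · subst hy
        simp only [if_true]
        split_ifs <;> first
          | rfl
          | omega
          | (have h3 : (j : ℕ) = lo := by omega
             rw [h3])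
          | (have h3 : (i : ℕ) = lo := by omega
             have h4 : (j : ℕ) = hi := by omega
             rw [h3, h4, hs1])
          | (have h3 : (i : ℕ) = lo := by omega
             rw [h3])
          | (have h4 : (j : ℕ) = hi := by omega
             rw [h4, hs1])
          | (have h4 : (i : ℕ) = hi := by omega
             rw [h4, hs2])
      · simp only [if_neg hy]
    | last y' i h =>
      rw [D.foldF_tgt]
      simp only [foldF]
      by_cases hy : y' = y
      · subst hy
        simp only [if_true]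
        split_ifs <;> first
          | rfl
          | omega
          | (have h4 : (i : ℕ) = hi := by omega
             rw [h4, hs2])
      · simp only [if_neg hy])

lemma fold_pt (y : EdgeC D.C) (lo hi : ℕ) (hlh : lo < hi) (hhi : hi < 3 * D.N)
    (hs : D.pr y hi = (D.pr y lo).swap) (y' : EdgeC D.C) (i : Fin (3 * D.N)) (z : X) :
    D.fold y lo hi hlh hhi hs (D.ptV y' i z) = D.foldF y lo hi (.cp y' i z) := rfl

lemma fold_isHom (y : EdgeC D.C) (lo hi : ℕ) (hlh : lo < hi) (hhi : hi < 3 * D.N)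
    (hs : D.pr y hi = (D.pr y lo).swap) : D.IsHom (D.fold y lo hi hlh hhi hs) where
  rt := fun b _ _ _ => (D.θ b).refl _
  pt := by
    intro b y' i x x' hx
    rw [fold_pt, fold_pt]
    simp only [foldF]
    split_ifs <;> first
      | exact (D.θ b).refl _
      | exact hx
  spec := fun c => (D.θ c.1).refl _

/-- A point of a chain or a point outside it: values of the folding map. -/
lemma fold_lo (y : EdgeC D.C) (lo hi : ℕ) (hlh : lo < hi) (hhi : hi < 3 * D.N)
    (hs : D.pr y hi = (D.pr y lo).swap) (i : Fin (3 * D.N)) (hi' : i.val = lo) (z : X) :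
    D.fold y lo hi hlh hhi hs (D.ptV y i z) = z := by
  rw [fold_pt]
  simp only [foldF, if_true]
  rw [if_neg (by omega), if_pos hi']

lemma fold_hi (y : EdgeC D.C) (lo hi : ℕ) (hlh : lo < hi) (hhi : hi < 3 * D.N)
    (hs : D.pr y hi = (D.pr y lo).swap) (i : Fin (3 * D.N)) (hi' : i.val = hi) (z : X) :
    D.fold y lo hi hlh hhi hs (D.ptV y i z) = z := by
  rw [fold_pt]
  simp only [foldF, if_true]
  rw [if_neg (by omega), if_neg (by omega), if_neg (by omega), if_pos hi']

lemma fold_in (y : EdgeC D.C) (lo hi : ℕ) (hlh : lo < hi) (hhi : hi < 3 * D.N)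
    (hs : D.pr y hi = (D.pr y lo).swap) (i : Fin (3 * D.N)) (h1 : lo < i.val) (h2 : i.val < hi)
    (z : X) : D.fold y lo hi hlh hhi hs (D.ptV y i z) = (D.pr y lo).2 := by
  rw [fold_pt]
  simp only [foldF, if_true]
  rw [if_neg (by omega), if_neg (by omega), if_pos h2]

lemma fold_out (y : EdgeC D.C) (lo hi : ℕ) (hlh : lo < hi) (hhi : hi < 3 * D.N)
    (hs : D.pr y hi = (D.pr y lo).swap) (i : Fin (3 * D.N)) (h1 : i.val < lo ∨ hi < i.val)
    (z : X) : D.fold y lo hi hlh hhi hs (D.ptV y i z) = (D.pr y lo).1 := by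
  rw [fold_pt]
  simp only [foldF, if_true]
  rcases h1 with h1 | h1
  · rw [if_pos h1]
  · rw [if_neg (by omega), if_neg (by omega), if_neg (by omega), if_neg (by omega)]

/-- A vertex outside of the chain `y`. -/
def Outer (y : EdgeC D.C) (v : D.V) : Prop :=
  (∃ x, v = D.rtV x) ∨ v = D.ttV ∨ (∃ c, v = D.hbV c) ∨ ∃ y' i z, y' ≠ y ∧ v = D.ptV y' i z

lemma fold_outer (y : EdgeC D.C) (lo hi : ℕ) (hlh : lo < hi) (hhi : hi < 3 * D.N)
    (hs : D.pr y hi = (D.pr y lo).swap) {v : D.V} (hv : D.Outer y v) :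
    D.fold y lo hi hlh hhi hs v = (D.pr y lo).1 := by
  rcases hv with ⟨x, rfl⟩ | rfl | ⟨c, rfl⟩ | ⟨y', i, z, hy, rfl⟩
  · rfl
  · rfl
  · rfl
  · rw [fold_pt]
    simp only [foldF, if_neg hy]

/-! ### Opposite edges -/

lemma pr_swap {y : EdgeC D.C} {l j : ℕ} (h : D.w j = (D.w l).swap) :
    D.pr y j = (D.pr y l).swap := by
  unfold pr
  by_cases hθ : D.θ (D.lab y) (D.w l).1 (D.w l).2
  · have h2 : D.θ (D.lab y) (D.w j).1 (D.w j).2 := by
      rw [h]
      exact (D.θ (D.lab y)).symm hθ
    rw [if_pos hθ, if_pos h2, h]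
  · have h2 : ¬ D.θ (D.lab y) (D.w j).1 (D.w j).2 := by
      rw [h]
      exact fun h3 => hθ ((D.θ (D.lab y)).symm h3)
    rw [if_neg hθ, if_neg h2]
    rfl

/-- In each of the three blocks of the chain there is an edge opposite to a given edge. -/
lemma exists_twin (y : EdgeC D.C) (l k : ℕ) (hk : k < 3) :
    ∃ j, k * D.N ≤ j ∧ j < (k + 1) * D.N ∧ D.pr y j = (D.pr y l).swap := by
  obtain ⟨j, h1, h2, h3⟩ := D.hw (D.w l).swap k hk
  exact ⟨j, h1, h2, D.pr_swap h3⟩

lemma block_lt {k j : ℕ} (hk : k < 3) (h : j < (k + 1) * D.N) : j < 3 * D.N :=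
  lt_of_lt_of_le h (Nat.mul_le_mul_right _ hk)

lemma pr_mem (y : EdgeC D.C) (i : ℕ) : D.θ (D.lab y) (D.pr y i).1 (D.pr y i).2 := by
  unfold pr
  by_cases hθ : D.θ (D.lab y) (D.w i).1 (D.w i).2
  · rw [if_pos hθ]; exact hθ
  · rw [if_neg hθ]

/-! ### Chains -/

lemma chain_s (b : L) (ε : Bool) (y : EdgeC D.C) (i : ℕ) :
    ∀ (hi : i < 3 * D.N), (∀ l, l < i → D.θ b (D.pr y l).1 (D.pr y l).2) →
      D.R b ε (D.srcV y) (D.ptV y ⟨i, hi⟩ (D.pr y i).1) := by
  induction i with
  | zero =>
    intro hi _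
    rw [D.glue_first y ⟨0, hi⟩ rfl]
  | succ i ih =>
    intro hi h
    have hi' : i < 3 * D.N := by omega
    have h1 := ih hi' (fun l hl => h l (by omega))
    have h2 : D.R b ε (D.ptV y ⟨i, hi'⟩ (D.pr y i).1) (D.ptV y ⟨i, hi'⟩ (D.pr y i).2) :=
      D.R_pt (h i (by omega))
    have h3 := D.glue_step y ⟨i, hi'⟩ ⟨i + 1, hi⟩ rfl
    simp only at h3
    rw [← h3]
    exact D.R_trans h1 h2

lemma chain_t (b : L) (ε : Bool) (y : EdgeC D.C) (d : ℕ) :
    ∀ (i : ℕ) (hi : i < 3 * D.N), i + 1 + d = 3 * D.N →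
      (∀ l, i < l → l < 3 * D.N → D.θ b (D.pr y l).1 (D.pr y l).2) →
      D.R b ε (D.ptV y ⟨i, hi⟩ (D.pr y i).2) (D.tgtV y) := by
  induction d with
  | zero =>
    intro i hi hd _
    rw [D.glue_last y ⟨i, hi⟩ (by simpa using hd)]
  | succ d ih =>
    intro i hi hd h
    have hi' : i + 1 < 3 * D.N := by omega
    have h1 := ih (i + 1) hi' (by omega) (fun l hl hl' => h l (by omega) hl')
    have h2 : D.R b ε (D.ptV y ⟨i + 1, hi'⟩ (D.pr y (i + 1)).1)
        (D.ptV y ⟨i + 1, hi'⟩ (D.pr y (i + 1)).2) :=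
      D.R_pt (h (i + 1) (by omega) hi')
    have h3 := D.glue_step y ⟨i, hi⟩ ⟨i + 1, hi'⟩ rfl
    simp only at h3
    rw [h3]
    exact D.R_trans h2 h1

lemma chain_between (b : L) (ε : Bool) (y : EdgeC D.C) (i d : ℕ) :
    ∀ (hi : i < 3 * D.N) (hi' : i + 1 + d < 3 * D.N),
      (∀ l, i < l → l < i + 1 + d → D.θ b (D.pr y l).1 (D.pr y l).2) →
      D.R b ε (D.ptV y ⟨i, hi⟩ (D.pr y i).2) (D.ptV y ⟨i + 1 + d, hi'⟩ (D.pr y (i + 1 + d)).1) := by
  induction d with
  | zero =>
    intro hi hi' _
    have h3 := D.glue_step y ⟨i, hi⟩ ⟨i + 1 + 0, hi'⟩ rfl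
    simp only at h3
    rw [h3]
  | succ d ih =>
    intro hi hi' h
    have hd : i + 1 + d < 3 * D.N := by omega
    have h1 := ih hi hd (fun l hl hl' => h l hl (by omega))
    have h2 : D.R b ε (D.ptV y ⟨i + 1 + d, hd⟩ (D.pr y (i + 1 + d)).1)
        (D.ptV y ⟨i + 1 + d, hd⟩ (D.pr y (i + 1 + d)).2) :=
      D.R_pt (h _ (by omega) (by omega))
    have h3 := D.glue_step y ⟨i + 1 + d, hd⟩ ⟨i + 1 + (d + 1), hi'⟩ rfl
    simp only at h3
    rw [← h3]
    exact D.R_trans h1 h2

/-- A full chain joins its two ends. -/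
lemma chain_full {b : L} (ε : Bool) (y : EdgeC D.C) (h : D.lab y ≤ b) :
    D.R b ε (D.srcV y) (D.tgtV y) := by
  have hN := D.hN
  have hl : ∀ l, D.θ b (D.pr y l).1 (D.pr y l).2 := fun l => ((D.hθ _ _).2 h) (D.pr_mem y l)
  have hn : 3 * D.N - 1 < 3 * D.N := by omega
  have h1 := D.chain_s b ε y (3 * D.N - 1) hn (fun l _ => hl l)
  have h2 : D.R b ε (D.ptV y ⟨3 * D.N - 1, hn⟩ (D.pr y (3 * D.N - 1)).1)
      (D.ptV y ⟨3 * D.N - 1, hn⟩ (D.pr y (3 * D.N - 1)).2) := D.R_pt (hl _)
  have h3 := D.glue_last y ⟨3 * D.N - 1, hn⟩ (by simp only; omega)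
  simp only at h3
  rw [h3] at h2
  exact D.R_trans h1 h2

/-! ### The key lemma -/

/-- The pairs which are related under all the maps to the carrier. -/
def HH (b : L) (v v' : D.V) : Prop := ∀ φ, D.IsHom φ → D.θ b (φ v) (φ v')

lemma HH.symm {D : DtC L X} {b : L} {v v' : D.V} (h : D.HH b v v') : D.HH b v' v :=
  fun φ hφ => (D.θ b).symm (h φ hφ)

/-- A vertex of a chain, related to a vertex outside of the chain, is linked to the ends. -/
lemma link_outer {b : L} {y : EdgeC D.C} {i : Fin (3 * D.N)} {z : X} {v' : D.V}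
    (hout : D.Outer y v') (H : D.HH b (D.ptV y i z) v') :
    D.R b false (D.ptV y i z) (D.srcV y) ∨ D.R b false (D.ptV y i z) (D.tgtV y) := by
  have hN := D.hN
  have hi3 := i.2
  by_cases hi : i.val < 2 * D.N
  · left
    have hchain : ∀ l, l < i.val → D.θ b (D.pr y l).1 (D.pr y l).2 := by
      intro l hl
      obtain ⟨j, hj1, hj2, hj3⟩ := D.exists_twin y l 2 (by norm_num)
      have hlj : l < j := by nlinarith
      have hji : i.val < j := by nlinarith
      have hj : j < 3 * D.N := by nlinarith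
      have h1 := H _ (D.fold_isHom y l j hlj hj hj3)
      rw [D.fold_in y l j hlj hj hj3 i hl hji, D.fold_outer y l j hlj hj hj3 hout] at h1
      exact (D.θ b).symm h1
    obtain ⟨j, hj1, hj2, hj3⟩ := D.exists_twin y i.val 2 (by norm_num)
    have hij : i.val < j := by nlinarith
    have hj : j < 3 * D.N := by nlinarith
    have h1 := H _ (D.fold_isHom y i.val j hij hj hj3)
    rw [D.fold_lo y i.val j hij hj hj3 i rfl, D.fold_outer y i.val j hij hj hj3 hout] at h1
    have h2 : D.R b false (D.ptV y i z) (D.ptV y i (D.pr y i.val).1) := D.R_pt h1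
    exact D.R_trans h2 (D.R_symm (D.chain_s b false y i.val i.2 hchain))
  · right
    have hchain : ∀ l, i.val < l → l < 3 * D.N → D.θ b (D.pr y l).1 (D.pr y l).2 := by
      intro l hl hl3
      obtain ⟨j, hj1, hj2, hj3⟩ := D.exists_twin y l 0 (by norm_num)
      have hj3' : D.pr y l = (D.pr y j).swap := by rw [hj3, Prod.swap_swap]
      have hji : j < i.val := by nlinarith
      have hjl : j < l := by omega
      have h1 := H _ (D.fold_isHom y j l hjl hl3 hj3')
      rw [D.fold_in y j l hjl hl3 hj3' i hji hl, D.fold_outer y j l hjl hl3 hj3' hout] at h1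
      rw [hj3']
      exact h1
    obtain ⟨j, hj1, hj2, hj3⟩ := D.exists_twin y i.val 0 (by norm_num)
    have hj3' : D.pr y i.val = (D.pr y j).swap := by rw [hj3, Prod.swap_swap]
    have hji : j < i.val := by nlinarith
    have h1 := H _ (D.fold_isHom y j i.val hji i.2 hj3')
    rw [D.fold_hi y j i.val hji i.2 hj3' i rfl, D.fold_outer y j i.val hji i.2 hj3' hout] at h1
    have h2 : D.R b false (D.ptV y i z) (D.ptV y i (D.pr y i.val).2) := by
      refine D.R_pt ?_
      rw [hj3']
      exact h1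
    have h3 : i.val + 1 + (3 * D.N - i.val - 1) = 3 * D.N := by omega
    exact D.R_trans h2 (D.chain_t b false y _ i.val i.2 h3 hchain)

/-- Two points in a common copy. -/
lemma same_copy {b : L} {y : EdgeC D.C} {i : Fin (3 * D.N)} {z z' : X}
    (H : D.HH b (D.ptV y i z) (D.ptV y i z')) : D.R b false (D.ptV y i z) (D.ptV y i z') := by
  have hN := D.hN
  have hi3 := i.2
  refine D.R_pt ?_
  by_cases hi : i.val < 2 * D.N
  · obtain ⟨j, hj1, hj2, hj3⟩ := D.exists_twin y i.val 2 (by norm_num)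
    have hij : i.val < j := by nlinarith
    have hj : j < 3 * D.N := by nlinarith
    have h1 := H _ (D.fold_isHom y i.val j hij hj hj3)
    rwa [D.fold_lo y i.val j hij hj hj3 i rfl, D.fold_lo y i.val j hij hj hj3 i rfl] at h1
  · obtain ⟨j, hj1, hj2, hj3⟩ := D.exists_twin y i.val 0 (by norm_num)
    have hj3' : D.pr y i.val = (D.pr y j).swap := by rw [hj3, Prod.swap_swap]
    have hji : j < i.val := by nlinarith
    have h1 := H _ (D.fold_isHom y j i.val hji i.2 hj3')
    rwa [D.fold_hi y j i.val hji i.2 hj3' i rfl, D.fold_hi y j i.val hji i.2 hj3' i rfl] at h1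

/-- Two points in distinct copies of a chain. -/
lemma same_chain {b : L} {y : EdgeC D.C} {i i' : Fin (3 * D.N)} {z z' : X} (hii : i.val < i'.val)
    (H : D.HH b (D.ptV y i z) (D.ptV y i' z')) :
    D.R b false (D.ptV y i z) (D.ptV y i' z') ∨
      (D.R b false (D.ptV y i z) (D.srcV y) ∧ D.R b false (D.ptV y i' z') (D.tgtV y)) := by
  have hN := D.hN
  have hi3 := i.2
  have hi3' := i'.2
  by_cases hA : ∃ k, k < 3 ∧ i.val < k * D.N ∧ (k + 1) * D.N ≤ i'.val
  · -- a full block between the two copies: link to the two ends of the chain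
    obtain ⟨k, hk, hk1, hk2⟩ := hA
    right
    constructor
    · have hchain : ∀ l, l < i.val → D.θ b (D.pr y l).1 (D.pr y l).2 := by
        intro l hl
        obtain ⟨j, hj1, hj2, hj3⟩ := D.exists_twin y l k hk
        have hlj : l < j := by omega
        have hj : j < 3 * D.N := D.block_lt hk hj2
        have h1 := H _ (D.fold_isHom y l j hlj hj hj3)
        rw [D.fold_in y l j hlj hj hj3 i hl (by omega),
          D.fold_out y l j hlj hj hj3 i' (Or.inr (by omega))] at h1
        exact (D.θ b).symm h1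
      obtain ⟨j, hj1, hj2, hj3⟩ := D.exists_twin y i.val k hk
      have hij : i.val < j := by omega
      have hj : j < 3 * D.N := D.block_lt hk hj2
      have h1 := H _ (D.fold_isHom y i.val j hij hj hj3)
      rw [D.fold_lo y i.val j hij hj hj3 i rfl,
        D.fold_out y i.val j hij hj hj3 i' (Or.inr (by omega))] at h1
      have h2 : D.R b false (D.ptV y i z) (D.ptV y i (D.pr y i.val).1) := D.R_pt h1
      exact D.R_trans h2 (D.R_symm (D.chain_s b false y i.val i.2 hchain))
    · have hchain : ∀ l, i'.val < l → l < 3 * D.N → D.θ b (D.pr y l).1 (D.pr y l).2 := by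
        intro l hl hl3
        obtain ⟨j, hj1, hj2, hj3⟩ := D.exists_twin y l k hk
        have hj3' : D.pr y l = (D.pr y j).swap := by rw [hj3, Prod.swap_swap]
        have hjl : j < l := by omega
        have h1 := H _ (D.fold_isHom y j l hjl hl3 hj3')
        rw [D.fold_out y j l hjl hl3 hj3' i (Or.inl (by omega)),
          D.fold_in y j l hjl hl3 hj3' i' (by omega) hl] at h1
        rw [hj3']
        exact (D.θ b).symm h1
      obtain ⟨j, hj1, hj2, hj3⟩ := D.exists_twin y i'.val k hk
      have hj3' : D.pr y i'.val = (D.pr y j).swap := by rw [hj3, Prod.swap_swap]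
      have hji : j < i'.val := by omega
      have h1 := H _ (D.fold_isHom y j i'.val hji i'.2 hj3')
      rw [D.fold_out y j i'.val hji i'.2 hj3' i (Or.inl (by omega)),
        D.fold_hi y j i'.val hji i'.2 hj3' i' rfl] at h1
      have h2 : D.R b false (D.ptV y i' z') (D.ptV y i' (D.pr y i'.val).2) := by
        refine D.R_pt ?_
        rw [hj3']
        exact (D.θ b).symm h1
      have h3 : i'.val + 1 + (3 * D.N - i'.val - 1) = 3 * D.N := by omega
      exact D.R_trans h2 (D.chain_t b false y _ i'.val i'.2 h3 hchain)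
  · -- a full block outside of the two copies: link along the short route
    left
    have hcase : i'.val < 2 * D.N ∨ D.N ≤ i.val := by
      by_contra hcon
      push Not at hcon
      exact hA ⟨1, by norm_num, by omega, by omega⟩
    obtain ⟨d, hd⟩ : ∃ d, i'.val = i.val + 1 + d := ⟨i'.val - i.val - 1, by omega⟩
    rcases hcase with hc | hc
    · have hchain : ∀ l, i.val < l → l < i'.val → D.θ b (D.pr y l).1 (D.pr y l).2 := by
        intro l hl hl'
        obtain ⟨j, hj1, hj2, hj3⟩ := D.exists_twin y l 2 (by norm_num)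
        have hlj : l < j := by nlinarith
        have hj : j < 3 * D.N := by nlinarith
        have h1 := H _ (D.fold_isHom y l j hlj hj hj3)
        rw [D.fold_out y l j hlj hj hj3 i (Or.inl hl),
          D.fold_in y l j hlj hj hj3 i' hl' (by nlinarith)] at h1
        exact h1
      have l1 : D.R b false (D.ptV y i z) (D.ptV y i (D.pr y i.val).2) := by
        obtain ⟨j, hj1, hj2, hj3⟩ := D.exists_twin y i.val 2 (by norm_num)
        have hij : i.val < j := by nlinarith
        have hj : j < 3 * D.N := by nlinarith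
        have h1 := H _ (D.fold_isHom y i.val j hij hj hj3)
        rw [D.fold_lo y i.val j hij hj hj3 i rfl,
          D.fold_in y i.val j hij hj hj3 i' hii (by nlinarith)] at h1
        exact D.R_pt h1
      have l2 : D.R b false (D.ptV y i' z') (D.ptV y i' (D.pr y i'.val).1) := by
        obtain ⟨j, hj1, hj2, hj3⟩ := D.exists_twin y i'.val 2 (by norm_num)
        have hij : i'.val < j := by nlinarith
        have hj : j < 3 * D.N := by nlinarith
        have h1 := H _ (D.fold_isHom y i'.val j hij hj hj3)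
        rw [D.fold_out y i'.val j hij hj hj3 i (Or.inl hii),
          D.fold_lo y i'.val j hij hj hj3 i' rfl] at h1
        exact D.R_pt ((D.θ b).symm h1)
      have hmid := D.chain_between b false y i.val d i.2 (by omega)
        (fun l hl hl' => hchain l hl (by omega))
      have hfin : (⟨i.val + 1 + d, by omega⟩ : Fin (3 * D.N)) = i' := Fin.ext hd.symm
      rw [hfin] at hmid
      have hp : D.pr y (i.val + 1 + d) = D.pr y i'.val := by rw [hd]
      rw [hp] at hmid
      exact D.R_trans l1 (D.R_trans hmid (D.R_symm l2))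
    · have hchain : ∀ l, i.val < l → l < i'.val → D.θ b (D.pr y l).1 (D.pr y l).2 := by
        intro l hl hl'
        obtain ⟨j, hj1, hj2, hj3⟩ := D.exists_twin y l 0 (by norm_num)
        have hj3' : D.pr y l = (D.pr y j).swap := by rw [hj3, Prod.swap_swap]
        have hjl : j < l := by omega
        have hl3 : l < 3 * D.N := by omega
        have h1 := H _ (D.fold_isHom y j l hjl hl3 hj3')
        rw [D.fold_in y j l hjl hl3 hj3' i (by omega) hl,
          D.fold_out y j l hjl hl3 hj3' i' (Or.inr hl')] at h1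
        rw [hj3']
        exact h1
      have l1 : D.R b false (D.ptV y i z) (D.ptV y i (D.pr y i.val).2) := by
        obtain ⟨j, hj1, hj2, hj3⟩ := D.exists_twin y i.val 0 (by norm_num)
        have hj3' : D.pr y i.val = (D.pr y j).swap := by rw [hj3, Prod.swap_swap]
        have hji : j < i.val := by omega
        have h1 := H _ (D.fold_isHom y j i.val hji i.2 hj3')
        rw [D.fold_hi y j i.val hji i.2 hj3' i rfl,
          D.fold_out y j i.val hji i.2 hj3' i' (Or.inr hii)] at h1
        refine D.R_pt ?_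
        rw [hj3']
        exact h1
      have l2 : D.R b false (D.ptV y i' z') (D.ptV y i' (D.pr y i'.val).1) := by
        obtain ⟨j, hj1, hj2, hj3⟩ := D.exists_twin y i'.val 0 (by norm_num)
        have hj3' : D.pr y i'.val = (D.pr y j).swap := by rw [hj3, Prod.swap_swap]
        have hji : j < i'.val := by omega
        have h1 := H _ (D.fold_isHom y j i'.val hji i'.2 hj3')
        rw [D.fold_in y j i'.val hji i'.2 hj3' i (by omega) hii,
          D.fold_hi y j i'.val hji i'.2 hj3' i' rfl] at h1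
        refine D.R_pt ?_
        rw [hj3']
        exact (D.θ b).symm h1
      have hmid := D.chain_between b false y i.val d i.2 (by omega)
        (fun l hl hl' => hchain l hl (by omega))
      have hfin : (⟨i.val + 1 + d, by omega⟩ : Fin (3 * D.N)) = i' := Fin.ext hd.symm
      rw [hfin] at hmid
      have hp : D.pr y (i.val + 1 + d) = D.pr y i'.val := by rw [hd]
      rw [hp] at hmid
      exact D.R_trans l1 (D.R_trans hmid (D.R_symm l2))

/-- The conclusion of the key lemma. -/
def Concl (b : L) (v v' : D.V) : Prop :=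
  D.R b false v v' ∨ ∃ c : D.C, c.1 ≤ b ∧
    ((D.R b false v (D.hbV c) ∧ D.R b false v' D.ttV) ∨
      (D.R b false v D.ttV ∧ D.R b false v' (D.hbV c)))

lemma Concl.symm {D : DtC L X} {b : L} {v v' : D.V} (h : D.Concl b v v') : D.Concl b v' v := by
  rcases h with h | ⟨c, hc, ⟨h1, h2⟩ | ⟨h1, h2⟩⟩
  · exact Or.inl (D.R_symm h)
  · exact Or.inr ⟨c, hc, Or.inr ⟨h2, h1⟩⟩
  · exact Or.inr ⟨c, hc, Or.inl ⟨h2, h1⟩⟩

lemma Concl.trans_ends {D : DtC L X} {b : L} {v v' p q : D.V} (h : D.Concl b p q)
    (h1 : D.R b false v p) (h2 : D.R b false v' q) : D.Concl b v v' := by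
  rcases h with h | ⟨c, hc, ⟨h3, h4⟩ | ⟨h3, h4⟩⟩
  · exact Or.inl (D.R_trans h1 (D.R_trans h (D.R_symm h2)))
  · exact Or.inr ⟨c, hc, Or.inl ⟨D.R_trans h1 h3, D.R_trans h2 h4⟩⟩
  · exact Or.inr ⟨c, hc, Or.inr ⟨D.R_trans h1 h3, D.R_trans h2 h4⟩⟩

/-- The vertices at the ends of chains. -/
def IsEnd (p : D.V) : Prop := p = D.rtV D.x₀ ∨ p = D.ttV ∨ ∃ c, p = D.hbV c

lemma srcV_end (e : EdgeC D.C) : D.IsEnd (D.srcV e) := by
  cases e with
  | hh c c' u h h' => exact Or.inr (Or.inr ⟨c, rfl⟩)
  | ht c u h h' => exact Or.inr (Or.inr ⟨c, rfl⟩)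
  | rh c => exact Or.inl rfl

lemma tgtV_end (e : EdgeC D.C) : D.IsEnd (D.tgtV e) := by
  cases e with
  | hh c c' u h h' => exact Or.inr (Or.inr ⟨c', rfl⟩)
  | ht c u h h' => exact Or.inr (Or.inl rfl)
  | rh c => exact Or.inr (Or.inr ⟨c, rfl⟩)

/-- A hub separated by `HH` from a vertex on which the hit maps take the other value. -/
lemma le_of_hit {b : L} {c : D.C} {v : D.V}
    (hv : ∀ (a a' : X) (φ : D.V → X), D.IsHom φ → (∀ x, φ (D.rtV x) = a') → φ D.ttV = a' →
      φ (D.hbV c) = a → (∀ c', c' ≠ c → φ (D.hbV c') = a') → φ v = a')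
    (H : D.HH b (D.hbV c) v) : c.1 ≤ b := by
  refine (D.hθ _ _).1 ?_
  intro a a' ha
  obtain ⟨φ, h1, h2, h3, h4, h5⟩ := D.exists_hit c ha
  have h6 := H φ h1
  rw [h4, hv a a' φ h1 h2 h3 h4 h5] at h6
  exact h6

/-- The root separated by `HH` from a hub or the new point: the label is the top. -/
lemma top_le_of_sep {b : L} {v : D.V} (hv : ∀ (a a' : X) (φ : D.V → X), D.IsHom φ →
      (∀ x, φ (D.rtV x) = a') → φ D.ttV = a → (∀ c, φ (D.hbV c) = a) → φ v = a)
    (H : D.HH b (D.rtV D.x₀) v) : D.top ≤ b := by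
  refine (D.hθ _ _).1 ?_
  intro a a' _
  obtain ⟨φ, h1, h2, h3, h4⟩ := D.exists_sep a' a
  have h6 := H φ h1
  rw [h2, hv a' a φ h1 h2 h3 h4] at h6
  exact h6

/-- The key lemma on the ends of chains. -/
lemma key_end {b : L} {p q : D.V} (hp : D.IsEnd p) (hq : D.IsEnd q) (H : D.HH b p q) :
    D.Concl b p q := by
  have hroot_hb : ∀ c : D.C, D.HH b (D.rtV D.x₀) (D.hbV c) →
      D.R b false (D.rtV D.x₀) (D.hbV c) := by
    intro c h
    have h1 : D.top ≤ b := D.top_le_of_sep (fun _ _ _ _ _ _ h4 => h4 c) h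
    exact D.chain_full false (EdgeC.rh c) h1
  have hroot_tt : D.HH b (D.rtV D.x₀) D.ttV → D.Concl b (D.rtV D.x₀) D.ttV := by
    intro h
    have h1 : D.top ≤ b := D.top_le_of_sep (fun _ _ _ _ _ h3 _ => h3) h
    obtain ⟨c, hc⟩ := D.hne
    have h2 : D.R b false (D.rtV D.x₀) (D.hbV ⟨c, hc⟩) := D.chain_full false (EdgeC.rh ⟨c, hc⟩) h1
    exact Or.inr ⟨⟨c, hc⟩, le_trans (D.le_top c) h1, Or.inl ⟨h2, D.R_refl _ _ _⟩⟩
  have htt_hb : ∀ c : D.C, D.HH b (D.hbV c) D.ttV → D.Concl b (D.hbV c) D.ttV := by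
    intro c h
    have h1 : c.1 ≤ b := D.le_of_hit (fun _ _ _ _ _ h3 _ _ => h3) h
    exact Or.inr ⟨c, h1, Or.inl ⟨D.R_refl _ _ _, D.R_refl _ _ _⟩⟩
  rcases hp with rfl | rfl | ⟨c, rfl⟩ <;> rcases hq with rfl | rfl | ⟨c', rfl⟩
  · exact Or.inl (D.R_refl _ _ _)
  · exact hroot_tt H
  · exact Or.inl (hroot_hb c' H)
  · exact Concl.symm (hroot_tt (HH.symm H))
  · exact Or.inl (D.R_refl _ _ _)
  · exact Concl.symm (htt_hb c' (HH.symm H))
  · exact Or.inl (D.R_symm (hroot_hb c (HH.symm H)))
  · exact htt_hb c H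
  · by_cases hcc : c = c'
    · subst hcc
      exact Or.inl (D.R_refl _ _ _)
    · have h1 : c.1 ≤ b := D.le_of_hit (fun _ _ _ _ _ _ _ h5 => h5 c' (Ne.symm hcc)) H
      have h2 : c'.1 ≤ b := D.le_of_hit (fun _ _ _ _ _ _ _ h5 => h5 c hcc) (HH.symm H)
      exact Or.inl (D.chain_full false (EdgeC.hh c c' b h1 h2) le_rfl)

/-- Going to the ends of chains. -/
lemma concl_of_ends {b : L} {v v' p q : D.V} (hp : D.IsEnd p) (hq : D.IsEnd q)
    (h1 : D.R b false v p) (h2 : D.R b false v' q) (H : D.HH b v v') : D.Concl b v v' := by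
  refine Concl.trans_ends (D.key_end hp hq ?_) h1 h2
  intro φ hφ
  exact (D.θ b).trans ((D.θ b).symm (hφ.map h1)) ((D.θ b).trans (H φ hφ) (hφ.map h2))

/-- A vertex of a chain, related to a vertex outside of the chain, is linked to an end. -/
lemma link_end {b : L} {y : EdgeC D.C} {i : Fin (3 * D.N)} {z : X} {v' : D.V}
    (hout : D.Outer y v') (H : D.HH b (D.ptV y i z) v') :
    ∃ p, D.IsEnd p ∧ D.R b false (D.ptV y i z) p := by
  rcases D.link_outer hout H with h | h
  · exact ⟨_, D.srcV_end y, h⟩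
  · exact ⟨_, D.tgtV_end y, h⟩

/-- A root vertex related to another vertex than a root vertex is linked to the base point. -/
lemma root_end {b : L} {x : X} {v' : D.V} (hv : D.retr v' = D.x₀) (H : D.HH b (D.rtV x) v') :
    D.R b false (D.rtV x) (D.rtV D.x₀) := by
  have h1 := H _ D.retr_isHom
  rw [hv, retr_rt] at h1
  exact D.R_rt h1

/-- **The key lemma.** -/
theorem key {b : L} (v v' : D.V) (H : D.HH b v v') : D.Concl b v v' := by
  have et : D.IsEnd D.ttV := Or.inr (Or.inl rfl)
  have eh : ∀ c, D.IsEnd (D.hbV c) := fun c => Or.inr (Or.inr ⟨c, rfl⟩)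
  have r0 : D.IsEnd (D.rtV D.x₀) := Or.inl rfl
  induction v using Quot.ind with
  | _ p =>
  induction v' using Quot.ind with
  | _ q =>
  cases p with
  | rt x =>
    cases q with
    | rt x' =>
      have h1 := H _ D.retr_isHom
      exact Or.inl (D.R_rt h1)
    | tt => exact D.concl_of_ends r0 et (D.root_end rfl H) (D.R_refl _ _ _) H
    | hb c => exact D.concl_of_ends r0 (eh c) (D.root_end rfl H) (D.R_refl _ _ _) H
    | cp y i z =>
      obtain ⟨p', hp', h⟩ := D.link_end (Or.inl ⟨x, rfl⟩) (HH.symm H)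
      exact D.concl_of_ends r0 hp' (D.root_end rfl H) h H
  | tt =>
    cases q with
    | rt x' =>
      exact D.concl_of_ends et r0 (D.R_refl _ _ _) (D.root_end rfl (HH.symm H)) H
    | tt => exact Or.inl (D.R_refl _ _ _)
    | hb c => exact D.concl_of_ends et (eh c) (D.R_refl _ _ _) (D.R_refl _ _ _) H
    | cp y i z =>
      obtain ⟨p', hp', h⟩ := D.link_end (Or.inr (Or.inl rfl)) (HH.symm H)
      exact D.concl_of_ends et hp' (D.R_refl _ _ _) h H
  | hb c =>
    cases q with
    | rt x' =>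
      exact D.concl_of_ends (eh c) r0 (D.R_refl _ _ _) (D.root_end rfl (HH.symm H)) H
    | tt => exact D.concl_of_ends (eh c) et (D.R_refl _ _ _) (D.R_refl _ _ _) H
    | hb c' => exact D.concl_of_ends (eh c) (eh c') (D.R_refl _ _ _) (D.R_refl _ _ _) H
    | cp y i z =>
      obtain ⟨p', hp', h⟩ := D.link_end (Or.inr (Or.inr (Or.inl ⟨c, rfl⟩))) (HH.symm H)
      exact D.concl_of_ends (eh c) hp' (D.R_refl _ _ _) h H
  | cp y i z =>
    cases q with
    | rt x' =>
      obtain ⟨p', hp', h⟩ := D.link_end (Or.inl ⟨x', rfl⟩) H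
      exact D.concl_of_ends hp' r0 h (D.root_end rfl (HH.symm H)) H
    | tt =>
      obtain ⟨p', hp', h⟩ := D.link_end (Or.inr (Or.inl rfl)) H
      exact D.concl_of_ends hp' et h (D.R_refl _ _ _) H
    | hb c =>
      obtain ⟨p', hp', h⟩ := D.link_end (Or.inr (Or.inr (Or.inl ⟨c, rfl⟩))) H
      exact D.concl_of_ends hp' (eh c) h (D.R_refl _ _ _) H
    | cp y' i' z' =>
      by_cases hy : y' = y
      · subst hy
        have hend : ∀ (i i' : Fin (3 * D.N)) (z z' : X), i.val < i'.val →
            D.HH b (D.ptV y' i z) (D.ptV y' i' z') → D.Concl b (D.ptV y' i z) (D.ptV y' i' z') := by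
          intro i i' z z' h0 H
          rcases D.same_chain h0 H with h | ⟨h1, h2⟩
          · exact Or.inl h
          · exact D.concl_of_ends (D.srcV_end y') (D.tgtV_end y') h1 h2 H
        rcases lt_trichotomy i.val i'.val with h | h | h
        · exact hend i i' z z' h H
        · have hi : i = i' := Fin.ext h
          subst hi
          exact Or.inl (D.same_copy H)
        · exact Concl.symm (hend i' i z' z h (HH.symm H))
      · obtain ⟨p', hp', h⟩ := D.link_end (Or.inr (Or.inr (Or.inr ⟨y', i', z', hy, rfl⟩))) H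
        obtain ⟨q', hq', h'⟩ := D.link_end
          (Or.inr (Or.inr (Or.inr ⟨y, i, z, fun h => hy h.symm, rfl⟩))) (HH.symm H)
        exact D.concl_of_ends hp' hq' h h' H

end DtC

end Vale.Agent.Lib.P183
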