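import Mathlib

/-!
# Finite algebras, congruence lattices, representable posets, Day doubling
-/

namespace Vale.Agent.Lib.P183

/-- The operations of a finite algebra with carrier `X`: a finite list of total operations of
finite arity. -/
abbrev Ops (X : Type) : Type := List (Σ n : ℕ, (Fin n → X) → X)

/-- An equivalence relation is a congruence if it is compatible with each operation. -/
def IsCongruence {X : Type} (ops : Ops X) (r : Setoid X) : Prop :=
  ∀ op ∈ ops, ∀ a b : Fin op.1 → X, (∀ i, r (a i) (b i)) → r (op.2 a) (op.2 b)

/-- The congruence lattice of the algebra, ordered by inclusion of equivalence relations. -/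
abbrev CongLat {X : Type} (ops : Ops X) : Type := {r : Setoid X // IsCongruence ops r}

/-- A partial order is representable if it is order isomorphic to the full congruence lattice of
a finite algebra with nonempty carrier. -/
def Representable (P : Type) [PartialOrder P] : Prop :=
  ∃ (X : Type) (_ : Fintype X) (_ : Nonempty X) (ops : Ops X), Nonempty (P ≃o CongLat ops)

/-- Day doubling of the lower pseudo-interval `{x | u ≤ x} \ Y`, for an up-closed set `Y` of
elements above `u`: the subposet of `L × Bool` of the pairs `(x, false)` with `x ∉ Y` and the pairs
`(x, true)` with `u ≤ x`, with the product order. -/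
abbrev Doubling (L : Type) [PartialOrder L] (u : L) (Y : Set L) : Type :=
  {p : L × Bool // (p.2 = true → u ≤ p.1) ∧ (p.1 ∈ Y → p.2 = true)}

/-- The join dependency relation on the join irreducible elements of a lattice: `p` depends on `q`
if `p ≠ q` and there is `x` with `p ≤ q ⊔ x` while `p` is not below `a ⊔ x` for any `a < q`. -/
def JoinDep {L : Type} [Lattice L] (p q : L) : Prop :=
  SupIrred p ∧ SupIrred q ∧ p ≠ q ∧ ∃ x, p ≤ q ⊔ x ∧ ∀ a, a < q → ¬ p ≤ a ⊔ x

/-- A lattice has no `D`-cycle if the join dependency relation has no cycle; among finite lattices
these are exactly the lower bounded lattices. -/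
def NoDCycle (L : Type) [Lattice L] : Prop :=
  ∀ p : L, ¬ Relation.TransGen JoinDep p p

end Vale.Agent.Lib.P183
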