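import Vale.Agent.Lib.P183.Core

/-!
# The closure of representable posets under Day doubling
-/

namespace Vale.Agent.Lib.P183

namespace Dt

variable {L X : Type} [PartialOrder L] (D : Dt L X)

/-- The unary operations of the new algebra: all maps preserving the relations. -/
def MM : Set (D.V → D.V) :=
  {f | ∀ p : Doubling L D.u D.Y, ∀ v v', D.R p.1.1 p.1.2 v v' → D.R p.1.1 p.1.2 (f v) (f v')}

lemma comp_rt_mem {φ : D.V → X} (hφ : D.IsHom φ) {g : X → X}
    (hg : ∀ c x x', D.θ c x x' → D.θ c (g x) (g x')) :
    (fun v => D.rtV (g (φ v))) ∈ D.MM := by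
  intro p v v' h
  exact D.R_rt (hg _ _ _ (hφ.map p.2.1 h))

lemma comp_pt_mem {φ : D.V → X} (hφ : D.IsHom φ) (y : D.Y) (i : Fin (3 * D.N)) :
    (fun v => D.ptV y i (φ v)) ∈ D.MM := by
  intro p v v' h
  exact D.R_pt (hφ.map p.2.1 h)

/-- The new pair is not related below the up-closed set. -/
lemma no_spec {b : L} (hb : b ∉ D.Y) : ¬ D.R b false D.sV D.ttV := by
  classical
  have hy : ∀ y : D.Y, ∃ a a', D.θ y a a' ∧ ¬ D.θ b a a' := by
    intro y
    by_contra hcon
    push Not at hcon
    have h1 : D.θ y ≤ D.θ b := fun a a' h => hcon a a' h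
    exact hb (D.hYup _ _ y.2 ((D.hθ _ _).1 h1))
  choose a a' hin hout using hy
  have hpos : ∀ y : D.Y, ∃ l, l < 3 * D.N ∧ D.pr y l = (a y, a' y) := by
    intro y
    obtain ⟨l, _, h2, h3⟩ := D.hw (a y, a' y) 0 (by norm_num)
    refine ⟨l, by nlinarith [D.hN], ?_⟩
    unfold pr
    rw [h3, if_pos (hin y)]
  choose l hl hlp using hpos
  set κF : PV X D.Y (3 * D.N) → Prop := fun p => match p with
    | .rt _ => False
    | .tt => True
    | .cp y i z => if i.val < l y then False else if i.val = l y then D.θ b z (a' y) else True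
    with hκF
  have hresp : ∀ p q : PV X D.Y (3 * D.N), Glue D.pr D.x₀ p q → κF p = κF q := by
    intro p q h
    cases h with
    | first y i h =>
      simp only [hκF]
      split_ifs with h1 h2
      · rfl
      · have h3 : (i : ℕ) = l y := h2
        rw [h3, hlp y]
        exact propext ⟨fun h => hout y h, False.elim⟩
      · omega
    | step y i j h =>
      simp only [hκF]
      split_ifs <;> first
        | rfl
        | omega
        | (have h3 : (j : ℕ) = l y := by omega
           rw [h3, hlp y]
           exact propext ⟨False.elim, fun h => hout y h⟩)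
        | (have h3 : (i : ℕ) = l y := by omega
           rw [h3, hlp y]
           exact propext ⟨fun _ => trivial, fun _ => (D.θ b).refl _⟩)
    | last y i h =>
      simp only [hκF]
      have := hl y
      split_ifs with h1 h2
      · omega
      · have h3 : (i : ℕ) = l y := h2
        rw [h3, hlp y]
        exact propext ⟨fun _ => trivial, fun _ => (D.θ b).refl _⟩
      · rfl
  set κ : D.V → Prop := Quot.lift κF hresp with hκ
  have hle : D.R b false ≤ Setoid.ker κ := by
    refine Setoid.eqvGen_le ?_
    intro v v' h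
    change κ v = κ v'
    cases h with
    | rt hx => rfl
    | @pt y i x x' hx =>
      change κF (.cp y i x) = κF (.cp y i x')
      simp only [hκF]
      split_ifs
      · rfl
      · exact propext ⟨fun h => (D.θ b).trans ((D.θ b).symm hx) h, fun h => (D.θ b).trans hx h⟩
      · rfl
    | spec he => exact absurd he (by simp)
  intro hst
  have h1 : κ D.sV = κ D.ttV := hle hst
  have h2 : κ D.sV = False := rfl
  have h3 : κ D.ttV = True := rfl
  rw [h2, h3] at h1
  exact h1.symm ▸ trivial

/-- A full chain joins the two new points. -/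
lemma chain_full {b : L} (ε : Bool) (y : D.Y) (h : ∀ l, D.θ b (D.pr y l).1 (D.pr y l).2) :
    D.R b ε D.sV D.ttV := by
  have hN := D.hN
  have hn : 3 * D.N - 1 < 3 * D.N := by omega
  have h1 := D.chain_s b ε y (3 * D.N - 1) hn (fun l _ => h l)
  have h2 : D.R b ε (D.ptV y ⟨3 * D.N - 1, hn⟩ (D.pr y (3 * D.N - 1)).1)
      (D.ptV y ⟨3 * D.N - 1, hn⟩ (D.pr y (3 * D.N - 1)).2) := D.R_pt (h _)
  have h3 := D.glue_last y ⟨3 * D.N - 1, hn⟩ (by simp only; omega)
  simp only at h3
  rw [h3] at h2
  exact D.R_trans h1 h2

/-- The map from the doubled poset to the congruences. -/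
def Phi (p : Doubling L D.u D.Y) : {r : Setoid D.V // ∀ f ∈ D.MM, ∀ a b, r a b → r (f a) (f b)} :=
  ⟨D.R p.1.1 p.1.2, fun _ hf a b h => hf p a b h⟩

lemma Phi_le_iff (p p' : Doubling L D.u D.Y) : D.Phi p ≤ D.Phi p' ↔ p ≤ p' := by
  constructor
  · intro h
    have h' : D.R p.1.1 p.1.2 ≤ D.R p'.1.1 p'.1.2 := h
    have hb : p.1.1 ≤ p'.1.1 := by
      refine (D.hθ _ _).1 ?_
      intro x x' hx
      have h1 : D.R p.1.1 p.1.2 (D.rtV x) (D.rtV x') := D.R_rt hx
      exact D.retr_isHom.map p'.2.1 (h' h1)
    have hε : p.1.2 ≤ p'.1.2 := by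
      cases h2 : p.1.2 with
      | false => exact Bool.false_le _
      | true =>
        cases h3 : p'.1.2 with
        | true => exact le_rfl
        | false =>
          exfalso
          have h4 : D.R p.1.1 p.1.2 D.sV D.ttV := D.R_of_gen (Gen.spec h2)
          have h5 := h' h4
          rw [h3] at h5
          have hnot : p'.1.1 ∉ D.Y := fun hY => by
            have := p'.2.2 hY
            rw [h3] at this
            exact absurd this (by simp)
          exact D.no_spec hnot h5
    exact Prod.mk_le_mk.2 ⟨hb, hε⟩ |> fun hh => by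
      change p.1 ≤ p'.1
      exact hh
  · intro h
    have h1 : p.1.1 ≤ p'.1.1 := h.1
    have h2 : p.1.2 ≤ p'.1.2 := h.2
    refine D.R_mono h1 ?_
    intro he
    rw [he] at h2
    exact top_le_iff.1 h2

/-- The surjectivity of the map to the congruences. -/
lemma Phi_surj (hsurj : ∀ r : Setoid X, (∀ g : X → X, (∀ c x x', D.θ c x x' → D.θ c (g x) (g x')) →
      ∀ x x', r x x' → r (g x) (g x')) → ∃ b, r = D.θ b)
    (Θ : {r : Setoid D.V // ∀ f ∈ D.MM, ∀ a b, r a b → r (f a) (f b)}) :
    ∃ p, D.Phi p = Θ := by
  classical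
  obtain ⟨Θ, hΘ⟩ := Θ
  obtain ⟨b, hb⟩ := hsurj (Setoid.comap D.rtV Θ) (by
    intro g hg x x' hx
    rw [Setoid.comap_rel] at hx ⊢
    exact hΘ _ (D.comp_rt_mem D.retr_isHom hg) _ _ hx)
  have hb' : ∀ x x', Θ (D.rtV x) (D.rtV x') ↔ D.θ b x x' := by
    intro x x'
    rw [← hb]
    exact Iff.rfl
  have hR0 : D.R b false ≤ Θ := by
    refine Setoid.eqvGen_le ?_
    intro v v' h
    cases h with
    | rt hx => exact (hb' _ _).2 hx
    | @pt y i x x' hx =>
      exact hΘ _ (D.comp_pt_mem D.retr_isHom y i) _ _ ((hb' _ _).2 hx)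
    | spec he => exact absurd he (by simp)
  by_cases hst : Θ D.sV D.ttV
  · -- the new pair is in the congruence
    have hu : D.u ≤ b := by
      refine (D.hθ _ _).1 ?_
      intro a a' ha
      obtain ⟨l, _, h2, h3⟩ := D.hw (a, a') 0 (by norm_num)
      have hl : l < 3 * D.N := by nlinarith [D.hN]
      have hp : ∀ y, D.pr y l = (a, a') := by
        intro y
        unfold pr
        rw [h3, if_pos (((D.hθ _ _).2 (D.hYu y y.2)) ha)]
      have h4 := hΘ _ (D.comp_rt_mem (D.hit_isHom hl hp ha) (g := id) (fun _ _ _ h => h)) _ _ hst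
      exact (hb' _ _).1 h4
    refine ⟨⟨(b, true), fun _ => hu, fun _ => rfl⟩, Subtype.ext ?_⟩
    apply le_antisymm
    · refine Setoid.eqvGen_le ?_
      intro v v' h
      cases h with
      | rt hx => exact (hb' _ _).2 hx
      | @pt y i x x' hx =>
        exact hΘ _ (D.comp_pt_mem D.retr_isHom y i) _ _ ((hb' _ _).2 hx)
      | spec he => exact hst
    · intro v v' hv
      have hHH : D.HH b v v' := by
        intro φ hφ
        have h1 := hΘ _ (D.comp_rt_mem hφ (g := id) (fun _ _ _ h => h)) _ _ hv
        exact (hb' _ _).1 h1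
      have hmono : D.R b false ≤ D.R b true := D.R_mono le_rfl (fun h => absurd h (by simp))
      have hspec : D.R b true D.sV D.ttV := D.R_of_gen (Gen.spec rfl)
      rcases D.key v v' hHH with h | ⟨h1, h2⟩ | ⟨h1, h2⟩
      · exact hmono h
      · exact D.R_trans (hmono h1) (D.R_trans hspec (D.R_symm (hmono h2)))
      · exact D.R_trans (hmono h1) (D.R_trans (D.R_symm hspec) (D.R_symm (hmono h2)))
  · -- the new pair is not in the congruence
    have hnot : b ∉ D.Y := by
      intro hY
      exact hst (hR0 (D.chain_full (y := ⟨b, hY⟩) false (fun l => D.pr_mem ⟨b, hY⟩ l)))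
    refine ⟨⟨(b, false), fun h => absurd h (by simp), fun h => absurd h hnot⟩, Subtype.ext ?_⟩
    apply le_antisymm
    · exact hR0
    · intro v v' hv
      have hHH : D.HH b v v' := by
        intro φ hφ
        have h1 := hΘ _ (D.comp_rt_mem hφ (g := id) (fun _ _ _ h => h)) _ _ hv
        exact (hb' _ _).1 h1
      rcases D.key v v' hHH with h | ⟨h1, h2⟩ | ⟨h1, h2⟩
      · exact h
      · exfalso
        exact hst (Θ.trans (Θ.symm (hR0 h1)) (Θ.trans hv (hR0 h2)))
      · exfalso
        exact hst (Θ.trans (Θ.symm (hR0 h2)) (Θ.trans (Θ.symm hv) (hR0 h1)))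

instance [Finite L] [Finite X] : Finite D.V := by
  have h1 : Finite (PV X D.Y (3 * D.N)) := by
    refine Finite.of_surjective
      (fun s : X ⊕ Unit ⊕ (D.Y × Fin (3 * D.N) × X) => match s with
        | .inl x => (PV.rt x : PV X D.Y (3 * D.N))
        | .inr (.inl _) => PV.tt
        | .inr (.inr (y, i, x)) => PV.cp y i x) ?_
    intro p
    cases p with
    | rt x => exact ⟨.inl x, rfl⟩
    | tt => exact ⟨.inr (.inl ()), rfl⟩
    | cp y i x => exact ⟨.inr (.inr (y, i, x)), rfl⟩
  exact Finite.of_surjective (Quot.mk _) (fun v => Quot.exists_rep v)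

end Dt

/-- A poset isomorphic to the lattice of compatible equivalences of a set of unary maps on a finite
nonempty set is representable. -/
lemma rep_of_unary {P : Type} [PartialOrder P] {V : Type} [Finite V] [Nonempty V]
    (M : Set (V → V)) (e : P ≃o {r : Setoid V // ∀ f ∈ M, ∀ a b, r a b → r (f a) (f b)}) :
    Representable P := by
  classical
  have hfin : M.Finite := Set.toFinite M
  set ops : Ops V := hfin.toFinset.toList.map (fun f => (⟨1, fun v => f (v 0)⟩ : Σ n : ℕ, (Fin n → V) → V))
    with hops
  have hiff : ∀ r : Setoid V, (∀ f ∈ M, ∀ a b, r a b → r (f a) (f b)) ↔ IsCongruence ops r := by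
    intro r
    constructor
    · intro h op hop a b hab
      rw [hops, List.mem_map] at hop
      obtain ⟨f, hf, rfl⟩ := hop
      rw [Finset.mem_toList, Set.Finite.mem_toFinset] at hf
      exact h f hf _ _ (hab 0)
    · intro h f hf a b hab
      have hmem : (⟨1, fun v => f (v 0)⟩ : Σ n : ℕ, (Fin n → V) → V) ∈ ops := by
        rw [hops, List.mem_map]
        exact ⟨f, by rwa [Finset.mem_toList, Set.Finite.mem_toFinset], rfl⟩
      exact h _ hmem (fun _ => a) (fun _ => b) (fun _ => hab)
  have e2 : {r : Setoid V // ∀ f ∈ M, ∀ a b, r a b → r (f a) (f b)} ≃o CongLat ops :=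
    { toEquiv := Equiv.subtypeEquivRight hiff
      map_rel_iff' := by
        intro a b
        exact Iff.rfl }
  exact ⟨V, Fintype.ofFinite V, inferInstance, ops, ⟨e.trans e2⟩⟩

/-- In a representation, a relation compatible with all of the maps preserving the congruences is
a congruence. -/
lemma isCongruence_of_compat {X : Type} {ops : Ops X} {r : Setoid X}
    (h : ∀ g : X → X, (∀ c : CongLat ops, ∀ x x', c.1 x x' → c.1 (g x) (g x')) →
      ∀ x x', r x x' → r (g x) (g x')) : IsCongruence ops r := by
  classical
  intro op hop a b hab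
  obtain ⟨n, o⟩ := op
  change Fin n → X at a b
  change r (o a) (o b)
  -- interpolate between the two tuples
  have key : ∀ k : ℕ, k ≤ n → r (o a) (o fun i => if i.val < k then b i else a i) := by
    intro k
    induction k with
    | zero =>
      intro _
      have : (fun i : Fin n => if i.val < 0 then b i else a i) = a := by
        funext i; simp
      rw [this]
    | succ k ih =>
      intro hk
      have hkn : k < n := hk
      refine r.trans (ih (by omega)) ?_
      set g : X → X := fun x =>
        o fun i => if i.val < k then b i else if i = ⟨k, hkn⟩ then x else a i with hg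
      have hgc : ∀ c : CongLat ops, ∀ x x', c.1 x x' → c.1 (g x) (g x') := by
        intro c x x' hx
        refine c.2 _ hop _ _ (fun i => ?_)
        show c.1 (if i.val < k then b i else if i = ⟨k, hkn⟩ then x else a i)
          (if i.val < k then b i else if i = ⟨k, hkn⟩ then x' else a i)
        split_ifs
        · exact c.1.refl _
        · exact hx
        · exact c.1.refl _
      have h1 := h g hgc (a ⟨k, hkn⟩) (b ⟨k, hkn⟩) (hab _)
      have e1 : g (a ⟨k, hkn⟩) = o fun i => if i.val < k then b i else a i := by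
        simp only [hg]
        congr 1
        funext i
        split_ifs with h2 h3
        · rfl
        · rw [h3]
        · rfl
      have e2 : g (b ⟨k, hkn⟩) = o fun i => if i.val < k + 1 then b i else a i := by
        simp only [hg]
        congr 1
        funext i
        by_cases h2 : i.val < k
        · rw [if_pos h2, if_pos (by omega)]
        · rw [if_neg h2]
          by_cases h3 : i = ⟨k, hkn⟩
          · rw [if_pos h3, if_pos (by rw [h3]; simp), h3]
          · rw [if_neg h3, if_neg]
            intro h4
            apply h3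
            apply Fin.ext
            show i.val = k
            omega
      rw [e1, e2] at h1
      exact h1
  have h2 := key n le_rfl
  have : (fun i : Fin n => if i.val < n then b i else a i) = b := by
    funext i; simp
  rw [this] at h2
  exact h2

/-- **The closure theorem.** Representable posets are closed under Day doubling of lower
pseudo-intervals. -/
theorem doubling_representable {L : Type} [PartialOrder L] (u : L) (Y : Set L)
    (hYup : ∀ a b, a ∈ Y → a ≤ b → b ∈ Y) (hYu : ∀ y ∈ Y, u ≤ y) (h : Representable L) :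
    Representable (Doubling L u Y) := by
  classical
  obtain ⟨X, _, ⟨x₀⟩, ops, ⟨e⟩⟩ := h
  set θ : L → Setoid X := fun b => (e b).1 with hθdef
  have hθ : ∀ a b, θ a ≤ θ b ↔ a ≤ b := fun a b => e.le_iff_le
  have hθinj : Function.Injective θ := by
    intro a b hab
    exact le_antisymm ((hθ _ _).1 hab.le) ((hθ _ _).1 hab.ge)
  have hfinS : Finite (Setoid X) := by
    refine Finite.of_injective (fun r : Setoid X => (r.r : X → X → Prop)) ?_
    intro r s hrs
    exact Setoid.ext fun a b => by
      have := congrFun (congrFun hrs a) b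
      exact iff_of_eq this
  have hfinL : Finite L := Finite.of_injective θ hθinj
  have hcard : 0 < Fintype.card (X × X) := Fintype.card_pos_iff.2 ⟨(x₀, x₀)⟩
  set N := Fintype.card (X × X) with hNdef
  let eq0 : X × X ≃ Fin N := Fintype.equivFin (X × X)
  let D : Dt L X :=
    { θ := θ
      x₀ := x₀
      u := u
      Y := Y
      N := N
      w := fun i => eq0.symm ⟨i % N, Nat.mod_lt _ hcard⟩
      hN := hcard
      hw := by
        intro p k hk
        refine ⟨k * N + (eq0 p).val, Nat.le_add_right _ _, ?_, ?_⟩
        · have := (eq0 p).2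
          rw [Nat.succ_mul]
          omega
        · have h1 : (k * N + (eq0 p).val) % N = (eq0 p).val := by
            rw [Nat.mul_comm, Nat.mul_add_mod, Nat.mod_eq_of_lt (eq0 p).2]
          have h2 : (⟨(k * N + (eq0 p).val) % N, Nat.mod_lt _ hcard⟩ : Fin N) = eq0 p :=
            Fin.ext h1
          show eq0.symm ⟨(k * N + (eq0 p).val) % N, Nat.mod_lt _ hcard⟩ = p
          rw [h2, Equiv.symm_apply_apply]
      hθ := hθ
      hYup := hYup
      hYu := hYu }
  have hsurj : ∀ r : Setoid X, (∀ g : X → X, (∀ c x x', θ c x x' → θ c (g x) (g x')) →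
      ∀ x x', r x x' → r (g x) (g x')) → ∃ b, r = θ b := by
    intro r hr
    have hr' : IsCongruence ops r := by
      refine isCongruence_of_compat (fun g hg => hr g ?_)
      intro c x x' hx
      exact hg (e c) x x' hx
    refine ⟨e.symm ⟨r, hr'⟩, ?_⟩
    simp only [hθdef, OrderIso.apply_symm_apply]
  have hbij : Function.Bijective D.Phi := by
    constructor
    · intro p p' hpp
      exact le_antisymm ((D.Phi_le_iff _ _).1 hpp.le) ((D.Phi_le_iff _ _).1 hpp.ge)
    · exact D.Phi_surj hsurj
  have : Nonempty D.V := ⟨D.sV⟩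
  have hfinV : Finite D.V := inferInstance
  refine rep_of_unary D.MM
    { toEquiv := Equiv.ofBijective D.Phi hbij
      map_rel_iff' := ?_ }
  intro a b
  exact D.Phi_le_iff a b

end Vale.Agent.Lib.P183
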