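import Vale.Agent.Lib.P183.CoreC

/-!
# The closure of representable posets under Day doubling of convex sets
-/

namespace Vale.Agent.Lib.P183

namespace DtC

variable {L X : Type} [PartialOrder L] (D : DtC L X)

/-- The unary operations of the new algebra: all maps preserving the relations. -/
def MM : Set (D.V → D.V) :=
  {f | ∀ p : DayDoubling L D.C, ∀ v v', D.R p.1.1 p.1.2 v v' → D.R p.1.1 p.1.2 (f v) (f v')}

lemma comp_rt_mem {φ : D.V → X} (hφ : D.IsHom φ) {g : X → X}
    (hg : ∀ c x x', D.θ c x x' → D.θ c (g x) (g x')) :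
    (fun v => D.rtV (g (φ v))) ∈ D.MM := by
  intro p v v' h
  exact D.R_rt (hg _ _ _ (hφ.map h))

lemma comp_pt_mem {φ : D.V → X} (hφ : D.IsHom φ) (y : EdgeC D.C) (i : Fin (3 * D.N)) :
    (fun v => D.ptV y i (φ v)) ∈ D.MM := by
  intro p v v' h
  exact D.R_pt (hφ.map h)

/-- The new point is not linked to a hub when no chain to the new point is full. -/
lemma no_spec {b : L} (hb : ∀ u, u ≤ b → u ∉ D.C → ∀ c ∈ D.C, ¬ c ≤ u) (c₀ : D.C) :
    ¬ D.R b false (D.hbV c₀) D.ttV := by
  classical
  -- the chains to the new point have a pair outside of the relation of `b`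
  have hy : ∀ e : EdgeC D.C, ∃ (a a' : X) (l : ℕ), ∀ c u h h', e = EdgeC.ht c u h h' →
      (l < 3 * D.N ∧ D.pr e l = (a, a') ∧ ¬ D.θ b a a') := by
    intro e
    cases e with
    | hh c c' u h h' => exact ⟨D.x₀, D.x₀, 0, fun _ _ _ _ h => by cases h⟩
    | rh c => exact ⟨D.x₀, D.x₀, 0, fun _ _ _ _ h => by cases h⟩
    | ht c u h h' =>
      have hnot : ¬ D.θ u ≤ D.θ b := by
        intro hle
        have h1 : u ≤ b := (D.hθ _ _).1 hle
        exact hb u h1 h' c.1 c.2 h
      have hex : ∃ a a', D.θ u a a' ∧ ¬ D.θ b a a' := by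
        by_contra hcon
        push Not at hcon
        exact hnot (fun a a' h => hcon a a' h)
      obtain ⟨a, a', h1, h2⟩ := hex
      obtain ⟨l, _, h3, h4⟩ := D.hw (a, a') 0 (by norm_num)
      refine ⟨a, a', l, fun _ _ _ _ _ => ⟨by nlinarith [D.hN], ?_, h2⟩⟩
      unfold pr
      rw [h4]
      exact if_pos h1
  choose a a' l hl using hy
  let isT : EdgeC D.C → Prop := fun e => ∃ c u h h', e = EdgeC.ht c u h h'
  set κF : PVC X (EdgeC D.C) D.C (3 * D.N) → Prop := fun p => match p with
    | .rt _ => False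
    | .tt => True
    | .hb _ => False
    | .cp e i z => if isT e then
        (if i.val < l e then False else if i.val = l e then D.θ b z (a' e) else True) else False
    with hκF
  have hsrc : ∀ e, κF (D.srcP e) = False := by
    intro e; cases e <;> rfl
  have htgt : ∀ e, κF (D.tgtP e) = isT e := by
    intro e
    cases e with
    | hh c c' u h h' =>
      have : ¬ isT (EdgeC.hh c c' u h h') := by
        rintro ⟨_, _, _, _, h⟩; cases h
      exact (propext (iff_of_false not_false this))
    | ht c u h h' =>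
      have : isT (EdgeC.ht c u h h') := ⟨c, u, h, h', rfl⟩
      exact (propext (iff_of_true trivial this))
    | rh c =>
      have : ¬ isT (EdgeC.rh c) := by
        rintro ⟨_, _, _, _, h⟩; cases h
      exact (propext (iff_of_false not_false this))
  have hresp : ∀ p q : PVC X (EdgeC D.C) D.C (3 * D.N), GlueC D.pr D.srcP D.tgtP p q →
      κF p = κF q := by
    intro p q h
    cases h with
    | first e i h =>
      rw [hsrc]
      simp only [hκF]
      by_cases hT : isT e
      · obtain ⟨c, u, h1, h2, hc⟩ := hT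
        obtain ⟨hl3, hl4, hl5⟩ := hl e c u h1 h2 hc
        have hT' : isT e := ⟨c, u, h1, h2, hc⟩
        rw [if_pos hT']
        split_ifs with h3 h4
        · rfl
        · have h5 : (i : ℕ) = l e := h4
          rw [h5, hl4]
          exact propext ⟨fun h => hl5 h, False.elim⟩
        · omega
      · rw [if_neg hT]
    | step e i j h =>
      simp only [hκF]
      by_cases hT : isT e
      · obtain ⟨c, u, h1, h2, hc⟩ := hT
        obtain ⟨hl3, hl4, hl5⟩ := hl e c u h1 h2 hc
        have hT' : isT e := ⟨c, u, h1, h2, hc⟩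
        rw [if_pos hT', if_pos hT']
        split_ifs <;> first
          | rfl
          | omega
          | (have h3 : (j : ℕ) = l e := by omega
             rw [h3, hl4]
             exact propext ⟨False.elim, fun h => hl5 h⟩)
          | (have h3 : (i : ℕ) = l e := by omega
             rw [h3, hl4]
             exact propext ⟨fun _ => trivial, fun _ => (D.θ b).refl _⟩)
      · rw [if_neg hT, if_neg hT]
    | last e i h =>
      rw [htgt]
      simp only [hκF]
      by_cases hT : isT e
      · have hT2 := hT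
        obtain ⟨c, u, h1, h2, hc⟩ := hT2
        obtain ⟨hl3, hl4, hl5⟩ := hl e c u h1 h2 hc
        rw [if_pos hT]
        split_ifs with h3 h4
        · omega
        · have h5 : (i : ℕ) = l e := h4
          rw [h5, hl4]
          exact propext ⟨fun _ => hT, fun _ => (D.θ b).refl _⟩
        · exact propext ⟨fun _ => hT, fun _ => trivial⟩
      · rw [if_neg hT]
        exact propext ⟨False.elim, fun h => hT h⟩
  set κ : D.V → Prop := Quot.lift κF hresp with hκ
  have hle : D.R b false ≤ Setoid.ker κ := by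
    refine Setoid.eqvGen_le ?_
    intro v v' h
    change κ v = κ v'
    cases h with
    | rt hx => rfl
    | @pt e i x x' hx =>
      change κF (.cp e i x) = κF (.cp e i x')
      simp only [hκF]
      split_ifs
      · rfl
      · exact propext ⟨fun h => (D.θ b).trans ((D.θ b).symm hx) h, fun h => (D.θ b).trans hx h⟩
      · rfl
      · rfl
    | spec c he => exact absurd he (by simp)
  intro hst
  have h1 : κ (D.hbV c₀) = κ D.ttV := hle hst
  have h2 : κ (D.hbV c₀) = False := rfl
  have h3 : κ D.ttV = True := rfl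
  rw [h2, h3] at h1
  exact h1.symm ▸ trivial

/-- The map from the doubled poset to the congruences. -/
def Phi (p : DayDoubling L D.C) : {r : Setoid D.V // ∀ f ∈ D.MM, ∀ a b, r a b → r (f a) (f b)} :=
  ⟨D.R p.1.1 p.1.2, fun _ hf a b h => hf p a b h⟩

lemma Phi_le_iff (p p' : DayDoubling L D.C) : D.Phi p ≤ D.Phi p' ↔ p ≤ p' := by
  constructor
  · intro h
    have h' : D.R p.1.1 p.1.2 ≤ D.R p'.1.1 p'.1.2 := h
    have hb : p.1.1 ≤ p'.1.1 := by
      refine (D.hθ _ _).1 ?_
      intro x x' hx
      have h1 : D.R p.1.1 p.1.2 (D.rtV x) (D.rtV x') := D.R_rt hx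
      exact D.retr_isHom.map (h' h1)
    have hε : p.1.2 ≤ p'.1.2 := by
      cases h2 : p.1.2 with
      | false => exact Bool.false_le _
      | true =>
        cases h3 : p'.1.2 with
        | true => exact le_rfl
        | false =>
          exfalso
          obtain ⟨c, hc, hcb⟩ := p.2.1 h2
          have h4 : D.R p.1.1 p.1.2 (D.hbV ⟨c, hc⟩) D.ttV := D.R_of_gen (Gen.spec ⟨c, hc⟩ h2 hcb)
          have h5 := h' h4
          rw [h3] at h5
          have hmem : p'.1.1 ∈ D.C := p'.2.2 h3 ⟨c, hc, le_trans hcb hb⟩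
          refine D.no_spec ?_ ⟨c, hc⟩ h5
          intro u hu hu' c' hc' hcu
          exact hu' (D.hconv c' u _ hc' hmem hcu hu)
    exact Prod.mk_le_mk.2 ⟨hb, hε⟩ |> fun hh => by
      change p.1 ≤ p'.1
      exact hh
  · intro h
    have h1 : p.1.1 ≤ p'.1.1 := h.1
    have h2 : p.1.2 ≤ p'.1.2 := h.2
    refine D.R_mono h1 ?_
    intro he
    rw [he] at h2
    exact top_le_iff.1 h2

/-- The surjectivity of the map to the congruences. -/
lemma Phi_surj (hsurj : ∀ r : Setoid X, (∀ g : X → X, (∀ c x x', D.θ c x x' → D.θ c (g x) (g x')) →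
      ∀ x x', r x x' → r (g x) (g x')) → ∃ b, r = D.θ b)
    (Θ : {r : Setoid D.V // ∀ f ∈ D.MM, ∀ a b, r a b → r (f a) (f b)}) :
    ∃ p, D.Phi p = Θ := by
  classical
  obtain ⟨Θ, hΘ⟩ := Θ
  obtain ⟨b, hb⟩ := hsurj (Setoid.comap D.rtV Θ) (by
    intro g hg x x' hx
    rw [Setoid.comap_rel] at hx ⊢
    exact hΘ _ (D.comp_rt_mem D.retr_isHom hg) _ _ hx)
  have hb' : ∀ x x', Θ (D.rtV x) (D.rtV x') ↔ D.θ b x x' := by
    intro x x'
    rw [← hb]
    exact Iff.rfl
  have hR0 : D.R b false ≤ Θ := by
    refine Setoid.eqvGen_le ?_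
    intro v v' h
    cases h with
    | rt hx => exact (hb' _ _).2 hx
    | @pt y i x x' hx =>
      exact hΘ _ (D.comp_pt_mem D.retr_isHom y i) _ _ ((hb' _ _).2 hx)
    | spec c he => exact absurd he (by simp)
  have hHH : ∀ v v', Θ v v' → D.HH b v v' := by
    intro v v' hv φ hφ
    have h1 := hΘ _ (D.comp_rt_mem hφ (g := id) (fun _ _ _ h => h)) _ _ hv
    exact (hb' _ _).1 h1
  by_cases hst : ∃ c : D.C, Θ (D.hbV c) D.ttV
  · -- a hub is linked to the new point
    obtain ⟨c₀, hc₀⟩ := hst
    have hc₀b : c₀.1 ≤ b := by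
      refine (D.hθ _ _).1 ?_
      intro a a' ha
      obtain ⟨φ, h1, h2, h3, h4, h5⟩ := D.exists_hit c₀ ha
      have h6 := hHH _ _ hc₀ φ h1
      rwa [h4, h3] at h6
    have hlink : ∀ c : D.C, c.1 ≤ b → Θ (D.hbV c) D.ttV := by
      intro c hc
      have h1 : D.R b false (D.hbV c) (D.hbV c₀) :=
        D.chain_full false (EdgeC.hh c c₀ b hc hc₀b) le_rfl
      exact Θ.trans (hR0 h1) hc₀
    refine ⟨⟨(b, true), fun _ => ⟨c₀.1, c₀.2, hc₀b⟩, fun h => by simp at h⟩, Subtype.ext ?_⟩
    apply le_antisymm
    · refine Setoid.eqvGen_le ?_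
      intro v v' h
      cases h with
      | rt hx => exact (hb' _ _).2 hx
      | @pt y i x x' hx =>
        exact hΘ _ (D.comp_pt_mem D.retr_isHom y i) _ _ ((hb' _ _).2 hx)
      | spec c he hc => exact hlink c hc
    · intro v v' hv
      have hmono : D.R b false ≤ D.R b true := D.R_mono le_rfl (fun h => absurd h (by simp))
      rcases D.key v v' (hHH v v' hv) with h | ⟨c, hc, ⟨h1, h2⟩ | ⟨h1, h2⟩⟩
      · exact hmono h
      · have hspec : D.R b true (D.hbV c) D.ttV := D.R_of_gen (Gen.spec c rfl hc)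
        exact D.R_trans (hmono h1) (D.R_trans hspec (D.R_symm (hmono h2)))
      · have hspec : D.R b true (D.hbV c) D.ttV := D.R_of_gen (Gen.spec c rfl hc)
        exact D.R_trans (hmono h1) (D.R_trans (D.R_symm hspec) (D.R_symm (hmono h2)))
  · -- no hub is linked to the new point
    push Not at hst
    have hvalid : (∃ c ∈ D.C, c ≤ b) → b ∈ D.C := by
      rintro ⟨c, hc, hcb⟩
      by_contra hbC
      have h1 : D.R b false (D.hbV ⟨c, hc⟩) D.ttV :=
        D.chain_full false (EdgeC.ht ⟨c, hc⟩ b hcb hbC) le_rfl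
      exact hst ⟨c, hc⟩ (hR0 h1)
    refine ⟨⟨(b, false), fun h => by simp at h, fun _ => hvalid⟩, Subtype.ext ?_⟩
    apply le_antisymm
    · exact hR0
    · intro v v' hv
      rcases D.key v v' (hHH v v' hv) with h | ⟨c, hc, ⟨h1, h2⟩ | ⟨h1, h2⟩⟩
      · exact h
      · exfalso
        exact hst c (Θ.trans (Θ.symm (hR0 h1)) (Θ.trans hv (hR0 h2)))
      · exfalso
        exact hst c (Θ.trans (Θ.symm (hR0 h2)) (Θ.trans (Θ.symm hv) (hR0 h1)))

instance [Finite L] [Finite X] : Finite D.V := by
  have hE : Finite (EdgeC D.C) := by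
    refine Finite.of_injective
      (fun e : EdgeC D.C => match e with
        | .hh c c' u _ _ => (Sum.inl (c, c', u) : (D.C × D.C × L) ⊕ (D.C × L) ⊕ D.C)
        | .ht c u _ _ => Sum.inr (Sum.inl (c, u))
        | .rh c => Sum.inr (Sum.inr c)) ?_
    intro e e' h
    cases e <;> cases e' <;> simp_all
  have h1 : Finite (PVC X (EdgeC D.C) D.C (3 * D.N)) := by
    refine Finite.of_surjective
      (fun s : X ⊕ Unit ⊕ D.C ⊕ (EdgeC D.C × Fin (3 * D.N) × X) => match s with
        | .inl x => (PVC.rt x : PVC X (EdgeC D.C) D.C (3 * D.N))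
        | .inr (.inl _) => PVC.tt
        | .inr (.inr (.inl c)) => PVC.hb c
        | .inr (.inr (.inr (y, i, x))) => PVC.cp y i x) ?_
    intro p
    cases p with
    | rt x => exact ⟨.inl x, rfl⟩
    | tt => exact ⟨.inr (.inl ()), rfl⟩
    | hb c => exact ⟨.inr (.inr (.inl c)), rfl⟩
    | cp y i x => exact ⟨.inr (.inr (.inr (y, i, x))), rfl⟩
  exact Finite.of_surjective (Quot.mk _) (fun v => Quot.exists_rep v)

end DtC

/-- Doubling the empty set changes nothing. -/
def dayDoubling_empty (L : Type) [PartialOrder L] : DayDoubling L ∅ ≃o L where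
  toFun p := p.1.1
  invFun x := ⟨(x, false), fun h => by simp at h, fun _ h => by
    obtain ⟨c, hc, _⟩ := h
    exact absurd hc (by simp)⟩
  left_inv p := by
    obtain ⟨⟨x, ε⟩, h1, h2⟩ := p
    cases ε with
    | false => rfl
    | true =>
      obtain ⟨c, hc, _⟩ := h1 rfl
      exact absurd hc (by simp)
  right_inv x := rfl
  map_rel_iff' := by
    intro p q
    obtain ⟨⟨x, ε⟩, h1, h2⟩ := p
    obtain ⟨⟨y, δ⟩, h3, h4⟩ := q
    cases ε with
    | true =>
      obtain ⟨c, hc, _⟩ := h1 rfl
      exact absurd hc (by simp)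
    | false =>
      cases δ with
      | true =>
        obtain ⟨c, hc, _⟩ := h3 rfl
        exact absurd hc (by simp)
      | false =>
        constructor
        · intro h
          exact Prod.mk_le_mk.2 ⟨h, le_rfl⟩
        · intro h
          exact h.1

/-- **The closure theorem.** Representable posets are closed under Day doubling of arbitrary convex
subsets. -/
theorem dayDoubling_representable {L : Type} [PartialOrder L] (C : Set L)
    (hconv : ∀ a b c, a ∈ C → c ∈ C → a ≤ b → b ≤ c → b ∈ C) (h : Representable L) :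
    Representable (DayDoubling L C) := by
  classical
  by_cases hne : C.Nonempty
  swap
  · rw [Set.not_nonempty_iff_eq_empty] at hne
    subst hne
    exact representable_congr (dayDoubling_empty L) h
  obtain ⟨X, _, ⟨x₀⟩, ops, ⟨e⟩⟩ := h
  set θ : L → Setoid X := fun b => (e b).1 with hθdef
  have hθ : ∀ a b, θ a ≤ θ b ↔ a ≤ b := fun a b => e.le_iff_le
  have hθinj : Function.Injective θ := by
    intro a b hab
    exact le_antisymm ((hθ _ _).1 hab.le) ((hθ _ _).1 hab.ge)
  have hfinS : Finite (Setoid X) := by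
    refine Finite.of_injective (fun r : Setoid X => (r.r : X → X → Prop)) ?_
    intro r s hrs
    exact Setoid.ext fun a b => by
      have := congrFun (congrFun hrs a) b
      exact iff_of_eq this
  have hfinL : Finite L := Finite.of_injective θ hθinj
  have hcard : 0 < Fintype.card (X × X) := Fintype.card_pos_iff.2 ⟨(x₀, x₀)⟩
  set N := Fintype.card (X × X) with hNdef
  let eq0 : X × X ≃ Fin N := Fintype.equivFin (X × X)
  have hsurj : ∀ r : Setoid X, (∀ g : X → X, (∀ c x x', θ c x x' → θ c (g x) (g x')) →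
      ∀ x x', r x x' → r (g x) (g x')) → ∃ b, r = θ b := by
    intro r hr
    have hr' : IsCongruence ops r := by
      refine isCongruence_of_compat (fun g hg => hr g ?_)
      intro c x x' hx
      exact hg (e c) x x' hx
    refine ⟨e.symm ⟨r, hr'⟩, ?_⟩
    simp only [hθdef, OrderIso.apply_symm_apply]
  obtain ⟨top, htop⟩ := hsurj ⊤ (fun _ _ _ _ _ => trivial)
  let D : DtC L X :=
    { θ := θ
      x₀ := x₀
      C := C
      hne := hne
      top := top
      htop := fun a a' => by
        rw [← htop]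
        trivial
      N := N
      w := fun i => eq0.symm ⟨i % N, Nat.mod_lt _ hcard⟩
      hN := hcard
      hw := by
        intro p k hk
        refine ⟨k * N + (eq0 p).val, Nat.le_add_right _ _, ?_, ?_⟩
        · have := (eq0 p).2
          rw [Nat.succ_mul]
          omega
        · have h1 : (k * N + (eq0 p).val) % N = (eq0 p).val := by
            rw [Nat.mul_comm, Nat.mul_add_mod, Nat.mod_eq_of_lt (eq0 p).2]
          have h2 : (⟨(k * N + (eq0 p).val) % N, Nat.mod_lt _ hcard⟩ : Fin N) = eq0 p :=
            Fin.ext h1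
          show eq0.symm ⟨(k * N + (eq0 p).val) % N, Nat.mod_lt _ hcard⟩ = p
          rw [h2, Equiv.symm_apply_apply]
      hθ := hθ
      hconv := hconv }
  have hbij : Function.Bijective D.Phi := by
    constructor
    · intro p p' hpp
      exact le_antisymm ((D.Phi_le_iff _ _).1 hpp.le) ((D.Phi_le_iff _ _).1 hpp.ge)
    · exact D.Phi_surj hsurj
  have : Nonempty D.V := ⟨D.rtV x₀⟩
  have hfinV : Finite D.V := inferInstance
  refine rep_of_unary D.MM
    { toEquiv := Equiv.ofBijective D.Phi hbij
      map_rel_iff' := ?_ }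
  intro a b
  exact D.Phi_le_iff a b

end Vale.Agent.Lib.P183
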