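import Vale.Agent.Lib.P183.Sums

/-!
# Sublattices of products cut out by splitting pairs
-/

namespace Vale.Agent.Lib.P183

/-- **Constrained products.** Let `L₁`, `L₂` be representable. Let `S₁` be a set of pairs `(f, g)`
in `L₁ × L₂` such that `f` belongs to a splitting pair of `L₁` (there is `i` such that each `x`
satisfies exactly one of `f ≤ x` and `x ≤ i`), and `S₂` likewise with the roles exchanged. Then the
subposet of `L₁ × L₂` of the `(a, b)` with `f ≤ a → g ≤ b` for `(f, g) ∈ S₁` and `f ≤ b → g ≤ a` for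
`(f, g) ∈ S₂` is representable. -/
theorem representable_constraint {L₁ L₂ : Type} [PartialOrder L₁] [PartialOrder L₂]
    (S₁ : Set (L₁ × L₂)) (S₂ : Set (L₂ × L₁))
    (hS₁ : ∀ p ∈ S₁, ∃ i : L₁, ∀ x, p.1 ≤ x ↔ ¬ x ≤ i)
    (hS₂ : ∀ p ∈ S₂, ∃ i : L₂, ∀ x, p.1 ≤ x ↔ ¬ x ≤ i)
    (h₁ : Representable L₁) (h₂ : Representable L₂) :
    Representable {r : L₁ × L₂ //
      (∀ p ∈ S₁, p.1 ≤ r.1 → p.2 ≤ r.2) ∧ (∀ p ∈ S₂, p.1 ≤ r.2 → p.2 ≤ r.1)} := by
  classical
  obtain ⟨X, _, ⟨x₀⟩, opsX, ⟨e₁⟩⟩ := h₁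
  obtain ⟨Y, _, ⟨y₀⟩, opsY, ⟨e₂⟩⟩ := h₂
  have hne : Nonempty (X × Y) := ⟨(x₀, y₀)⟩
  let R := {r : L₁ × L₂ //
      (∀ p ∈ S₁, p.1 ≤ r.1 → p.2 ≤ r.2) ∧ (∀ p ∈ S₂, p.1 ≤ r.2 → p.2 ≤ r.1)}
  let rel : R → Setoid (X × Y) := fun r => prodSetoid (e₁ r.1.1).1 (e₂ r.1.2).1
  let 𝓜 : Set (X × Y → X × Y) := {m | ∀ r : R, ∀ p q, rel r p q → rel r (m p) (m q)}
  have hfin : 𝓜.Finite := Set.toFinite 𝓜
  let extra : Ops (X × Y) :=
    hfin.toFinset.toList.map (fun m => (⟨1, fun v => m (v 0)⟩ : Σ n : ℕ, (Fin n → X × Y) → X × Y))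
  let ops : Ops (X × Y) := prodOps x₀ y₀ opsX opsY ++ extra
  have hunary : ∀ (Θ : Setoid (X × Y)), IsCongruence ops Θ → ∀ m ∈ 𝓜, ∀ p q, Θ p q → Θ (m p) (m q) := by
    intro Θ hΘ m hm p q hpq
    have hmem : (⟨1, fun v => m (v 0)⟩ : Σ n : ℕ, (Fin n → X × Y) → X × Y) ∈ ops := by
      refine List.mem_append_right _ (List.mem_map.2 ⟨m, ?_, rfl⟩)
      rw [Finset.mem_toList, Set.Finite.mem_toFinset]
      exact hm
    exact hΘ _ hmem (fun _ => p) (fun _ => q) (fun _ => hpq)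
  have hcong : ∀ r : R, IsCongruence ops (rel r) := by
    intro r op hop a b hab
    rcases List.mem_append.1 hop with h | h
    · exact prodSetoid_isCongruence (e₁ r.1.1).2 (e₂ r.1.2).2 op h a b hab
    · obtain ⟨m, hm, rfl⟩ := List.mem_map.1 h
      rw [Finset.mem_toList, Set.Finite.mem_toFinset] at hm
      exact hm r _ _ (hab (0 : Fin 1))
  refine rep_of_phi ops (fun r : R => ⟨rel r, hcong r⟩) ?_ ?_
  · rintro ⟨⟨a, b⟩, hab⟩ ⟨⟨c, d⟩, hcd⟩
    constructor
    · intro h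
      have h' : ∀ p q : X × Y, prodSetoid (e₁ a).1 (e₂ b).1 p q →
          prodSetoid (e₁ c).1 (e₂ d).1 p q := fun p q hpq => h hpq
      refine Prod.mk_le_mk.2 ⟨e₁.le_iff_le.1 ?_, e₂.le_iff_le.1 ?_⟩
      · intro x x' hx
        exact (h' (x, y₀) (x', y₀) ⟨hx, (e₂ b).1.refl _⟩).1
      · intro y y' hy
        exact (h' (x₀, y) (x₀, y') ⟨(e₁ a).1.refl _, hy⟩).2
    · intro hle p q hpq
      have hle' := Prod.mk_le_mk.1 hle
      exact ⟨(e₁.le_iff_le.2 hle'.1) hpq.1, (e₂.le_iff_le.2 hle'.2) hpq.2⟩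
  · rintro ⟨Θ, hΘ⟩
    have hΘ' : IsCongruence (prodOps x₀ y₀ opsX opsY) Θ :=
      fun op hop => hΘ op (List.mem_append_left _ hop)
    let θ₁ : Setoid X := Setoid.comap (fun a => (a, y₀)) Θ
    let θ₂ : Setoid Y := Setoid.comap (fun b => (x₀, b)) Θ
    have hθ₁ : IsCongruence opsX θ₁ := by
      intro o ho a b hab
      refine hΘ' (liftL y₀ o) ?_ (fun i => (a i, y₀)) (fun i => (b i, y₀)) hab
      simp only [prodOps, List.mem_cons, List.mem_append, List.mem_map]
      exact Or.inr (Or.inl ⟨o, ho, rfl⟩)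
    have hθ₂ : IsCongruence opsY θ₂ := by
      intro o ho a b hab
      refine hΘ' (liftR x₀ o) ?_ (fun i => (x₀, a i)) (fun i => (x₀, b i)) hab
      simp only [prodOps, List.mem_cons, List.mem_append, List.mem_map]
      exact Or.inr (Or.inr ⟨o, ho, rfl⟩)
    have hdec : ∀ p q : X × Y, θ₁ p.1 q.1 ∧ θ₂ p.2 q.2 ↔ Θ p q := by
      intro p q
      constructor
      · rintro ⟨h1, h2⟩
        exact band_compat hΘ' (p := (p.1, y₀)) (p' := (q.1, y₀)) (q := (x₀, p.2)) (q' := (x₀, q.2))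
          h1 h2
      · intro h
        refine ⟨?_, ?_⟩
        · exact band_compat hΘ' (p := p) (p' := q) (q := (x₀, y₀)) (q' := (x₀, y₀)) h (Θ.refl _)
        · exact band_compat hΘ' (p := (x₀, y₀)) (p' := (x₀, y₀)) (q := p) (q' := q) (Θ.refl _) h
    set a : L₁ := e₁.symm ⟨θ₁, hθ₁⟩ with ha
    set b : L₂ := e₂.symm ⟨θ₂, hθ₂⟩ with hb
    have hea : e₁ a = ⟨θ₁, hθ₁⟩ := OrderIso.apply_symm_apply _ _
    have heb : e₂ b = ⟨θ₂, hθ₂⟩ := OrderIso.apply_symm_apply _ _
    have hc₁ : ∀ p ∈ S₁, p.1 ≤ a → p.2 ≤ b := by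
      rintro ⟨f, g⟩ hp hfa
      obtain ⟨i, hi⟩ := hS₁ _ hp
      change ∀ x, f ≤ x ↔ ¬ x ≤ i at hi
      change f ≤ a at hfa
      change g ≤ b
      refine e₂.le_iff_le.1 ?_
      intro y y' hy
      have hfi : ¬ f ≤ i := (hi f).1 le_rfl
      have hnle : ¬ e₁ f ≤ e₁ i := fun h => hfi (e₁.le_iff_le.1 h)
      have hex : ∃ x x', (e₁ f).1 x x' ∧ ¬ (e₁ i).1 x x' := by
        by_contra hcon
        push Not at hcon
        exact hnle (fun u v huv => hcon u v huv)
      obtain ⟨x, x', hxx, hnx⟩ := hex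
      let m : X × Y → X × Y := fun p => if (e₁ i).1 x p.1 then (x₀, y) else (x₀, y')
      have hm : m ∈ 𝓜 := by
        intro r p q hpq
        by_cases hfr : f ≤ r.1.1
        · have hgr : g ≤ r.1.2 := r.2.1 (f, g) hp hfr
          have hyr : (e₂ r.1.2).1 y y' := (e₂.le_iff_le.2 hgr) hy
          refine ⟨?_, ?_⟩
          · have : ∀ p, (m p).1 = x₀ := fun p => by
              simp only [m]
              split_ifs <;> rfl
            rw [this, this]
          · simp only [m]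
            split_ifs
            · exact (e₂ r.1.2).1.refl _
            · exact hyr
            · exact (e₂ r.1.2).1.symm hyr
            · exact (e₂ r.1.2).1.refl _
        · have hri : r.1.1 ≤ i := by
            by_contra hcon
            exact hfr ((hi _).2 hcon)
          have hpq' : (e₁ i).1 p.1 q.1 := (e₁.le_iff_le.2 hri) hpq.1
          have hiff : (e₁ i).1 x p.1 ↔ (e₁ i).1 x q.1 :=
            ⟨fun h => (e₁ i).1.trans h hpq', fun h => (e₁ i).1.trans h ((e₁ i).1.symm hpq')⟩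
          have hmm : m p = m q := by
            simp only [m, hiff]
          rw [hmm]
      have hΘxx : Θ (x, y₀) (x', y₀) := by
        have : (e₁ a).1 x x' := (e₁.le_iff_le.2 hfa) hxx
        rw [hea] at this
        exact this
      have := hunary Θ hΘ m hm _ _ hΘxx
      have h1 : m (x, y₀) = (x₀, y) := by
        simp only [m]
        rw [if_pos ((e₁ i).1.refl _)]
      have h2 : m (x', y₀) = (x₀, y') := by
        simp only [m]
        rw [if_neg hnx]
      rw [h1, h2] at this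
      rw [heb]
      exact this
    have hc₂ : ∀ p ∈ S₂, p.1 ≤ b → p.2 ≤ a := by
      rintro ⟨f, g⟩ hp hfb
      obtain ⟨i, hi⟩ := hS₂ _ hp
      change ∀ x, f ≤ x ↔ ¬ x ≤ i at hi
      change f ≤ b at hfb
      change g ≤ a
      refine e₁.le_iff_le.1 ?_
      intro y y' hy
      have hfi : ¬ f ≤ i := (hi f).1 le_rfl
      have hnle : ¬ e₂ f ≤ e₂ i := fun h => hfi (e₂.le_iff_le.1 h)
      have hex : ∃ x x', (e₂ f).1 x x' ∧ ¬ (e₂ i).1 x x' := by
        by_contra hcon
        push Not at hcon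
        exact hnle (fun u v huv => hcon u v huv)
      obtain ⟨x, x', hxx, hnx⟩ := hex
      let m : X × Y → X × Y := fun p => if (e₂ i).1 x p.2 then (y, y₀) else (y', y₀)
      have hm : m ∈ 𝓜 := by
        intro r p q hpq
        by_cases hfr : f ≤ r.1.2
        · have hgr : g ≤ r.1.1 := r.2.2 (f, g) hp hfr
          have hyr : (e₁ r.1.1).1 y y' := (e₁.le_iff_le.2 hgr) hy
          refine ⟨?_, ?_⟩
          · simp only [m]
            split_ifs
            · exact (e₁ r.1.1).1.refl _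
            · exact hyr
            · exact (e₁ r.1.1).1.symm hyr
            · exact (e₁ r.1.1).1.refl _
          · have : ∀ p, (m p).2 = y₀ := fun p => by
              simp only [m]
              split_ifs <;> rfl
            rw [this, this]
        · have hri : r.1.2 ≤ i := by
            by_contra hcon
            exact hfr ((hi _).2 hcon)
          have hpq' : (e₂ i).1 p.2 q.2 := (e₂.le_iff_le.2 hri) hpq.2
          have hiff : (e₂ i).1 x p.2 ↔ (e₂ i).1 x q.2 :=
            ⟨fun h => (e₂ i).1.trans h hpq', fun h => (e₂ i).1.trans h ((e₂ i).1.symm hpq')⟩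
          have hmm : m p = m q := by
            simp only [m, hiff]
          rw [hmm]
      have hΘxx : Θ (x₀, x) (x₀, x') := by
        have : (e₂ b).1 x x' := (e₂.le_iff_le.2 hfb) hxx
        rw [heb] at this
        exact this
      have := hunary Θ hΘ m hm _ _ hΘxx
      have h1 : m (x₀, x) = (y, y₀) := by
        simp only [m]
        rw [if_pos ((e₂ i).1.refl _)]
      have h2 : m (x₀, x') = (y', y₀) := by
        simp only [m]
        rw [if_neg hnx]
      rw [h1, h2] at this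
      rw [hea]
      exact this
    refine ⟨⟨(a, b), hc₁, hc₂⟩, Subtype.ext (Setoid.ext ?_)⟩
    intro p q
    show prodSetoid (e₁ a).1 (e₂ b).1 p q ↔ Θ p q
    rw [hea, heb]
    exact hdec p q

end Vale.Agent.Lib.P183
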