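import Vale.Agent.Lib.P183.Defs

/-!
# Intervals of subgroup lattices of finite groups are representable
-/

namespace Vale.Agent.Lib.P183

variable {G : Type} [Group G] (H : Subgroup G)

/-- The translations of a finite group acting on the left cosets of `H`, as unary operations. -/
noncomputable def transOps [Fintype G] : Ops (G ⧸ H) :=
  (Finset.univ : Finset G).toList.map (fun g => ⟨1, fun a => g • a 0⟩)

theorem smul_mk' (g a : G) : g • (QuotientGroup.mk a : G ⧸ H) = QuotientGroup.mk (g * a) := rfl

theorem isCongruence_iff [Fintype G] (r : Setoid (G ⧸ H)) :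
    IsCongruence (transOps H) r ↔ ∀ (g : G) (x y : G ⧸ H), r x y → r (g • x) (g • y) := by
  constructor
  · intro h g x y hxy
    have hmem : (⟨1, fun a => g • a 0⟩ : Σ n : ℕ, (Fin n → G ⧸ H) → G ⧸ H) ∈ transOps H := by
      unfold transOps
      exact List.mem_map.2 ⟨g, Finset.mem_toList.2 (Finset.mem_univ g), rfl⟩
    exact h _ hmem (fun _ => x) (fun _ => y) (fun _ => hxy)
  · intro h op hop a b hab
    unfold transOps at hop
    obtain ⟨g, -, rfl⟩ := List.mem_map.1 hop
    exact h g _ _ (hab 0)

/-- The equivalence relation of a subgroup above `H`. -/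
def setoidOf {K : Subgroup G} (hK : H ≤ K) : Setoid (G ⧸ H) :=
  Setoid.ker (Subgroup.quotientMapOfLE hK)

theorem setoidOf_mk {K : Subgroup G} (hK : H ≤ K) (a b : G) :
    setoidOf H hK (QuotientGroup.mk a) (QuotientGroup.mk b) ↔ a⁻¹ * b ∈ K := by
  show Subgroup.quotientMapOfLE hK (QuotientGroup.mk a) = Subgroup.quotientMapOfLE hK (QuotientGroup.mk b) ↔ _
  rw [Subgroup.quotientMapOfLE_apply_mk, Subgroup.quotientMapOfLE_apply_mk, QuotientGroup.eq]

/-- The subgroup of a congruence. -/
def subgroupOf (r : Setoid (G ⧸ H)) (hr : ∀ (g : G) (x y : G ⧸ H), r x y → r (g • x) (g • y)) :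
    Subgroup G where
  carrier := {g | r (QuotientGroup.mk g) (QuotientGroup.mk 1)}
  one_mem' := r.refl _
  mul_mem' := by
    intro a b ha hb
    have h1 := hr a _ _ hb
    rw [smul_mk', smul_mk', mul_one] at h1
    exact r.trans h1 ha
  inv_mem' := by
    intro a ha
    have h1 := hr a⁻¹ _ _ ha
    rw [smul_mk', smul_mk', inv_mul_cancel, mul_one] at h1
    exact r.symm h1

theorem le_subgroupOf (r : Setoid (G ⧸ H))
    (hr : ∀ (g : G) (x y : G ⧸ H), r x y → r (g • x) (g • y)) : H ≤ subgroupOf H r hr := by
  intro h hh
  show r (QuotientGroup.mk h) (QuotientGroup.mk 1)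
  have : (QuotientGroup.mk h : G ⧸ H) = QuotientGroup.mk 1 := by
    rw [QuotientGroup.eq]
    simpa using H.inv_mem hh
  rw [this]

/-- The congruence lattice of the coset action is the interval. -/
noncomputable def iccOrderIso [Fintype G] : Set.Icc H (⊤ : Subgroup G) ≃o CongLat (transOps H) where
  toFun K := ⟨setoidOf H K.2.1, by
    rw [isCongruence_iff]
    intro g x y hxy
    induction x using QuotientGroup.induction_on with
    | H a =>
      induction y using QuotientGroup.induction_on with
      | H b =>
        rw [smul_mk', smul_mk']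
        rw [setoidOf_mk] at hxy ⊢
        have : (g * a)⁻¹ * (g * b) = a⁻¹ * b := by group
        rwa [this]⟩
  invFun r := ⟨subgroupOf H r.1 ((isCongruence_iff H r.1).1 r.2),
    le_subgroupOf H r.1 _, le_top⟩
  left_inv K := by
    apply Subtype.ext
    ext g
    show setoidOf H K.2.1 (QuotientGroup.mk g) (QuotientGroup.mk 1) ↔ _
    rw [setoidOf_mk, mul_one, inv_mem_iff]
  right_inv r := by
    apply Subtype.ext
    ext x y
    induction x using QuotientGroup.induction_on with
    | H a =>
      induction y using QuotientGroup.induction_on with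
      | H b =>
        have hr := (isCongruence_iff H r.1).1 r.2
        show setoidOf H _ (QuotientGroup.mk a) (QuotientGroup.mk b) ↔ _
        rw [setoidOf_mk]
        show r.1 (QuotientGroup.mk (a⁻¹ * b)) (QuotientGroup.mk 1) ↔ _
        constructor
        · intro h
          have h1 := hr a _ _ h
          rw [smul_mk', smul_mk', mul_one, mul_inv_cancel_left] at h1
          exact r.1.symm h1
        · intro h
          have h1 := hr a⁻¹ _ _ h
          rw [smul_mk', smul_mk', inv_mul_cancel] at h1
          exact r.1.symm h1
  map_rel_iff' := by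
    intro K K'
    constructor
    · intro h g hg
      have h1 : setoidOf H K.2.1 (QuotientGroup.mk 1) (QuotientGroup.mk g) :=
        (setoidOf_mk H K.2.1 1 g).2 (by simpa using hg)
      have h2 := h h1
      have h3 := (setoidOf_mk H K'.2.1 1 g).1 h2
      simpa using h3
    · intro h x y hxy
      induction x using QuotientGroup.induction_on with
      | H a =>
        induction y using QuotientGroup.induction_on with
        | H b =>
          have h1 := (setoidOf_mk H K.2.1 a b).1 hxy
          exact (setoidOf_mk H K'.2.1 a b).2 (h h1)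

/-- An order isomorphic copy of an interval in the subgroup lattice of a finite group is
representable. -/
theorem representable_of_iso_icc {G : Type} [Group G] [Finite G] (H : Subgroup G)
    {P : Type} [PartialOrder P] (e : P ≃o Set.Icc H (⊤ : Subgroup G)) : Representable P := by
  classical
  have : Fintype G := Fintype.ofFinite G
  have : Fintype (G ⧸ H) := Fintype.ofFinite _
  exact ⟨G ⧸ H, inferInstance, ⟨QuotientGroup.mk 1⟩, transOps H, ⟨e.trans (iccOrderIso H)⟩⟩

end Vale.Agent.Lib.P183
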