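import Vale.Agent.Lib.P183.Doubling

/-!
# Finite lattices without `D`-cycles are representable
-/

namespace Vale.Agent.Lib.P183

section tau

variable {L : Type} [Lattice L] [OrderBot L] [Fintype L]

open Classical in
/-- The join of the join irreducible elements below `b` other than `q`. -/
noncomputable def tau (q b : L) : L :=
  (Finset.univ.filter fun j => SupIrred j ∧ j ≠ q ∧ j ≤ b).sup id

lemma tau_le (q b : L) : tau q b ≤ b := by
  classical
  refine Finset.sup_le fun j hj => ?_
  exact (Finset.mem_filter.1 hj).2.2.2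

lemma le_tau {q b j : L} (hj : SupIrred j) (hne : j ≠ q) (hle : j ≤ b) : j ≤ tau q b := by
  classical
  have h : j ∈ Finset.univ.filter fun j => SupIrred j ∧ j ≠ q ∧ j ≤ b :=
    Finset.mem_filter.2 ⟨Finset.mem_univ _, hj, hne, hle⟩
  exact Finset.le_sup (f := id) h

lemma tau_mono {q b b' : L} (h : b ≤ b') : tau q b ≤ tau q b' := by
  classical
  refine Finset.sup_le fun j hj => ?_
  have h1 := (Finset.mem_filter.1 hj).2
  exact le_tau h1.1 h1.2.1 (h1.2.2.trans h)

lemma tau_tau (q b : L) : tau q (tau q b) = tau q b := by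
  classical
  refine le_antisymm (tau_le _ _) (Finset.sup_le fun j hj => ?_)
  have h1 := (Finset.mem_filter.1 hj).2
  exact le_tau h1.1 h1.2.1 (le_tau h1.1 h1.2.1 h1.2.2)

lemma decomp_aux (b : L) : ∃ s : Finset L, s.sup id = b ∧ ∀ j ∈ s, SupIrred j := by
  classical
  obtain ⟨s, hs, hirr⟩ := exists_supIrred_decomposition b
  exact ⟨s, hs, fun j hj => hirr hj⟩

lemma tau_eq_of_not_le {q b : L} (h : ¬ q ≤ b) : tau q b = b := by
  refine le_antisymm (tau_le _ _) ?_
  obtain ⟨s, hs, hirr⟩ := decomp_aux b
  have h1 : s.sup id ≤ tau q b := by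
    refine Finset.sup_le fun j hj => ?_
    have hjb : j ≤ b := by
      rw [← hs]
      exact Finset.le_sup (f := id) hj
    have hjq : j ≠ q := fun he => h (he ▸ hjb)
    exact le_tau (hirr j hj) hjq hjb
  rwa [hs] at h1

lemma tau_sup_eq {q b : L} (h : q ≤ b) : tau q b ⊔ q = b := by
  refine le_antisymm (sup_le (tau_le _ _) h) ?_
  obtain ⟨s, hs, hirr⟩ := decomp_aux b
  have h1 : s.sup id ≤ tau q b ⊔ q := by
    refine Finset.sup_le fun j hj => ?_
    have hjb : j ≤ b := by
      rw [← hs]
      exact Finset.le_sup (f := id) hj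
    by_cases hjq : j = q
    · subst hjq
      exact le_sup_right
    · exact (le_tau (hirr j hj) hjq hjb).trans le_sup_left
  rwa [hs] at h1

/-- The fundamental property of a source of the join dependency relation. -/
lemma tau_sup_q {q k : L} (hq : SupIrred q) (hsrc : ∀ p, ¬ JoinDep p q) (hk : tau q k = k)
    (huk : tau q q ≤ k) : tau q (k ⊔ q) = k := by
  classical
  refine le_antisymm (Finset.sup_le fun j hj => ?_) ?_
  · have h1 := (Finset.mem_filter.1 hj).2
    by_contra hcon
    refine hsrc j ⟨h1.1, hq, h1.2.1, k, by simpa [sup_comm] using h1.2.2, fun a ha hja => ?_⟩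
    have h2 : a ≤ tau q q := (tau_eq_of_not_le (not_le_of_gt ha)).symm.le.trans (tau_mono ha.le)
    exact hcon (hja.trans (sup_le (h2.trans huk) le_rfl))
  · calc k = tau q k := hk.symm
      _ ≤ tau q (k ⊔ q) := tau_mono le_sup_left

/-- The lattice of the joins of the join irreducible elements other than `q`. -/
def KK (q : L) : Type := {k : L // tau q k = k}

noncomputable instance (q : L) : Lattice (KK q) :=
  { Subtype.partialOrder _ with
    sup := fun a b => ⟨a.1 ⊔ b.1, by
      refine le_antisymm (tau_le _ _) (sup_le ?_ ?_)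
      · calc a.1 = tau q a.1 := a.2.symm
          _ ≤ _ := tau_mono le_sup_left
      · calc b.1 = tau q b.1 := b.2.symm
          _ ≤ _ := tau_mono le_sup_right⟩
    le_sup_left := fun a b => (le_sup_left : a.1 ≤ a.1 ⊔ b.1)
    le_sup_right := fun a b => (le_sup_right : b.1 ≤ a.1 ⊔ b.1)
    sup_le := fun a b c hac hbc => (sup_le hac hbc : a.1 ⊔ b.1 ≤ c.1)
    inf := fun a b => ⟨tau q (a.1 ⊓ b.1), tau_tau _ _⟩
    inf_le_left := fun a b => (tau_le _ _).trans (inf_le_left : a.1 ⊓ b.1 ≤ a.1)
    inf_le_right := fun a b => (tau_le _ _).trans (inf_le_right : a.1 ⊓ b.1 ≤ b.1)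
    le_inf := fun a b c hab hac => by
      change a.1 ≤ tau q (b.1 ⊓ c.1)
      calc a.1 = tau q a.1 := a.2.symm
        _ ≤ _ := tau_mono (le_inf hab hac) }

lemma KK_le_iff {q : L} {a b : KK q} : a ≤ b ↔ a.1 ≤ b.1 := Iff.rfl

lemma KK_sup_coe {q : L} (a b : KK q) : (a ⊔ b).1 = a.1 ⊔ b.1 := rfl

lemma KK_lt_coe {q : L} {a b : KK q} (h : a < b) : a.1 < b.1 :=
  lt_of_le_of_ne (le_of_lt h) fun he => (ne_of_lt h) (Subtype.ext he)

noncomputable instance (q : L) : OrderBot (KK q) where
  bot := ⟨⊥, le_antisymm (tau_le _ _) bot_le⟩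
  bot_le := fun a => (bot_le : ⊥ ≤ a.1)

lemma KK_bot_coe {q : L} : (⊥ : KK q).1 = ⊥ := rfl

instance (q : L) : Finite (KK q) := Subtype.finite

/-- The iso between the lattice and a doubling of the lattice of joins. -/
noncomputable def psiFun (q : L) (b : L) :
    Doubling (KK q) ⟨tau q q, tau_tau _ _⟩ {k | q ≤ k.1} := by
  classical
  exact ⟨(⟨tau q b, tau_tau _ _⟩, decide (q ≤ b)), by
    intro h
    have h1 : q ≤ b := by simpa using h
    exact tau_mono h1, by
    intro h
    have h1 : q ≤ tau q b := h
    simpa using h1.trans (tau_le _ _)⟩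

theorem exists_iso {q : L} (hq : SupIrred q) (hsrc : ∀ p, ¬ JoinDep p q) :
    Nonempty (L ≃o Doubling (KK q) ⟨tau q q, tau_tau _ _⟩ {k | q ≤ k.1}) := by
  classical
  have hle : ∀ b b' : L, psiFun q b ≤ psiFun q b' ↔ b ≤ b' := by
    intro b b'
    constructor
    · intro h
      have h1 : tau q b ≤ tau q b' := (show (psiFun q b).1 ≤ (psiFun q b').1 from h).1
      have h2 : decide (q ≤ b) ≤ decide (q ≤ b') := (show (psiFun q b).1 ≤ (psiFun q b').1 from h).2
      by_cases hb : q ≤ b
      · have hb' : q ≤ b' := by
          have h3 : decide (q ≤ b) = true := by simpa using hb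
          rw [h3] at h2
          simpa using top_le_iff.1 h2
        calc b = tau q b ⊔ q := (tau_sup_eq hb).symm
          _ ≤ b' := sup_le (h1.trans (tau_le _ _)) hb'
      · calc b = tau q b := (tau_eq_of_not_le hb).symm
          _ ≤ b' := h1.trans (tau_le _ _)
    · intro h
      refine (show (psiFun q b).1 ≤ (psiFun q b').1 from ?_)
      refine Prod.mk_le_mk.2 ⟨tau_mono h, ?_⟩
      by_cases hb : q ≤ b
      · have hb' : q ≤ b' := hb.trans h
        simp [hb, hb']
      · simp [hb]
  have hsurj : Function.Surjective (psiFun q) := by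
    rintro ⟨⟨k, ε⟩, h1, h2⟩
    cases ε with
    | true =>
      refine ⟨k.1 ⊔ q, Subtype.ext (Prod.ext (Subtype.ext ?_) ?_)⟩
      · exact tau_sup_q hq hsrc k.2 (h1 rfl)
      · show decide (q ≤ k.1 ⊔ q) = true
        simp
    | false =>
      have hn : ¬ q ≤ k.1 := fun h => by
        have := h2 h
        exact absurd this (by simp)
      refine ⟨k.1, Subtype.ext (Prod.ext (Subtype.ext ?_) ?_)⟩
      · exact k.2
      · show decide (q ≤ k.1) = false
        simpa using hn
  have hinj : Function.Injective (psiFun q) := by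
    intro a b hab
    exact le_antisymm ((hle _ _).1 hab.le) ((hle _ _).1 hab.ge)
  exact ⟨{ toEquiv := Equiv.ofBijective _ ⟨hinj, hsurj⟩
           map_rel_iff' := fun {a b} => hle a b }⟩

/-- Join irreducible elements of the smaller lattice are join irreducible. -/
lemma supIrred_coe {q : L} {p : KK q} (hp : SupIrred p) : SupIrred p.1 := by
  classical
  set S := Finset.univ.filter fun j => SupIrred j ∧ j ≠ q ∧ j ≤ p.1 with hS
  set f : L → KK q := fun j => ⟨tau q j, tau_tau _ _⟩ with hf
  have h1 : (S.sup f).1 = p.1 := by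
    have h2 : (S.sup f).1 = S.sup (Subtype.val ∘ f) :=
      Finset.apply_sup_eq_sup_comp (fun a : KK q => a.1) (fun _ _ => rfl) rfl
    rw [h2]
    refine le_antisymm (Finset.sup_le fun j hj => ?_) ?_
    · have h3 := (Finset.mem_filter.1 hj).2
      exact (tau_le _ _).trans h3.2.2
    · have h4 : tau q p.1 = p.1 := p.2
      rw [← h4]
      refine Finset.sup_le fun j hj => ?_
      have h3 := (Finset.mem_filter.1 hj).2
      have h5 : j ≤ tau q j := le_tau h3.1 h3.2.1 le_rfl
      have h6 : j ∈ S := Finset.mem_filter.2 ⟨Finset.mem_univ _, h3.1, h3.2.1, h4 ▸ h3.2.2⟩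
      exact h5.trans (Finset.le_sup (f := Subtype.val ∘ f) h6)
  obtain ⟨j, hj, hj2⟩ := hp.finset_sup_eq (Subtype.ext h1)
  have h3 := (Finset.mem_filter.1 hj).2
  have h4 : f j = ⟨j, by
      refine le_antisymm (tau_le _ _) (le_tau h3.1 h3.2.1 le_rfl)⟩ := Subtype.ext
    (le_antisymm (tau_le _ _) (le_tau h3.1 h3.2.1 le_rfl))
  have h5 : j = p.1 := by
    have := congrArg Subtype.val hj2
    rw [h4] at this
    exact this
  rw [← h5]
  exact h3.1

lemma joinDep_coe {q : L} (hsrc : ∀ p, ¬ JoinDep p q) (hq : SupIrred q) {p r : KK q}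
    (h : JoinDep p r) : JoinDep p.1 r.1 := by
  obtain ⟨hp, hr, hne, x, h1, h2⟩ := h
  refine ⟨supIrred_coe hp, supIrred_coe hr, fun he => hne (Subtype.ext he), x.1, h1, ?_⟩
  intro a ha hle
  have hpq : p.1 ≠ q := by
    intro hpq
    have h3 : tau q q < q := by
      refine lt_of_le_of_ne (tau_le _ _) ?_
      intro h4
      -- a join irreducible element is not the join of the elements strictly below it
      classical
      have h5 : ∃ j ∈ (Finset.univ.filter fun j => SupIrred j ∧ j ≠ q ∧ j ≤ q), id j = q :=
        hq.finset_sup_eq h4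
      obtain ⟨j, hj, hj2⟩ := h5
      exact (Finset.mem_filter.1 hj).2.2.1 hj2
    have h6 := p.2
    rw [hpq] at h6
    exact (ne_of_lt h3) h6
  -- the element `a` is replaced by its part in the smaller lattice
  have hlt : (⟨tau q a, tau_tau _ _⟩ : KK q) < r := by
    refine lt_of_le_of_ne ?_ ?_
    · exact (tau_le _ _).trans ha.le
    · intro he
      have h3 : r.1 = tau q a := (congrArg Subtype.val he).symm
      have h4 : r.1 ≤ a := h3.le.trans (tau_le _ _)
      exact absurd h4 (not_le_of_gt ha)
  by_cases hqa : q ≤ a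
  · -- the new element is below `a`
    set k : L := tau q a ⊔ x.1 with hk
    have hkK : tau q k = k := by
      refine le_antisymm (tau_le _ _) (sup_le ?_ ?_)
      · calc tau q a = tau q (tau q a) := (tau_tau _ _).symm
          _ ≤ tau q k := tau_mono le_sup_left
      · calc x.1 = tau q x.1 := x.2.symm
          _ ≤ tau q k := tau_mono le_sup_right
    have huk : tau q q ≤ k := (tau_mono hqa).trans le_sup_left
    have h3 := tau_sup_q hq hsrc hkK huk
    have h4 : p.1 ≤ k ⊔ q := by
      refine hle.trans (sup_le ?_ ?_)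
      · calc a = tau q a ⊔ q := (tau_sup_eq hqa).symm
          _ ≤ k ⊔ q := sup_le_sup_right le_sup_left _
      · rw [hk]
        exact (le_sup_right : x.1 ≤ tau q a ⊔ x.1).trans le_sup_left
    have h5 : p.1 ≤ tau q (k ⊔ q) := le_tau (supIrred_coe hp) hpq h4
    rw [h3] at h5
    exact h2 _ hlt h5
  · have h3 : tau q a = a := tau_eq_of_not_le hqa
    refine h2 _ hlt ?_
    show p.1 ≤ tau q a ⊔ x.1
    rwa [h3]

end tau

lemma representable_congr {P P' : Type} [PartialOrder P] [PartialOrder P'] (e : P ≃o P')
    (h : Representable P') : Representable P := by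
  obtain ⟨X, a, b, ops, ⟨e'⟩⟩ := h
  exact ⟨X, a, b, ops, ⟨e.trans e'⟩⟩

lemma representable_of_subsingleton (P : Type) [PartialOrder P] [Unique P] : Representable P := by
  refine ⟨Unit, inferInstance, inferInstance, [], ⟨?_⟩⟩
  have hsub : Subsingleton (CongLat ([] : Ops Unit)) := by
    refine ⟨fun a b => Subtype.ext (Setoid.ext fun x y => ?_)⟩
    have hx : x = y := Subsingleton.elim _ _
    subst hx
    exact iff_of_true (a.1.refl _) (b.1.refl _)
  let c : CongLat ([] : Ops Unit) := ⟨⊥, fun op hop => absurd hop (by simp)⟩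
  refine
    { toFun := fun _ => c
      invFun := fun _ => default
      left_inv := fun _ => Subsingleton.elim _ _
      right_inv := fun _ => Subsingleton.elim _ _
      map_rel_iff' := ?_ }
  intro a b
  have hab : a = b := Subsingleton.elim _ _
  subst hab
  exact iff_of_true le_rfl le_rfl

/-- **Theorem.** Every finite lattice without `D`-cycles is representable. -/
theorem representable_of_noDCycle : ∀ (n : ℕ) (L : Type) [Lattice L] [Finite L] [Nonempty L],
    Nat.card L = n → NoDCycle L → Representable L := by
  intro n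
  induction n using Nat.strong_induction_on with
  | _ n ih =>
    intro L _ _ _ hn hL
    classical
    let _ := Fintype.ofFinite L
    by_cases hsub : Subsingleton L
    · obtain ⟨a⟩ := ‹Nonempty L›
      letI : Unique L := { default := a, uniq := fun b => Subsingleton.elim _ _ }
      exact representable_of_subsingleton L
    · letI : OrderBot L := Fintype.toOrderBot L
      -- a join irreducible element
      have hJ : ∃ j : L, SupIrred j := by
        rw [not_subsingleton_iff_nontrivial] at hsub
        obtain ⟨a, ha⟩ := exists_ne (⊥ : L)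
        obtain ⟨s, hs, hirr⟩ := exists_supIrred_decomposition a
        by_contra hcon
        push Not at hcon
        have : s = ∅ := Finset.eq_empty_of_forall_notMem fun b hb => hcon b (hirr hb)
        subst this
        exact ha (by simpa using hs.symm)
      -- a source of the dependency relation
      haveI : Std.Irrefl (Relation.TransGen (JoinDep (L := L))) := ⟨hL⟩
      have hwf := Finite.wellFounded_of_trans_of_irrefl (Relation.TransGen (JoinDep (L := L)))
      obtain ⟨j, hj⟩ := hJ
      obtain ⟨q, hq, hmin⟩ := hwf.has_min {j | SupIrred j} ⟨j, hj⟩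
      have hsrc : ∀ p, ¬ JoinDep p q := fun p hp => hmin p hp.1 (Relation.TransGen.single hp)
      obtain ⟨e⟩ := exists_iso hq hsrc
      refine representable_congr e ?_
      refine doubling_representable _ _ ?_ ?_ ?_
      · intro a b ha hab
        exact le_trans ha hab
      · intro y hy
        show tau q q ≤ y.1
        calc tau q q ≤ tau q y.1 := tau_mono hy
          _ = y.1 := y.2
      · -- the induction hypothesis for the smaller lattice
        have hlt : Nat.card (KK q) < n := by
          rw [← hn]
          haveI := Fintype.ofFinite (KK q)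
          rw [Nat.card_eq_fintype_card, Nat.card_eq_fintype_card]
          refine Fintype.card_lt_of_injective_not_surjective (fun k : KK q => k.1)
            Subtype.val_injective ?_
          intro hs
          obtain ⟨k, hk⟩ := hs q
          have h6 : tau q q = q := by
            have h8 := k.2
            rw [show k.1 = q from hk] at h8
            exact h8
          have h5 : ∃ j ∈ (Finset.univ.filter fun j => SupIrred j ∧ j ≠ q ∧ j ≤ q), id j = q :=
            hq.finset_sup_eq h6
          obtain ⟨j, hj, hj2⟩ := h5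
          exact (Finset.mem_filter.1 hj).2.2.1 hj2
        refine ih _ hlt (KK q) rfl ?_
        intro p hp
        have hlift : Relation.TransGen JoinDep p.1 p.1 :=
          Relation.TransGen.lift (fun k : KK q => k.1) (fun a b hab => joinDep_coe hsrc hq hab) p p hp
        exact hL _ hlift

/-- **Theorem.** Every finite lattice without `D`-cycles is representable. -/
theorem representable_of_noDCycle' {L : Type} [Lattice L] [Finite L] [Nonempty L]
    (hL : NoDCycle L) : Representable L :=
  representable_of_noDCycle _ L rfl hL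

end Vale.Agent.Lib.P183
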