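import Mathlib

/-!
# The seven element lattice: the product of a two element and a three element chain, with one more
element that is at once an atom and a coatom
-/

namespace Vale.Agent.Lib.P183

/-- The seven elements: least element `bot`, greatest element `top`, and `a`, `b`, `c`, `d`, `e`. -/
inductive Seven : Type
  | bot | a | b | c | d | e | top
  deriving DecidableEq

/-- The order: `bot` is least, `top` is greatest, and `b < e`, `c < d`, `c < e`, besides equalities;
so `a` is an atom and a coatom, `{bot, b, c, e, d, top}` is the product of a two element chain and
a three element chain. -/
def Seven.leB : Seven → Seven → Bool
  | .bot, _ => true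
  | _, .top => true
  | .a, .a => true
  | .b, .b => true
  | .b, .e => true
  | .c, .c => true
  | .c, .d => true
  | .c, .e => true
  | .d, .d => true
  | .e, .e => true
  | _, _ => false

instance : PartialOrder Seven where
  le x y := Seven.leB x y = true
  le_refl x := by cases x <;> rfl
  le_trans x y z := by cases x <;> cases y <;> cases z <;> decide
  le_antisymm x y := by cases x <;> cases y <;> decide

end Vale.Agent.Lib.P183
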