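import Vale.Agent.Lib.P183.Defs

/-!
# Products and glued sums of representable posets
-/

namespace Vale.Agent.Lib.P183

lemma rep_of_phi {P : Type} [PartialOrder P] {X : Type} [Finite X] [Nonempty X] (ops : Ops X)
    (Φ : P → CongLat ops) (hle : ∀ a b, Φ a ≤ Φ b ↔ a ≤ b) (hs : Function.Surjective Φ) :
    Representable P := by
  have hinj : Function.Injective Φ := fun a b hab =>
    le_antisymm ((hle a b).1 hab.le) ((hle b a).1 hab.ge)
  exact ⟨X, Fintype.ofFinite X, inferInstance, ops,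
    ⟨{ toEquiv := Equiv.ofBijective Φ ⟨hinj, hs⟩, map_rel_iff' := fun {a b} => hle a b }⟩⟩

section Prod

variable {X Y : Type}

/-- The product of two equivalence relations. -/
def prodSetoid (r : Setoid X) (s : Setoid Y) : Setoid (X × Y) where
  r p q := r p.1 q.1 ∧ s p.2 q.2
  iseqv := ⟨fun _ => ⟨r.refl _, s.refl _⟩, fun h => ⟨r.symm h.1, s.symm h.2⟩,
    fun h k => ⟨r.trans h.1 k.1, s.trans h.2 k.2⟩⟩

/-- The rectangular band operation on a product. -/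
def bandOp : Σ n : ℕ, (Fin n → X × Y) → X × Y := ⟨2, fun v => ((v 0).1, (v 1).2)⟩

/-- An operation acting on the first coordinates. -/
def liftL (y₀ : Y) (op : Σ n : ℕ, (Fin n → X) → X) : Σ n : ℕ, (Fin n → X × Y) → X × Y :=
  ⟨op.1, fun v => (op.2 (fun i => (v i).1), y₀)⟩

/-- An operation acting on the second coordinates. -/
def liftR (x₀ : X) (op : Σ n : ℕ, (Fin n → Y) → Y) : Σ n : ℕ, (Fin n → X × Y) → X × Y :=
  ⟨op.1, fun v => (x₀, op.2 (fun i => (v i).2))⟩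

/-- The operations of the product algebra. -/
def prodOps (x₀ : X) (y₀ : Y) (opsX : Ops X) (opsY : Ops Y) : Ops (X × Y) :=
  bandOp :: (opsX.map (liftL y₀) ++ opsY.map (liftR x₀))

lemma prodSetoid_isCongruence {x₀ : X} {y₀ : Y} {opsX : Ops X} {opsY : Ops Y} {r : Setoid X}
    {s : Setoid Y} (hr : IsCongruence opsX r) (hs : IsCongruence opsY s) :
    IsCongruence (prodOps x₀ y₀ opsX opsY) (prodSetoid r s) := by
  intro op hop a b hab
  simp only [prodOps, List.mem_cons, List.mem_append, List.mem_map] at hop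
  rcases hop with rfl | ⟨o, ho, rfl⟩ | ⟨o, ho, rfl⟩
  · exact ⟨(hab (0 : Fin 2)).1, (hab (1 : Fin 2)).2⟩
  · exact ⟨hr o ho _ _ (fun i => (hab i).1), s.refl _⟩
  · exact ⟨r.refl _, hs o ho _ _ (fun i => (hab i).2)⟩

lemma band_compat {x₀ : X} {y₀ : Y} {opsX : Ops X} {opsY : Ops Y} {Θ : Setoid (X × Y)}
    (h : IsCongruence (prodOps x₀ y₀ opsX opsY) Θ) {p p' q q' : X × Y} (h1 : Θ p p') (h2 : Θ q q') :
    Θ (p.1, q.2) (p'.1, q'.2) := by
  refine h bandOp (List.mem_cons_self ..) ![p, q] ![p', q'] ?_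
  show ∀ i : Fin 2, Θ (![p, q] i) (![p', q'] i)
  rw [Fin.forall_fin_two]
  exact ⟨h1, h2⟩

end Prod

/-- **Direct products.** Representable posets are closed under direct products. -/
theorem representable_prod {L₁ L₂ : Type} [PartialOrder L₁] [PartialOrder L₂]
    (h₁ : Representable L₁) (h₂ : Representable L₂) : Representable (L₁ × L₂) := by
  obtain ⟨X, _, ⟨x₀⟩, opsX, ⟨e₁⟩⟩ := h₁
  obtain ⟨Y, _, ⟨y₀⟩, opsY, ⟨e₂⟩⟩ := h₂
  have : Nonempty (X × Y) := ⟨(x₀, y₀)⟩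
  refine rep_of_phi (prodOps x₀ y₀ opsX opsY)
    (fun l => ⟨prodSetoid (e₁ l.1).1 (e₂ l.2).1,
      prodSetoid_isCongruence (e₁ l.1).2 (e₂ l.2).2⟩) ?_ ?_
  · rintro ⟨a, b⟩ ⟨c, d⟩
    constructor
    · intro h
      have h' : ∀ p q : X × Y, prodSetoid (e₁ a).1 (e₂ b).1 p q →
          prodSetoid (e₁ c).1 (e₂ d).1 p q := fun p q hpq => h hpq
      refine ⟨e₁.le_iff_le.1 ?_, e₂.le_iff_le.1 ?_⟩
      · intro x x' hx
        exact (h' (x, y₀) (x', y₀) ⟨hx, (e₂ b).1.refl _⟩).1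
      · intro y y' hy
        exact (h' (x₀, y) (x₀, y') ⟨(e₁ a).1.refl _, hy⟩).2
    · rintro ⟨h1, h2⟩ p q ⟨hp, hq⟩
      exact ⟨(e₁.le_iff_le.2 h1) hp, (e₂.le_iff_le.2 h2) hq⟩
  · rintro ⟨Θ, hΘ⟩
    let θ₁ : Setoid X := Setoid.comap (fun a => (a, y₀)) Θ
    let θ₂ : Setoid Y := Setoid.comap (fun b => (x₀, b)) Θ
    have hθ₁ : IsCongruence opsX θ₁ := by
      intro o ho a b hab
      refine hΘ (liftL y₀ o) ?_ (fun i => (a i, y₀)) (fun i => (b i, y₀)) hab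
      simp only [prodOps, List.mem_cons, List.mem_append, List.mem_map]
      exact Or.inr (Or.inl ⟨o, ho, rfl⟩)
    have hθ₂ : IsCongruence opsY θ₂ := by
      intro o ho a b hab
      refine hΘ (liftR x₀ o) ?_ (fun i => (x₀, a i)) (fun i => (x₀, b i)) hab
      simp only [prodOps, List.mem_cons, List.mem_append, List.mem_map]
      exact Or.inr (Or.inr ⟨o, ho, rfl⟩)
    refine ⟨(e₁.symm ⟨θ₁, hθ₁⟩, e₂.symm ⟨θ₂, hθ₂⟩), Subtype.ext (Setoid.ext ?_)⟩
    intro p q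
    show prodSetoid (e₁ (e₁.symm ⟨θ₁, hθ₁⟩)).1 (e₂ (e₂.symm ⟨θ₂, hθ₂⟩)).1 p q ↔ Θ p q
    rw [OrderIso.apply_symm_apply, OrderIso.apply_symm_apply]
    constructor
    · rintro ⟨h1, h2⟩
      exact band_compat hΘ (p := (p.1, y₀)) (p' := (q.1, y₀)) (q := (x₀, p.2)) (q' := (x₀, q.2)) h1 h2
    · intro h
      refine ⟨?_, ?_⟩
      · exact band_compat hΘ (p := p) (p' := q) (q := (x₀, y₀)) (q' := (x₀, y₀)) h (Θ.refl _)
      · exact band_compat hΘ (p := (x₀, y₀)) (p' := (x₀, y₀)) (q := p) (q' := q) (Θ.refl _) h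

section Wedge

variable {A B : Type}

/-- The one point union of `A` and `B`. -/
abbrev Wedge (a₀ : A) (b₀ : B) : Type := {w : A × B // w.2 = b₀ ∨ w.1 = a₀}

variable {a₀ : A} {b₀ : B}

/-- The inclusion of `A`. -/
def wl (a₀ : A) (b₀ : B) (a : A) : Wedge a₀ b₀ := ⟨(a, b₀), Or.inl rfl⟩

/-- The inclusion of `B`. -/
def wr (a₀ : A) (b₀ : B) (b : B) : Wedge a₀ b₀ := ⟨(a₀, b), Or.inr rfl⟩

/-- Operations of `A` on the one point union. -/
def liftA (a₀ : A) (b₀ : B) (op : Σ n : ℕ, (Fin n → A) → A) :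
    Σ n : ℕ, (Fin n → Wedge a₀ b₀) → Wedge a₀ b₀ :=
  ⟨op.1, fun v => wl a₀ b₀ (op.2 (fun i => (v i).1.1))⟩

/-- Operations of `B` on the one point union. -/
def liftB (a₀ : A) (b₀ : B) (op : Σ n : ℕ, (Fin n → B) → B) :
    Σ n : ℕ, (Fin n → Wedge a₀ b₀) → Wedge a₀ b₀ :=
  ⟨op.1, fun v => wr a₀ b₀ (op.2 (fun i => (v i).1.2))⟩

open Classical in
/-- The connecting operations: a point `w` outside of `A` goes to `a`, all others to `a'`. -/
noncomputable def tOp (a₀ : A) (b₀ : B) (i : Wedge a₀ b₀ × A × A) :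
    Σ n : ℕ, (Fin n → Wedge a₀ b₀) → Wedge a₀ b₀ :=
  ⟨1, fun v => if i.1.1.2 ≠ b₀ ∧ v 0 = i.1 then wl a₀ b₀ i.2.1 else wl a₀ b₀ i.2.2⟩

lemma tOp_pos (i : Wedge a₀ b₀ × A × A) (v : Fin 1 → Wedge a₀ b₀)
    (h : i.1.1.2 ≠ b₀ ∧ v 0 = i.1) : (tOp a₀ b₀ i).2 v = wl a₀ b₀ i.2.1 := if_pos h

lemma tOp_neg (i : Wedge a₀ b₀ × A × A) (v : Fin 1 → Wedge a₀ b₀)
    (h : ¬ (i.1.1.2 ≠ b₀ ∧ v 0 = i.1)) : (tOp a₀ b₀ i).2 v = wl a₀ b₀ i.2.2 := if_neg h

lemma tOp_snd (i : Wedge a₀ b₀ × A × A) (v : Fin (tOp a₀ b₀ i).1 → Wedge a₀ b₀) :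
    ((tOp a₀ b₀ i).2 v).1.2 = b₀ := by
  by_cases h : i.1.1.2 ≠ b₀ ∧ v (0 : Fin 1) = i.1
  · have := tOp_pos i v h
    rw [this]
    rfl
  · have := tOp_neg i v h
    rw [this]
    rfl

open Classical in
/-- The operations on the one point union. -/
noncomputable def wedgeOps [Fintype A] [Fintype B] (a₀ : A) (b₀ : B) (opsA : Ops A) (opsB : Ops B) :
    Ops (Wedge a₀ b₀) :=
  haveI : Fintype (Wedge a₀ b₀ × A × A) := Fintype.ofFinite _
  opsA.map (liftA a₀ b₀) ++ opsB.map (liftB a₀ b₀) ++ (Finset.univ.toList).map (tOp a₀ b₀)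

/-- The congruence of the one point union coming from a congruence of `A`. -/
def S1 (a₀ : A) (b₀ : B) (θ : Setoid A) : Setoid (Wedge a₀ b₀) where
  r u v := u.1.2 = v.1.2 ∧ θ u.1.1 v.1.1
  iseqv := ⟨fun _ => ⟨rfl, θ.refl _⟩, fun h => ⟨h.1.symm, θ.symm h.2⟩,
    fun h k => ⟨h.1.trans k.1, θ.trans h.2 k.2⟩⟩

/-- The congruence of the one point union coming from a congruence of `B`. -/
def S2 (a₀ : A) (b₀ : B) (ψ : Setoid B) : Setoid (Wedge a₀ b₀) :=
  Setoid.comap (fun u => u.1.2) ψ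

lemma wedge_mem_iff [Fintype A] [Fintype B] {opsA : Ops A} {opsB : Ops B}
    {op : Σ n : ℕ, (Fin n → Wedge a₀ b₀) → Wedge a₀ b₀} :
    op ∈ wedgeOps a₀ b₀ opsA opsB ↔ (∃ o ∈ opsA, liftA a₀ b₀ o = op) ∨
      (∃ o ∈ opsB, liftB a₀ b₀ o = op) ∨ ∃ i, tOp a₀ b₀ i = op := by
  classical
  simp only [wedgeOps, List.mem_append, List.mem_map, Finset.mem_toList, Finset.mem_univ, true_and,
    or_assoc]

lemma S1_isCongruence [Fintype A] [Fintype B] {opsA : Ops A} {opsB : Ops B} {θ : Setoid A}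
    (hθ : IsCongruence opsA θ) : IsCongruence (wedgeOps a₀ b₀ opsA opsB) (S1 a₀ b₀ θ) := by
  classical
  intro op hop a b hab
  rcases wedge_mem_iff.1 hop with ⟨o, ho, rfl⟩ | ⟨o, ho, rfl⟩ | ⟨i, rfl⟩
  · exact ⟨rfl, hθ o ho _ _ (fun i => (hab i).2)⟩
  · refine ⟨?_, θ.refl _⟩
    have : (fun i => (a i).1.2) = fun i => (b i).1.2 := funext fun i => (hab i).1
    exact congrArg (fun z => (wr a₀ b₀ (o.2 z)).1.2) this
  · -- connecting operation
    have h0 := hab (0 : Fin 1)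
    by_cases hab0 : a (0 : Fin 1) = b (0 : Fin 1)
    · have hf : a = b := funext fun j => by
        have hj : j = (0 : Fin 1) := Fin.ext (Nat.lt_one_iff.1 j.2)
        rw [hj]
        exact hab0
      rw [hf]
    · have hsnd : (a (0 : Fin 1)).1.2 = b₀ := by
        by_contra hne
        apply hab0
        have h1 : (a (0 : Fin 1)).1.1 = a₀ := (a (0 : Fin 1)).2.resolve_left hne
        have hne' : (b (0 : Fin 1)).1.2 ≠ b₀ := fun h => hne (h0.1.trans h)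
        have h2 : (b (0 : Fin 1)).1.1 = a₀ := (b (0 : Fin 1)).2.resolve_left hne'
        exact Subtype.ext (Prod.ext (h1.trans h2.symm) h0.1)
      have hsnd' : (b (0 : Fin 1)).1.2 = b₀ := h0.1.symm.trans hsnd
      have hA : ¬ (i.1.1.2 ≠ b₀ ∧ a (0 : Fin 1) = i.1) := by
        rintro ⟨hi, h⟩
        exact hi (by rw [← h]; exact hsnd)
      have hB : ¬ (i.1.1.2 ≠ b₀ ∧ b (0 : Fin 1) = i.1) := by
        rintro ⟨hi, h⟩
        exact hi (by rw [← h]; exact hsnd')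
      have ha : (tOp a₀ b₀ i).2 a = wl a₀ b₀ i.2.2 := tOp_neg i a hA
      have hb : (tOp a₀ b₀ i).2 b = wl a₀ b₀ i.2.2 := tOp_neg i b hB
      rw [ha, hb]

lemma S2_isCongruence [Fintype A] [Fintype B] {opsA : Ops A} {opsB : Ops B} {ψ : Setoid B}
    (hψ : IsCongruence opsB ψ) : IsCongruence (wedgeOps a₀ b₀ opsA opsB) (S2 a₀ b₀ ψ) := by
  classical
  intro op hop a b hab
  rcases wedge_mem_iff.1 hop with ⟨o, ho, rfl⟩ | ⟨o, ho, rfl⟩ | ⟨i, rfl⟩
  · exact ψ.refl _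
  · exact hψ o ho _ _ (fun i => hab i)
  · show ψ ((tOp a₀ b₀ i).2 a).1.2 ((tOp a₀ b₀ i).2 b).1.2
    rw [tOp_snd, tOp_snd]

end Wedge

/-- **Glued sums.** If an element `e` of a poset `P` is comparable with every element and the
intervals below and above `e` are representable, then `P` is representable. -/
theorem representable_of_cut {P : Type} [PartialOrder P] (e : P) (hcomp : ∀ x, x ≤ e ∨ e ≤ x)
    (h₁ : Representable (Set.Iic e)) (h₂ : Representable (Set.Ici e)) : Representable P := by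
  classical
  obtain ⟨A, _, ⟨a₀⟩, opsA, ⟨eA⟩⟩ := h₁
  obtain ⟨B, _, ⟨b₀⟩, opsB, ⟨eB⟩⟩ := h₂
  have hne : Nonempty (Wedge a₀ b₀) := ⟨wl a₀ b₀ a₀⟩
  -- the bottom of the upper part is the identity relation
  let idB : CongLat opsB := ⟨⊥, fun o _ a b hab => by
    have : a = b := funext fun i => hab i
    rw [this]⟩
  have hbot : ∀ b b', (eB ⟨e, le_refl e⟩).1 b b' → b = b' := by
    intro b b' h
    have h1 : (⟨e, le_refl e⟩ : Set.Ici e) ≤ eB.symm idB := (eB.symm idB).2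
    have h2 : eB ⟨e, le_refl e⟩ ≤ eB (eB.symm idB) := eB.le_iff_le.2 h1
    rw [OrderIso.apply_symm_apply] at h2
    exact h2 h
  have hnontriv : ∀ (x : P) (hx : e ≤ x), ¬ x ≤ e → ∃ b b', (eB ⟨x, hx⟩).1 b b' ∧ b ≠ b' := by
    intro x hx hxe
    by_contra hcon
    push Not at hcon
    apply hxe
    have : eB ⟨x, hx⟩ ≤ eB ⟨e, le_refl e⟩ := by
      intro b b' hb
      rw [hcon b b' hb]
    exact (eB.le_iff_le.1 this : (⟨x, hx⟩ : Set.Ici e) ≤ ⟨e, le_refl e⟩)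
  let Φ : P → CongLat (wedgeOps a₀ b₀ opsA opsB) := fun x =>
    if h : x ≤ e then ⟨S1 a₀ b₀ (eA ⟨x, h⟩).1, S1_isCongruence (eA ⟨x, h⟩).2⟩
    else ⟨S2 a₀ b₀ (eB ⟨x, (hcomp x).resolve_left h⟩).1,
      S2_isCongruence (eB ⟨x, (hcomp x).resolve_left h⟩).2⟩
  have hΦ1 : ∀ x (h : x ≤ e), (Φ x).1 = S1 a₀ b₀ (eA ⟨x, h⟩).1 := by
    intro x h
    simp only [Φ, dif_pos h]
  have hΦ2 : ∀ x (h : ¬ x ≤ e), (Φ x).1 = S2 a₀ b₀ (eB ⟨x, (hcomp x).resolve_left h⟩).1 := by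
    intro x h
    simp only [Φ, dif_neg h]
  refine rep_of_phi (wedgeOps a₀ b₀ opsA opsB) Φ ?_ ?_
  · intro x y
    show (Φ x).1 ≤ (Φ y).1 ↔ x ≤ y
    by_cases hx : x ≤ e <;> by_cases hy : y ≤ e
    · rw [hΦ1 x hx, hΦ1 y hy]
      constructor
      · intro h
        have : eA ⟨x, hx⟩ ≤ eA ⟨y, hy⟩ := by
          intro a a' ha
          exact (h (x := wl a₀ b₀ a) (y := wl a₀ b₀ a') ⟨rfl, ha⟩).2
        exact (eA.le_iff_le.1 this : (⟨x, hx⟩ : Set.Iic e) ≤ ⟨y, hy⟩)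
      · intro hxy u v huv
        have : eA ⟨x, hx⟩ ≤ eA ⟨y, hy⟩ := eA.le_iff_le.2 hxy
        exact ⟨huv.1, this huv.2⟩
    · rw [hΦ1 x hx, hΦ2 y hy]
      constructor
      · intro _
        exact hx.trans ((hcomp y).resolve_left hy)
      · intro _ u v huv
        show (eB _).1 u.1.2 v.1.2
        rw [huv.1]
    · rw [hΦ2 x hx, hΦ1 y hy]
      constructor
      · intro h
        obtain ⟨b, b', hb, hbb⟩ := hnontriv x _ hx
        exact absurd (h (x := wr a₀ b₀ b) (y := wr a₀ b₀ b') hb).1 hbb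
      · intro hxy
        exact absurd (hxy.trans hy) hx
    · rw [hΦ2 x hx, hΦ2 y hy]
      constructor
      · intro h
        have : eB ⟨x, (hcomp x).resolve_left hx⟩ ≤ eB ⟨y, (hcomp y).resolve_left hy⟩ := by
          intro b b' hb
          exact h (x := wr a₀ b₀ b) (y := wr a₀ b₀ b') hb
        exact (eB.le_iff_le.1 this :
          (⟨x, (hcomp x).resolve_left hx⟩ : Set.Ici e) ≤ ⟨y, (hcomp y).resolve_left hy⟩)
      · intro hxy u v huv
        have : eB ⟨x, (hcomp x).resolve_left hx⟩ ≤ eB ⟨y, (hcomp y).resolve_left hy⟩ :=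
          eB.le_iff_le.2 hxy
        exact this huv
  · rintro ⟨Θ, hΘ⟩
    by_cases hcase : ∀ u v, Θ u v → u.1.2 = v.1.2
    · -- the congruence lies below the cut
      let θ : Setoid A := Setoid.comap (wl a₀ b₀) Θ
      have hθ : IsCongruence opsA θ := by
        intro o ho a b hab
        exact hΘ (liftA a₀ b₀ o) (wedge_mem_iff.2 (Or.inl ⟨o, ho, rfl⟩))
          (fun i => wl a₀ b₀ (a i)) (fun i => wl a₀ b₀ (b i)) hab
      refine ⟨(eA.symm ⟨θ, hθ⟩).1, Subtype.ext ?_⟩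
      rw [hΦ1 _ (eA.symm ⟨θ, hθ⟩).2]
      have : (⟨(eA.symm ⟨θ, hθ⟩).1, (eA.symm ⟨θ, hθ⟩).2⟩ : Set.Iic e) = eA.symm ⟨θ, hθ⟩ := rfl
      rw [this, OrderIso.apply_symm_apply]
      apply Setoid.ext
      intro u v
      have hwl : ∀ w : Wedge a₀ b₀, w.1.2 = b₀ → wl a₀ b₀ w.1.1 = w := by
        intro w hw
        exact Subtype.ext (Prod.ext rfl hw.symm)
      constructor
      · rintro ⟨h1, h2⟩
        by_cases hb : u.1.2 = b₀
        · have hv : v.1.2 = b₀ := h1.symm.trans hb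
          have : Θ (wl a₀ b₀ u.1.1) (wl a₀ b₀ v.1.1) := h2
          rwa [hwl u hb, hwl v hv] at this
        · have hv : v.1.2 ≠ b₀ := fun h => hb (h1.trans h)
          have h3 : u.1.1 = a₀ := u.2.resolve_left hb
          have h4 : v.1.1 = a₀ := v.2.resolve_left hv
          have : u = v := Subtype.ext (Prod.ext (h3.trans h4.symm) h1)
          rw [this]
      · intro h
        have h1 := hcase u v h
        refine ⟨h1, ?_⟩
        by_cases hb : u.1.2 = b₀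
        · have hv : v.1.2 = b₀ := h1.symm.trans hb
          show Θ (wl a₀ b₀ u.1.1) (wl a₀ b₀ v.1.1)
          rwa [hwl u hb, hwl v hv]
        · have hv : v.1.2 ≠ b₀ := fun h => hb (h1.trans h)
          have h3 : u.1.1 = a₀ := u.2.resolve_left hb
          have h4 : v.1.1 = a₀ := v.2.resolve_left hv
          rw [h3, h4]
    · -- the congruence lies above the cut
      push Not at hcase
      obtain ⟨u₀, v₀, huv, hne₀⟩ := hcase
      have hall : ∀ a a', Θ (wl a₀ b₀ a) (wl a₀ b₀ a') := by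
        -- find a point outside of `A`
        have key : ∀ w w' : Wedge a₀ b₀, Θ w w' → w.1.2 ≠ b₀ → w ≠ w' →
            ∀ a a', Θ (wl a₀ b₀ a) (wl a₀ b₀ a') := by
          intro w w' hww hw hne' a a'
          have := hΘ (tOp a₀ b₀ (w, a, a')) (wedge_mem_iff.2 (Or.inr (Or.inr ⟨_, rfl⟩)))
            (fun _ => w) (fun _ => w') (fun _ => hww)
          have h' : Θ (if w.1.2 ≠ b₀ ∧ w = w then wl a₀ b₀ a else wl a₀ b₀ a')
              (if w.1.2 ≠ b₀ ∧ w' = w then wl a₀ b₀ a else wl a₀ b₀ a') := this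
          rw [if_pos ⟨hw, rfl⟩, if_neg (fun h => hne' h.2.symm)] at h'
          exact h'
        by_cases hu : u₀.1.2 = b₀
        · have hv : v₀.1.2 ≠ b₀ := fun h => hne₀ (hu.trans h.symm)
          exact key v₀ u₀ (Θ.symm huv) hv (fun h => hne₀ (by rw [h]))
        · exact key u₀ v₀ huv hu (fun h => hne₀ (by rw [h]))
      have hkey : ∀ u : Wedge a₀ b₀, Θ (wr a₀ b₀ u.1.2) u := by
        intro u
        by_cases hb : u.1.2 = b₀
        · have h1 : wr a₀ b₀ u.1.2 = wl a₀ b₀ a₀ := Subtype.ext (Prod.ext rfl hb)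
          have h2 : u = wl a₀ b₀ u.1.1 := Subtype.ext (Prod.ext rfl hb)
          rw [h1]
          conv_rhs => rw [h2]
          exact hall _ _
        · have h1 : wr a₀ b₀ u.1.2 = u := Subtype.ext (Prod.ext (u.2.resolve_left hb).symm rfl)
          rw [h1]
      let ψ : Setoid B := Setoid.comap (wr a₀ b₀) Θ
      have hψ : IsCongruence opsB ψ := by
        intro o ho a b hab
        exact hΘ (liftB a₀ b₀ o) (wedge_mem_iff.2 (Or.inr (Or.inl ⟨o, ho, rfl⟩)))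
          (fun i => wr a₀ b₀ (a i)) (fun i => wr a₀ b₀ (b i)) hab
      have hψuv : ψ u₀.1.2 v₀.1.2 :=
        Θ.trans (hkey u₀) (Θ.trans huv (Θ.symm (hkey v₀)))
      set y : Set.Ici e := eB.symm ⟨ψ, hψ⟩ with hy
      have hey : eB y = ⟨ψ, hψ⟩ := OrderIso.apply_symm_apply _ _
      have hyne : ¬ y.1 ≤ e := by
        intro hle
        have hyeq : y = ⟨e, le_refl e⟩ := Subtype.ext (le_antisymm hle y.2)
        have h3 : (eB ⟨e, le_refl e⟩).1 u₀.1.2 v₀.1.2 := by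
          rw [← hyeq, hey]
          exact hψuv
        exact hne₀ (hbot _ _ h3)
      refine ⟨y.1, Subtype.ext ?_⟩
      rw [hΦ2 _ hyne]
      have : (⟨y.1, (hcomp y.1).resolve_left hyne⟩ : Set.Ici e) = y := rfl
      rw [this, hey]
      apply Setoid.ext
      intro u v
      constructor
      · intro h
        have h' : Θ (wr a₀ b₀ u.1.2) (wr a₀ b₀ v.1.2) := h
        exact Θ.trans (Θ.symm (hkey u)) (Θ.trans h' (hkey v))
      · intro h
        exact Θ.trans (hkey u) (Θ.trans h (Θ.symm (hkey v)))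

end Vale.Agent.Lib.P183
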