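import Vale.Agent.Lib.P183.UCert
import Vale.Agent.Lib.P183.LowerBounded

/-!
# Doubling and classification on the level of order tables
-/

namespace Vale.Agent.Lib.P183.Cl

open UC

/-- Check over a range. -/
def allN (n : ℕ) (P : ℕ → Bool) : Bool := (List.range n).all P

lemma allN_spec {n : ℕ} {P : ℕ → Bool} (h : allN n P = true) {i : ℕ} (hi : i < n) : P i = true :=
  List.all_eq_true.1 h i (List.mem_range.2 hi)

/-- The table is reflexive, transitive and antisymmetric. -/
def poOK (n m : ℕ) : Bool :=
  allN n (fun i => tblLe n m i i) &&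
  allN n (fun i => allN n fun j => allN n fun l =>
    !(tblLe n m i j) || !(tblLe n m j l) || tblLe n m i l) &&
  allN n (fun i => allN n fun j => !(tblLe n m i j) || !(tblLe n m j i) || Nat.beq i j)

/-- The carrier of a table poset. -/
def TabT (n _m : ℕ) : Type := Fin n

/-- The order of a table poset. -/
@[reducible] def tabPO {n m : ℕ} (h : poOK n m = true) : PartialOrder (TabT n m) where
  le a b := tblLe n m (Fin.val a) (Fin.val b) = true
  le_refl a := by
    unfold poOK at h
    simp only [Bool.and_eq_true] at h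
    exact allN_spec h.1.1 (Fin.isLt a)
  le_trans a b c hab hbc := by
    unfold poOK at h
    simp only [Bool.and_eq_true] at h
    have h1 := allN_spec (allN_spec (allN_spec h.1.2 (Fin.isLt a)) (Fin.isLt b)) (Fin.isLt c)
    simp only [hab, hbc, Bool.not_true, Bool.false_or] at h1
    exact h1
  le_antisymm a b hab hba := by
    unfold poOK at h
    simp only [Bool.and_eq_true] at h
    have h1 := allN_spec (allN_spec h.2 (Fin.isLt a)) (Fin.isLt b)
    simp only [hab, hba, Bool.not_true, Bool.false_or] at h1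
    exact Fin.ext (Nat.eq_of_beq_eq_true h1)

/-- The data of one doubling step, on tables. -/
def dblOK (n m u Y : ℕ) (φ : List (ℕ × Bool)) (n' m' : ℕ) : Bool :=
  poOK n m && Nat.blt u n &&
  allN n (fun a => allN n fun b => !(Nat.testBit Y a) || !(tblLe n m a b) || Nat.testBit Y b) &&
  allN n (fun y => !(Nat.testBit Y y) || tblLe n m u y) &&
  allN n' (fun i => Nat.blt (φ.getD i (0, false)).1 n &&
    (!(φ.getD i (0, false)).2 || tblLe n m u (φ.getD i (0, false)).1) &&
    (!(Nat.testBit Y (φ.getD i (0, false)).1) || (φ.getD i (0, false)).2)) &&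
  allN n' (fun i => allN n' fun j =>
    !(Nat.beq (φ.getD i (0, false)).1 (φ.getD j (0, false)).1 &&
      (φ.getD i (0, false)).2 == (φ.getD j (0, false)).2) || Nat.beq i j) &&
  allN n (fun x => [false, true].all fun b =>
    !((!b || tblLe n m u x) && (!(Nat.testBit Y x) || b)) ||
      (List.range n').any fun i => Nat.beq (φ.getD i (0, false)).1 x &&
        (φ.getD i (0, false)).2 == b) &&
  allN n' (fun i => allN n' fun j =>
    tblLe n' m' i j == (tblLe n m (φ.getD i (0, false)).1 (φ.getD j (0, false)).1 &&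
      (!(φ.getD i (0, false)).2 || (φ.getD j (0, false)).2)))

/-- A doubling step preserves representability of tables. -/
theorem repT_dbl {n m u Y n' m' : ℕ} {φ : List (ℕ × Bool)} (hP : RepT n m)
    (h : dblOK n m u Y φ n' m' = true) : RepT n' m' := by
  intro Q _ hQ
  obtain ⟨e, he⟩ := hQ
  unfold dblOK at h
  simp only [Bool.and_eq_true] at h
  obtain ⟨⟨⟨⟨⟨⟨⟨hpo, hu⟩, hup⟩, hYu⟩, hmem⟩, hinj⟩, hsur⟩, hord⟩ := h
  let inst : PartialOrder (TabT n m) := tabPO hpo
  have hR : Representable (TabT n m) := hP _ ⟨Equiv.refl _, fun _ _ => Iff.rfl⟩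
  let u' : TabT n m := (⟨u, blt_spec hu⟩ : Fin n)
  let Y' : Set (TabT n m) := {x | Nat.testBit Y (Fin.val x) = true}
  have hup' : ∀ a b : TabT n m, a ∈ Y' → a ≤ b → b ∈ Y' := by
    intro a b ha hab
    have h1 := allN_spec (allN_spec hup (Fin.isLt a)) (Fin.isLt b)
    have hab' : tblLe n m (Fin.val a) (Fin.val b) = true := hab
    have ha' : Nat.testBit Y (Fin.val a) = true := ha
    simp only [ha', hab', Bool.not_true, Bool.false_or] at h1
    exact h1
  have hYu' : ∀ y ∈ Y', u' ≤ y := by
    intro y hy
    have h1 := allN_spec hYu (Fin.isLt y)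
    have hy' : Nat.testBit Y (Fin.val y) = true := hy
    simp only [hy', Bool.not_true, Bool.false_or] at h1
    exact h1
  have hD := doubling_representable u' Y' hup' hYu' hR
  refine representable_congr ?_ hD
  have hm : ∀ i : Fin n', (φ.getD i.val (0, false)).1 < n ∧
      ((φ.getD i.val (0, false)).2 = true → tblLe n m u (φ.getD i.val (0, false)).1 = true) ∧
      (Nat.testBit Y (φ.getD i.val (0, false)).1 = true → (φ.getD i.val (0, false)).2 = true) := by
    intro i
    have h1 := allN_spec hmem i.isLt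
    simp only [Bool.and_eq_true, Bool.or_eq_true, Bool.not_eq_true'] at h1
    obtain ⟨⟨h2, h3⟩, h4⟩ := h1
    refine ⟨blt_spec h2, ?_, ?_⟩
    · intro hb
      rcases h3 with h3 | h3
      · rw [hb] at h3; cases h3
      · exact h3
    · intro hb
      rcases h4 with h4 | h4
      · rw [hb] at h4; cases h4
      · exact h4
  let Ψ : Q → Doubling (TabT n m) u' Y' := fun q =>
    ⟨((⟨(φ.getD (e q).val (0, false)).1, (hm (e q)).1⟩ : Fin n), (φ.getD (e q).val (0, false)).2),
      ⟨(hm (e q)).2.1, (hm (e q)).2.2⟩⟩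
  have hΨle : ∀ p q, Ψ p ≤ Ψ q ↔ p ≤ q := by
    intro p q
    rw [he p q]
    have h1 := allN_spec (allN_spec hord (e p).isLt) (e q).isLt
    rw [beq_iff_eq] at h1
    rw [h1]
    constructor
    · rintro ⟨h2, h3⟩
      have h2' : tblLe n m (φ.getD (e p).val (0, false)).1 (φ.getD (e q).val (0, false)).1 = true :=
        h2
      rw [Bool.and_eq_true]
      refine ⟨h2', ?_⟩
      have h3' : (φ.getD (e p).val (0, false)).2 ≤ (φ.getD (e q).val (0, false)).2 := h3
      cases hb : (φ.getD (e p).val (0, false)).2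
      · rfl
      · have hc := Bool.le_iff_imp.1 h3' hb
        rw [hc]
        rfl
    · intro h2
      rw [Bool.and_eq_true] at h2
      refine ⟨h2.1, ?_⟩
      show (φ.getD (e p).val (0, false)).2 ≤ (φ.getD (e q).val (0, false)).2
      have h3 := h2.2
      cases hb : (φ.getD (e p).val (0, false)).2
      · exact Bool.false_le _
      · rw [hb] at h3
        simp only [Bool.not_true, Bool.false_or] at h3
        rw [h3]
  have hinjΨ : Function.Injective Ψ := by
    intro p q hpq
    have h1 : Ψ p ≤ Ψ q := le_of_eq hpq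
    have h2 : Ψ q ≤ Ψ p := le_of_eq hpq.symm
    have h3 : (Ψ p).1.1 = (Ψ q).1.1 := by rw [hpq]
    have h4 : (Ψ p).1.2 = (Ψ q).1.2 := by rw [hpq]
    have h5 := allN_spec (allN_spec hinj (e p).isLt) (e q).isLt
    have h6 : (φ.getD (e p).val (0, false)).1 = (φ.getD (e q).val (0, false)).1 :=
      congrArg Fin.val h3
    have h7 : (φ.getD (e p).val (0, false)).2 = (φ.getD (e q).val (0, false)).2 := h4
    rw [h6, h7] at h5
    simp only [Nat.beq_refl, beq_self_eq_true, Bool.and_self, Bool.not_true, Bool.false_or] at h5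
    exact e.injective (Fin.ext (Nat.eq_of_beq_eq_true h5))
  have hsurΨ : Function.Surjective Ψ := by
    rintro ⟨⟨x, b⟩, hx1, hx2⟩
    have h1 := allN_spec hsur (Fin.isLt x)
    have h2 := List.all_eq_true.1 h1 b (by cases b <;> simp)
    have h3 : ((!b || tblLe n m u (Fin.val x)) && (!(Nat.testBit Y (Fin.val x)) || b)) = true := by
      rw [Bool.and_eq_true]
      constructor
      · cases hb : b
        · rfl
        · have := hx1 hb
          simp only [Bool.not_true, Bool.false_or]
          exact this
      · cases hb : Nat.testBit Y (Fin.val x)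
        · rfl
        · have := hx2 hb
          simp only [Bool.not_true, Bool.false_or]
          exact this
    rw [h3] at h2
    simp only [Bool.not_true, Bool.false_or] at h2
    obtain ⟨i, hi, hi2⟩ := List.any_eq_true.1 h2
    rw [Bool.and_eq_true, beq_iff_eq] at hi2
    have hi' := List.mem_range.1 hi
    refine ⟨e.symm ⟨i, hi'⟩, ?_⟩
    apply Subtype.ext
    apply Prod.ext
    · apply Fin.ext
      show (φ.getD (e (e.symm ⟨i, hi'⟩)).val (0, false)).1 = Fin.val x
      rw [Equiv.apply_symm_apply]
      exact Nat.eq_of_beq_eq_true hi2.1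
    · show (φ.getD (e (e.symm ⟨i, hi'⟩)).val (0, false)).2 = b
      rw [Equiv.apply_symm_apply]
      exact hi2.2
  exact { toEquiv := Equiv.ofBijective Ψ ⟨hinjΨ, hsurΨ⟩, map_rel_iff' := hΨle _ _ }

/-- The one element table. -/
theorem repT_one : RepT 1 1 := by
  intro P _ hP
  obtain ⟨e, _⟩ := hP
  have : Unique P := e.unique
  exact representable_of_subsingleton P

/-- One doubling step of a derivation. -/
structure DStep where
  /-- parent size -/
  n : ℕ
  /-- parent table -/
  m : ℕ
  /-- base point of the doubled pseudo-interval -/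
  u : ℕ
  /-- the removed upper set -/
  Y : ℕ
  /-- enumeration of the elements of the doubled poset -/
  φ : List (ℕ × Bool)
  /-- size -/
  n' : ℕ
  /-- table -/
  m' : ℕ

/-- Check a derivation. -/
def chainOK : List (ℕ × ℕ) → List DStep → Bool
  | _, [] => true
  | known, s :: ss =>
    known.any (fun p => Nat.beq p.1 s.n && Nat.beq p.2 s.m) &&
      dblOK s.n s.m s.u s.Y s.φ s.n' s.m' && chainOK ((s.n', s.m') :: known) ss

/-- Correctness of a derivation. -/
theorem chain_sound : ∀ (ss : List DStep) (known : List (ℕ × ℕ)),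
    (∀ p ∈ known, RepT p.1 p.2) → chainOK known ss = true →
    ∀ s ∈ ss, RepT s.n' s.m' := by
  intro ss
  induction ss with
  | nil => intro known _ _ s hs; cases hs
  | cons s ss ih =>
    intro known hk h t ht
    unfold chainOK at h
    simp only [Bool.and_eq_true] at h
    obtain ⟨⟨h1, h2⟩, h3⟩ := h
    obtain ⟨p, hp, hp2⟩ := List.any_eq_true.1 h1
    rw [Bool.and_eq_true] at hp2
    have hps : RepT s.n s.m := by
      have := hk p hp
      rwa [Nat.eq_of_beq_eq_true hp2.1, Nat.eq_of_beq_eq_true hp2.2] at this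
    have hst : RepT s.n' s.m' := repT_dbl hps h2
    rcases List.mem_cons.1 ht with rfl | ht'
    · exact hst
    · refine ih _ ?_ h3 t ht'
      intro q hq
      rcases List.mem_cons.1 hq with rfl | hq'
      · exact hst
      · exact hk q hq'

/-! ### Classification of tables -/

/-- The pairs of middle elements. -/
def positions (n : ℕ) : List (ℕ × ℕ) :=
  (List.range n).flatMap fun i => (List.range n).filterMap fun j =>
    bif Nat.ble 1 i && Nat.blt i j && Nat.ble (j + 2) n then some (i, j) else none

/-- The forced part of the table of a lattice with a sorted enumeration. -/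
def T0 (n : ℕ) (i j : ℕ) : Bool :=
  Nat.blt i n && Nat.blt j n && (Nat.beq i j || Nat.beq i 0 || Nat.beq (j + 1) n)

/-- Update a table. -/
def upd (T : ℕ → ℕ → Bool) (i j : ℕ) (b : Bool) : ℕ → ℕ → Bool :=
  fun a c => bif Nat.beq a i && Nat.beq c j then b else T a c

/-- Run over all values of a table on a list of positions, keeping a code. -/
def forallT (check : (ℕ → ℕ → Bool) → ℕ → Bool) : List (ℕ × ℕ) → (ℕ → ℕ → Bool) → ℕ → Bool
  | [], T, c => check T c
  | p :: ps, T, c =>
    forallT check ps (upd T p.1 p.2 false) (2 * c) &&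
      forallT check ps (upd T p.1 p.2 true) (2 * c + 1)

lemma forallT_spec {check : (ℕ → ℕ → Bool) → ℕ → Bool} (Tgt : ℕ → ℕ → Bool) :
    ∀ (ps : List (ℕ × ℕ)) (T : ℕ → ℕ → Bool) (c : ℕ), forallT check ps T c = true →
    (∀ a b, (a, b) ∉ ps → Tgt a b = T a b) → ∃ c', check Tgt c' = true := by
  intro ps
  induction ps with
  | nil =>
    intro T c h hag
    have : Tgt = T := by
      funext a b
      exact hag a b (by simp)
    rw [this]
    exact ⟨c, h⟩
  | cons p ps ih =>
    intro T c h hag
    unfold forallT at h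
    rw [Bool.and_eq_true] at h
    have key : ∀ (a b : ℕ), (a, b) ∉ ps →
        Tgt a b = upd T p.1 p.2 (Tgt p.1 p.2) a b := by
      intro a b hab
      unfold upd
      cases h2 : Nat.beq a p.1 && Nat.beq b p.2
      · simp only [cond_false]
        apply hag
        intro h3
        rcases List.mem_cons.1 h3 with h3 | h3
        · rw [Bool.and_eq_false_iff] at h2
          have h4 : a = p.1 := by rw [← h3]
          have h5 : b = p.2 := by rw [← h3]
          rw [h4, h5] at h2
          simp [Nat.beq_refl] at h2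
        · exact hab h3
      · simp only [cond_true]
        rw [Bool.and_eq_true] at h2
        rw [Nat.eq_of_beq_eq_true h2.1, Nat.eq_of_beq_eq_true h2.2]
    cases hb : Tgt p.1 p.2
    · rw [hb] at key
      exact ih _ _ h.1 key
    · rw [hb] at key
      exact ih _ _ h.2 key

/-- Table is transitive and has joins. -/
def latOK (n : ℕ) (T : ℕ → ℕ → Bool) : Bool :=
  allN n (fun i => allN n fun j => allN n fun l => !(T i j) || !(T j l) || T i l) &&
  allN n (fun i => allN n fun j => (List.range n).any fun k =>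
    T i k && T j k && allN n fun l => !(T i l) || !(T j l) || T k l)

/-- Permutation check. -/
def permOK (n : ℕ) (σ : List ℕ) : Bool :=
  allN n (fun i => Nat.blt (σ.getD i 0) n) &&
  allN n (fun i => allN n fun j => !(Nat.beq (σ.getD i 0) (σ.getD j 0)) || Nat.beq i j)

/-- A lookup table entry: code, canonical table, relabelling. -/
abbrev Ent := ℕ × ℕ × List ℕ

/-- Test of a candidate table. -/
def checkE (known : List (ℕ × ℕ)) (n : ℕ) (es : List Ent) (T : ℕ → ℕ → Bool) (c : ℕ) : Bool :=
  !(latOK n T) || es.any fun e => Nat.beq e.1 c &&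
    known.any (fun p => Nat.beq p.1 n && Nat.beq p.2 e.2.1) && permOK n e.2.2 &&
    allN n fun i => allN n fun j => T i j == tblLe n e.2.1 (e.2.2.getD i 0) (e.2.2.getD j 0)

section lattice

variable {L : Type} [Lattice L] [Fintype L]

lemma exists_sorted (L : Type) [PartialOrder L] [Fintype L] :
    ∃ e : L ≃ Fin (Fintype.card L), ∀ x y, x ≤ y → (e x).val ≤ (e y).val := by
  classical
  letI : Fintype (LinearExtension L) := inferInstanceAs (Fintype L)
  have hc : Fintype.card (LinearExtension L) = Fintype.card L := rfl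
  let o := Fintype.orderIsoFinOfCardEq (LinearExtension L) hc
  refine ⟨(Equiv.refl L).trans (show L ≃ Fin (Fintype.card L) from o.symm.toEquiv), ?_⟩
  intro x y hxy
  have h1 : toLinearExtension x ≤ toLinearExtension y := toLinearExtension.monotone hxy
  exact o.symm.monotone h1

lemma mem_positions {n a b : ℕ} (ha : a < n) (hb : b < n) (h1 : 1 ≤ a) (h2 : a < b) (h3 : b + 2 ≤ n) :
    (a, b) ∈ positions n := by
  unfold positions
  refine List.mem_flatMap.2 ⟨a, List.mem_range.2 ha, ?_⟩
  refine List.mem_filterMap.2 ⟨b, List.mem_range.2 hb, ?_⟩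
  have h4 : (Nat.ble 1 a && Nat.blt a b && Nat.ble (b + 2) n) = true := by
    simp only [Bool.and_eq_true]
    exact ⟨⟨Nat.ble_eq_true_of_le h1, Nat.ble_eq_true_of_le h2⟩, Nat.ble_eq_true_of_le h3⟩
  rw [h4]
  rfl

/-- Classification of a lattice by a complete lookup table. -/
theorem rep_of_tables {known : List (ℕ × ℕ)} (hk : ∀ p ∈ known, RepT p.1 p.2) {n : ℕ} {es : List Ent}
    (h : forallT (checkE known n es) (positions n) (T0 n) 0 = true)
    (L : Type) [Lattice L] [Fintype L] [Nonempty L] (hn : Fintype.card L = n) : Representable L := by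
  classical
  obtain ⟨e, he⟩ : ∃ e : L ≃ Fin n, ∀ x y, x ≤ y → (e x).val ≤ (e y).val := by
    subst hn
    exact exists_sorted L
  let _ : BoundedOrder L := Fintype.toBoundedOrder L
  let Tgt : ℕ → ℕ → Bool := fun a b =>
    if h : a < n ∧ b < n then decide (e.symm ⟨a, h.1⟩ ≤ e.symm ⟨b, h.2⟩) else false
  have hTgt : ∀ x y : L, Tgt (e x).val (e y).val = decide (x ≤ y) := by
    intro x y
    have hh : (e x).val < n ∧ (e y).val < n := ⟨(e x).isLt, (e y).isLt⟩
    simp only [Tgt, dif_pos hh]
    simp
  have hbot : ∀ a b (ha : a < n) (hb : b < n), a = 0 → e.symm ⟨a, ha⟩ ≤ e.symm ⟨b, hb⟩ := by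
    intro a b ha hb h0
    have h2 : (e ⊥).val ≤ a := by
      have := he ⊥ (e.symm ⟨a, ha⟩) bot_le
      rwa [Equiv.apply_symm_apply] at this
    have h3 : e ⊥ = ⟨a, ha⟩ := Fin.ext (by simp only; omega)
    rw [← h3, Equiv.symm_apply_apply]
    exact bot_le
  have htop : ∀ a b (ha : a < n) (hb : b < n), b + 1 = n → e.symm ⟨a, ha⟩ ≤ e.symm ⟨b, hb⟩ := by
    intro a b ha hb h0
    have h2 : b ≤ (e ⊤).val := by
      have := he (e.symm ⟨b, hb⟩) ⊤ le_top
      rwa [Equiv.apply_symm_apply] at this
    have h4 := (e ⊤).isLt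
    have h3 : e ⊤ = ⟨b, hb⟩ := Fin.ext (by simp only; omega)
    rw [← h3, Equiv.symm_apply_apply]
    exact le_top
  have hag : ∀ a b, (a, b) ∉ positions n → Tgt a b = T0 n a b := by
    intro a b hab
    by_cases hh : a < n ∧ b < n
    · obtain ⟨ha, hb⟩ := hh
      have hT0 : T0 n a b = (Nat.beq a b || Nat.beq a 0 || Nat.beq (b + 1) n) := by
        have h1 : Nat.blt a n = true := Nat.ble_eq_true_of_le ha
        have h2 : Nat.blt b n = true := Nat.ble_eq_true_of_le hb
        simp only [T0, h1, h2, Bool.true_and]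
      simp only [Tgt, dif_pos (And.intro ha hb)]
      rw [hT0]
      by_cases h1 : a = b
      · subst h1
        simp [Nat.beq_refl]
      by_cases h2 : a = 0
      · have h3 := hbot a b ha hb h2
        have h4 : Nat.beq a 0 = true := by rw [h2]; rfl
        rw [decide_eq_true h3, h4]
        simp
      by_cases h3 : b + 1 = n
      · have h5 := htop a b ha hb h3
        have h4 : Nat.beq (b + 1) n = true := by rw [h3]; exact Nat.beq_refl _
        rw [decide_eq_true h5, h4]
        simp
      · have h4 : ¬ e.symm ⟨a, ha⟩ ≤ e.symm ⟨b, hb⟩ := by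
          intro h5
          have h6 := he _ _ h5
          rw [Equiv.apply_symm_apply, Equiv.apply_symm_apply] at h6
          simp only at h6
          exact hab (mem_positions ha hb (by omega) (by omega) (by omega))
        have h7 : Nat.beq a b = false := by
          cases h8 : Nat.beq a b
          · rfl
          · exact absurd (Nat.eq_of_beq_eq_true h8) h1
        have h8 : Nat.beq a 0 = false := by
          cases h8 : Nat.beq a 0
          · rfl
          · exact absurd (Nat.eq_of_beq_eq_true h8) h2
        have h9 : Nat.beq (b + 1) n = false := by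
          cases h9 : Nat.beq (b + 1) n
          · rfl
          · exact absurd (Nat.eq_of_beq_eq_true h9) h3
        rw [h7, h8, h9, decide_eq_false h4]
        rfl
    · have h1 : T0 n a b = false := by
        unfold T0
        by_cases ha : a < n
        · have hb : ¬ b < n := fun hb => hh ⟨ha, hb⟩
          have h2 : Nat.blt b n = false := by
            cases h3 : Nat.blt b n
            · rfl
            · exact absurd (blt_spec h3) hb
          simp [h2]
        · have h2 : Nat.blt a n = false := by
            cases h3 : Nat.blt a n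
            · rfl
            · exact absurd (blt_spec h3) ha
          simp [h2]
      simp only [Tgt, dif_neg hh, h1]
  obtain ⟨c', hc'⟩ := forallT_spec Tgt _ _ _ h hag
  have hlat : latOK n Tgt = true := by
    unfold latOK
    rw [Bool.and_eq_true]
    constructor
    · unfold allN
      rw [List.all_eq_true]
      intro i hi
      rw [List.all_eq_true]
      intro j hj
      rw [List.all_eq_true]
      intro l hl
      have hi' := List.mem_range.1 hi
      have hj' := List.mem_range.1 hj
      have hl' := List.mem_range.1 hl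
      have h1 := hTgt (e.symm ⟨i, hi'⟩) (e.symm ⟨j, hj'⟩)
      have h2 := hTgt (e.symm ⟨j, hj'⟩) (e.symm ⟨l, hl'⟩)
      have h3 := hTgt (e.symm ⟨i, hi'⟩) (e.symm ⟨l, hl'⟩)
      simp only [Equiv.apply_symm_apply] at h1 h2 h3
      rw [h1, h2, h3]
      by_cases h4 : e.symm ⟨i, hi'⟩ ≤ e.symm ⟨j, hj'⟩
      · by_cases h5 : e.symm ⟨j, hj'⟩ ≤ e.symm ⟨l, hl'⟩
        · have h6 := le_trans h4 h5
          simp [h6]
        · simp [h5]
      · simp [h4]
    · unfold allN
      rw [List.all_eq_true]
      intro i hi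
      rw [List.all_eq_true]
      intro j hj
      have hi' := List.mem_range.1 hi
      have hj' := List.mem_range.1 hj
      rw [List.any_eq_true]
      refine ⟨(e (e.symm ⟨i, hi'⟩ ⊔ e.symm ⟨j, hj'⟩)).val,
        List.mem_range.2 (e _).isLt, ?_⟩
      have h1 := hTgt (e.symm ⟨i, hi'⟩) (e.symm ⟨i, hi'⟩ ⊔ e.symm ⟨j, hj'⟩)
      have h2 := hTgt (e.symm ⟨j, hj'⟩) (e.symm ⟨i, hi'⟩ ⊔ e.symm ⟨j, hj'⟩)
      simp only [Equiv.apply_symm_apply] at h1 h2
      rw [Bool.and_eq_true, Bool.and_eq_true]
      refine ⟨⟨?_, ?_⟩, ?_⟩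
      · rw [h1]; simp
      · rw [h2]; simp
      · rw [List.all_eq_true]
        intro l hl
        have hl' := List.mem_range.1 hl
        have h3 := hTgt (e.symm ⟨i, hi'⟩) (e.symm ⟨l, hl'⟩)
        have h4 := hTgt (e.symm ⟨j, hj'⟩) (e.symm ⟨l, hl'⟩)
        have h5 := hTgt (e.symm ⟨i, hi'⟩ ⊔ e.symm ⟨j, hj'⟩) (e.symm ⟨l, hl'⟩)
        simp only [Equiv.apply_symm_apply] at h3 h4 h5
        rw [h3, h4, h5]
        by_cases h6 : e.symm ⟨i, hi'⟩ ≤ e.symm ⟨l, hl'⟩
        · by_cases h7 : e.symm ⟨j, hj'⟩ ≤ e.symm ⟨l, hl'⟩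
          · have h8 := sup_le h6 h7
            simp [h8]
          · simp [h7]
        · simp [h6]
  unfold checkE at hc'
  rw [hlat] at hc'
  simp only [Bool.not_true, Bool.false_or] at hc'
  obtain ⟨en, _, hen⟩ := List.any_eq_true.1 hc'
  simp only [Bool.and_eq_true] at hen
  obtain ⟨⟨⟨_, hkn⟩, hperm⟩, htab⟩ := hen
  obtain ⟨p, hp, hp2⟩ := List.any_eq_true.1 hkn
  rw [Bool.and_eq_true] at hp2
  have hrep : RepT n en.2.1 := by
    have := hk p hp
    rwa [Nat.eq_of_beq_eq_true hp2.1, Nat.eq_of_beq_eq_true hp2.2] at this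
  unfold permOK at hperm
  rw [Bool.and_eq_true] at hperm
  let σ : Fin n → Fin n := fun i => ⟨en.2.2.getD i.val 0, blt_spec (allN_spec hperm.1 i.isLt)⟩
  have hσinj : Function.Injective σ := by
    intro i j hij
    have h1 := allN_spec (allN_spec hperm.2 i.isLt) j.isLt
    have h2 : en.2.2.getD i.val 0 = en.2.2.getD j.val 0 := congrArg Fin.val hij
    rw [h2] at h1
    simp only [Nat.beq_refl, Bool.not_true, Bool.false_or] at h1
    exact Fin.ext (Nat.eq_of_beq_eq_true h1)
  have hσ : Function.Bijective σ := Finite.injective_iff_bijective.1 hσinj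
  refine hrep L ⟨e.trans (Equiv.ofBijective σ hσ), ?_⟩
  intro x y
  have h1 := allN_spec (allN_spec htab (e x).isLt) (e y).isLt
  rw [beq_iff_eq] at h1
  have h2 := hTgt x y
  rw [h2] at h1
  show x ≤ y ↔ tblLe n en.2.1 (en.2.2.getD (e x).val 0) (en.2.2.getD (e y).val 0) = true
  rw [← h1]
  simp

end lattice

end Vale.Agent.Lib.P183.Cl
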