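import Vale.Agent.Lib.P183.Defs

/-!
# Certificates for congruence lattices of finite unary algebras

A kernel checkable Boolean test `UData.check`: its success implies that every poset with
the given order table is isomorphic to the congruence lattice of an explicit unary algebra.
-/

namespace Vale.Agent.Lib.P183

/-- The relation on `{0,…,n-1}` encoded by the bits of `m`. -/
def tblLe (n m i j : ℕ) : Bool := Nat.testBit m (i * n + j)

/-- `P` has order table `(n, m)`. -/
def HasTable (P : Type) [PartialOrder P] (n m : ℕ) : Prop :=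
  ∃ e : P ≃ Fin n, ∀ x y, x ≤ y ↔ tblLe n m (e x) (e y) = true

/-- All posets with order table `(n, m)` are representable. -/
def RepT (n m : ℕ) : Prop :=
  ∀ (P : Type) [PartialOrder P], HasTable P n m → Representable P

namespace UC

/-- Byte number `x` of the number `f`. -/
def pk (f x : ℕ) : ℕ := Nat.land (Nat.shiftRight f (Nat.mul 8 x)) 255

/-- Evaluate a map (given as packed list of values) on `x`, with results reduced modulo `k`. -/
def ev (k : ℕ) (f : ℕ) (x : ℕ) : ℕ := Nat.mod (pk f (Nat.mod x k)) k

/-- Label of `x` in the label list number `t`. -/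
def lb (labs : List ℕ) (t x : ℕ) : ℕ := pk (labs.getD t 0) x

/-- The unary operations of the algebra. -/
def opsOf (k : ℕ) [NeZero k] (fs : List ℕ) : Ops (Fin k) :=
  fs.map fun f => ⟨1, fun v => Fin.ofNat k (ev k f (v 0).val)⟩

/-- Lookup with the identity as default. -/
def gtI (l : List ℕ) (x : ℕ) : ℕ := l.getD x x

/-- Replace the value `a` by `b`. -/
def mrg (l : List ℕ) (a b : ℕ) : List ℕ := l.map fun v => bif Nat.beq v a then b else v

/-- One congruence closure step for the map `f` at the point `u`. -/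
def stp (k : ℕ) (f : ℕ) (l : List ℕ) (u : ℕ) : List ℕ :=
  let a := gtI l (ev k f u)
  let b := gtI l (ev k f (gtI l u))
  bif Nat.beq a b then l else mrg l a b

/-- One pass through all maps and points. -/
def pass (k : ℕ) (fs : List ℕ) (l : List ℕ) : List ℕ :=
  fs.foldl (fun l f => (List.range k).foldl (stp k f) l) l

/-- Iterate `pass`. -/
def run (k : ℕ) (fs : List ℕ) : ℕ → List ℕ → List ℕ
  | 0, l => l
  | n + 1, l => run k fs n (pass k fs l)

/-- First index in the list whose labels of `x` and `y` agree. -/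
def dOf (labs : List ℕ) (n x y : ℕ) : ℕ :=
  ((List.range n).find? fun t => Nat.beq (lb labs t x) (lb labs t y)).getD 0

/-- The relation generated so far refines `l` on the blocks of `t`. -/
def refines (k : ℕ) (labs : List ℕ) (t : ℕ) (l : List ℕ) : Bool :=
  (List.range k).all fun u => Nat.beq (gtI l u) (gtI l (lb labs t u))

/-- Test of a root pair: the congruence generated by the pair contains the block relation. -/
def rootOK (k n : ℕ) (fs labs : List ℕ) (fuel : ℕ) (p : ℕ × ℕ) : Bool :=
  refines k labs (dOf labs n p.1 p.2) (run k fs fuel (mrg (List.range k) p.1 p.2))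

/-- Propagate along the maps. -/
def addIf (k n m : ℕ) (fs labs : List ℕ) (E i : ℕ) : ℕ :=
  bif Nat.testBit E i then E else
    bif fs.any (fun f => Nat.testBit E (ev k f (i / k) * k + ev k f (i % k)) &&
      tblLe n m (dOf labs n (i / k) (i % k)) (dOf labs n (ev k f (i / k)) (ev k f (i % k))))
    then E ||| (1 <<< i) else E

/-- One pass over all pairs. -/
def passE (k n m : ℕ) (fs labs : List ℕ) (E : ℕ) : ℕ :=
  (List.range (k * k)).foldl (addIf k n m fs labs) E

/-- Iterate `passE`. -/
def runE (k n m : ℕ) (fs labs : List ℕ) : ℕ → ℕ → ℕ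
  | 0, E => E
  | f + 1, E => runE k n m fs labs f (passE k n m fs labs E)

/-- The verified root pairs. -/
def rootsE (k n : ℕ) (fs labs : List ℕ) (fuel : ℕ) (roots : List (ℕ × ℕ)) : ℕ :=
  roots.foldl (fun E p => bif Nat.blt p.2 k && rootOK k n fs labs fuel p then
    E ||| (1 <<< (p.1 * k + p.2)) else E) 0

/-- Merge two points. -/
def m2 (l : List ℕ) (a b : ℕ) : List ℕ :=
  bif Nat.beq (gtI l a) (gtI l b) then l else mrg l (gtI l a) (gtI l b)

/-- Merge along the union of two label lists. -/
def joinL (k : ℕ) (labs : List ℕ) (t s : ℕ) : List ℕ :=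
  (List.range k).foldl (fun l u => m2 (m2 l u (lb labs t u)) u (lb labs s u)) (List.range k)

/-- First upper bound in the table. -/
def joinIdx (n m t s : ℕ) : ℕ :=
  ((List.range n).find? fun j => tblLe n m t j && tblLe n m s j).getD 0

/-- All checks over two ranges. -/
def all2 (a b : ℕ) (P : ℕ → ℕ → Bool) : Bool :=
  (List.range a).all fun x => (List.range b).all fun y => P x y

/-- The data of a certificate. -/
structure UData where
  /-- Carrier size -/
  k : ℕ
  /-- Lattice size -/
  n : ℕ
  /-- Order table -/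
  m : ℕ
  /-- Operations -/
  fs : List ℕ
  /-- Label lists -/
  labs : List ℕ
  /-- Root pairs -/
  roots : List (ℕ × ℕ)
  /-- Fuel of `run` -/
  fuel : ℕ
  /-- Fuel of `runE` -/
  fuelE : ℕ

/-- Compatibility of a map with the label lists. -/
def compatOK (k n : ℕ) (labs : List ℕ) (f : ℕ) : Bool :=
  all2 n k fun t x => Nat.beq (lb labs t (ev k f x)) (lb labs t (ev k f (lb labs t x)))

/-- The labels are representatives of the blocks. -/
def idemOK (k n : ℕ) (labs : List ℕ) : Bool :=
  all2 n k fun t x => Nat.blt (lb labs t x) k && Nat.beq (lb labs t (lb labs t x)) (lb labs t x)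

/-- The order table agrees with the inclusion of label partitions. -/
def orderOK (k n m : ℕ) (labs : List ℕ) : Bool :=
  all2 n n fun t s =>
    (tblLe n m t s == (List.range k).all fun x => Nat.beq (lb labs s x) (lb labs s (lb labs t x)))

/-- The table is sorted: related indices increase. -/
def sortedOK (n m : ℕ) : Bool :=
  all2 n n fun t s => !(tblLe n m t s) || Nat.ble t s

/-- The first label list separates the points. -/
def botOK (k : ℕ) (labs : List ℕ) : Bool :=
  (List.range k).all fun x => Nat.beq (lb labs 0 x) x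

/-- Joins are generated. -/
def joinOK (k n m : ℕ) (labs : List ℕ) : Bool :=
  all2 n n fun t s => tblLe n m t s || tblLe n m s t ||
    (let j := joinIdx n m t s
     Nat.blt j n && tblLe n m t j && tblLe n m s j && refines k labs j (joinL k labs t s))

/-- `dOf` is a correct block index for all pairs. -/
def dOK (k n : ℕ) (labs : List ℕ) : Bool :=
  all2 k k fun x y => Nat.blt (dOf labs n x y) n &&
    Nat.beq (lb labs (dOf labs n x y) x) (lb labs (dOf labs n x y) y)

/-- All distinct pairs are reached. -/
def pairsOK (d : UData) : Bool :=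
  let E := runE d.k d.n d.m d.fs d.labs d.fuelE (rootsE d.k d.n d.fs d.labs d.fuel d.roots)
  all2 d.k d.k fun x y => Nat.beq x y || Nat.testBit E (x * d.k + y)

/-- The complete test. -/
def check (d : UData) : Bool :=
  Nat.blt 0 d.k && Nat.blt 0 d.n && d.fs.all (compatOK d.k d.n d.labs) &&
    idemOK d.k d.n d.labs &&
    orderOK d.k d.n d.m d.labs && sortedOK d.n d.m && botOK d.k d.labs &&
    joinOK d.k d.n d.m d.labs && dOK d.k d.n d.labs && pairsOK d

/-! ### Forcing versions of the loops, for kernel evaluation -/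

/-- Force a number before continuing. -/
def forceN (n : ℕ) (c : ℕ → Bool) : Bool :=
  match n with
  | 0 => c 0
  | m + 1 => c (m + 1)

/-- Force a list of numbers before continuing. -/
def forceL : List ℕ → (List ℕ → Bool) → Bool
  | [], c => c []
  | x :: xs, c => forceN x fun y => forceL xs fun ys => c (y :: ys)

/-- A loop in continuation passing style. -/
def loopC {α γ : Type} (f : α → γ → (α → Bool) → Bool) : List γ → α → (α → Bool) → Bool
  | [], a, c => c a
  | x :: xs, a, c => f a x fun a' => loopC f xs a' c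

/-- Forcing version of `stp`. -/
def stpC (k f : ℕ) (l : List ℕ) (u : ℕ) (c : List ℕ → Bool) : Bool :=
  bif Nat.beq (gtI l (ev k f u)) (gtI l (ev k f (gtI l u))) then c l
  else forceL (mrg l (gtI l (ev k f u)) (gtI l (ev k f (gtI l u)))) c

/-- Forcing version of `pass`. -/
def passC (k : ℕ) (fs : List ℕ) (l : List ℕ) (c : List ℕ → Bool) : Bool :=
  loopC (fun l f c => loopC (stpC k f) (List.range k) l c) fs l c

/-- Forcing version of `run`. -/
def runC (k : ℕ) (fs : List ℕ) : ℕ → List ℕ → (List ℕ → Bool) → Bool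
  | 0, l, c => c l
  | n + 1, l, c => passC k fs l fun l' => runC k fs n l' c

/-- Forcing version of `rootOK`. -/
def rootC (k n : ℕ) (fs labs : List ℕ) (fuel : ℕ) (p : ℕ × ℕ) : Bool :=
  forceL (mrg (List.range k) p.1 p.2) fun l0 =>
    runC k fs fuel l0 fun l => refines k labs (dOf labs n p.1 p.2) l

/-- Forcing version of `addIf`. -/
def addIfC (k n m : ℕ) (fs labs : List ℕ) (E i : ℕ) (c : ℕ → Bool) : Bool :=
  bif Nat.testBit E i then c E else
    bif fs.any (fun f => Nat.testBit E (ev k f (i / k) * k + ev k f (i % k)) &&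
      tblLe n m (dOf labs n (i / k) (i % k)) (dOf labs n (ev k f (i / k)) (ev k f (i % k))))
    then forceN (E ||| (1 <<< i)) c else c E

/-- Forcing version of `passE`. -/
def passEC (k n m : ℕ) (fs labs : List ℕ) (E : ℕ) (c : ℕ → Bool) : Bool :=
  loopC (addIfC k n m fs labs) (List.range (k * k)) E c

/-- Forcing version of `runE`. -/
def runEC (k n m : ℕ) (fs labs : List ℕ) : ℕ → ℕ → (ℕ → Bool) → Bool
  | 0, E, c => c E
  | f + 1, E, c => passEC k n m fs labs E fun E' => runEC k n m fs labs f E' c

/-- Forcing version of `rootsE`. -/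
def rootsC (k n : ℕ) (fs labs : List ℕ) (fuel : ℕ) (roots : List (ℕ × ℕ)) (c : ℕ → Bool) : Bool :=
  loopC (fun E p c => bif Nat.blt p.2 k && rootC k n fs labs fuel p then
    forceN (E ||| (1 <<< (p.1 * k + p.2))) c else c E) roots 0 c

/-- Forcing version of `m2`. -/
def m2C (l : List ℕ) (a b : ℕ) (c : List ℕ → Bool) : Bool :=
  bif Nat.beq (gtI l a) (gtI l b) then c l else forceL (mrg l (gtI l a) (gtI l b)) c

/-- Forcing version of `joinL`. -/
def joinLC (k : ℕ) (labs : List ℕ) (t s : ℕ) (c : List ℕ → Bool) : Bool :=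
  loopC (fun l u c => m2C l u (lb labs t u) fun l' => m2C l' u (lb labs s u) c)
    (List.range k) (List.range k) c

/-- Forcing version of `joinOK`. -/
def joinOKC (k n m : ℕ) (labs : List ℕ) : Bool :=
  all2 n n fun t s => tblLe n m t s || tblLe n m s t ||
    (let j := joinIdx n m t s
     Nat.blt j n && tblLe n m t j && tblLe n m s j &&
       joinLC k labs t s fun l => refines k labs j l)

/-- Forcing version of `pairsOK`. -/
def pairsOKC (d : UData) : Bool :=
  rootsC d.k d.n d.fs d.labs d.fuel d.roots fun E0 =>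
    runEC d.k d.n d.m d.fs d.labs d.fuelE E0 fun E =>
      all2 d.k d.k fun x y => Nat.beq x y || Nat.testBit E (x * d.k + y)

/-- The complete test, forcing version. -/
def checkC (d : UData) : Bool :=
  Nat.blt 0 d.k && Nat.blt 0 d.n && d.fs.all (compatOK d.k d.n d.labs) &&
    idemOK d.k d.n d.labs &&
    orderOK d.k d.n d.m d.labs && sortedOK d.n d.m && botOK d.k d.labs &&
    joinOKC d.k d.n d.m d.labs && dOK d.k d.n d.labs && pairsOKC d

lemma forceN_eq (n : ℕ) (c : ℕ → Bool) : forceN n c = c n := by
  cases n <;> rfl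

lemma forceL_eq (l : List ℕ) (c : List ℕ → Bool) : forceL l c = c l := by
  induction l generalizing c with
  | nil => rfl
  | cons x xs ih =>
    simp only [forceL, forceN_eq, ih]

lemma loopC_eq {α γ : Type} {f : α → γ → (α → Bool) → Bool} {g : α → γ → α}
    (hf : ∀ a x c, f a x c = c (g a x)) (xs : List γ) (a : α) (c : α → Bool) :
    loopC f xs a c = c (xs.foldl g a) := by
  induction xs generalizing a with
  | nil => rfl
  | cons x xs ih =>
    simp only [loopC, hf, ih, List.foldl_cons]

lemma stpC_eq (k f : ℕ) (l : List ℕ) (u : ℕ) (c : List ℕ → Bool) :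
    stpC k f l u c = c (stp k f l u) := by
  unfold stpC stp
  simp only
  cases Nat.beq (gtI l (ev k f u)) (gtI l (ev k f (gtI l u)))
  · simp only [cond_false, forceL_eq]
  · simp only [cond_true]

lemma passC_eq (k : ℕ) (fs : List ℕ) (l : List ℕ) (c : List ℕ → Bool) :
    passC k fs l c = c (pass k fs l) := by
  unfold passC pass
  refine loopC_eq (g := fun l f => (List.range k).foldl (stp k f) l) ?_ fs l c
  intro a x c
  exact loopC_eq (fun a' x' c' => stpC_eq k x a' x' c') _ _ _

lemma runC_eq (k : ℕ) (fs : List ℕ) (n : ℕ) (l : List ℕ) (c : List ℕ → Bool) :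
    runC k fs n l c = c (run k fs n l) := by
  induction n generalizing l with
  | zero => rfl
  | succ n ih =>
    simp only [runC, run, passC_eq, ih]

lemma rootC_eq (k n : ℕ) (fs labs : List ℕ) (fuel : ℕ) (p : ℕ × ℕ) :
    rootC k n fs labs fuel p = rootOK k n fs labs fuel p := by
  unfold rootC rootOK
  simp only [forceL_eq, runC_eq]

lemma addIfC_eq (k n m : ℕ) (fs labs : List ℕ) (E i : ℕ) (c : ℕ → Bool) :
    addIfC k n m fs labs E i c = c (addIf k n m fs labs E i) := by
  unfold addIfC addIf
  cases Nat.testBit E i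
  · simp only [cond_false]
    cases fs.any (fun f => Nat.testBit E (ev k f (i / k) * k + ev k f (i % k)) &&
      tblLe n m (dOf labs n (i / k) (i % k)) (dOf labs n (ev k f (i / k)) (ev k f (i % k))))
    · simp only [cond_false]
    · simp only [cond_true, forceN_eq]
  · simp only [cond_true]

lemma passEC_eq (k n m : ℕ) (fs labs : List ℕ) (E : ℕ) (c : ℕ → Bool) :
    passEC k n m fs labs E c = c (passE k n m fs labs E) := by
  unfold passEC passE
  exact loopC_eq (fun a x c => addIfC_eq k n m fs labs a x c) _ _ _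

lemma runEC_eq (k n m : ℕ) (fs labs : List ℕ) (f E : ℕ) (c : ℕ → Bool) :
    runEC k n m fs labs f E c = c (runE k n m fs labs f E) := by
  induction f generalizing E with
  | zero => rfl
  | succ f ih =>
    simp only [runEC, runE, passEC_eq, ih]

lemma rootsC_eq (k n : ℕ) (fs labs : List ℕ) (fuel : ℕ) (roots : List (ℕ × ℕ)) (c : ℕ → Bool) :
    rootsC k n fs labs fuel roots c = c (rootsE k n fs labs fuel roots) := by
  unfold rootsC rootsE
  refine loopC_eq ?_ roots 0 c
  intro a x c
  simp only [rootC_eq]
  cases Nat.blt x.2 k && rootOK k n fs labs fuel x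
  · simp only [cond_false]
  · simp only [cond_true, forceN_eq]

lemma m2C_eq (l : List ℕ) (a b : ℕ) (c : List ℕ → Bool) : m2C l a b c = c (m2 l a b) := by
  unfold m2C m2
  cases Nat.beq (gtI l a) (gtI l b)
  · simp only [cond_false, forceL_eq]
  · simp only [cond_true]

lemma joinLC_eq (k : ℕ) (labs : List ℕ) (t s : ℕ) (c : List ℕ → Bool) :
    joinLC k labs t s c = c (joinL k labs t s) := by
  unfold joinLC joinL
  refine loopC_eq ?_ _ _ c
  intro a x c
  simp only [m2C_eq]

lemma joinOKC_eq (k n m : ℕ) (labs : List ℕ) : joinOKC k n m labs = joinOK k n m labs := by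
  unfold joinOKC joinOK
  simp only [joinLC_eq]

lemma pairsOKC_eq (d : UData) : pairsOKC d = pairsOK d := by
  unfold pairsOKC pairsOK
  simp only [rootsC_eq, runEC_eq]

lemma checkC_eq (d : UData) : checkC d = check d := by
  unfold checkC check
  simp only [joinOKC_eq, pairsOKC_eq]

/-! ### Soundness -/

lemma blt_spec {a b : ℕ} (h : Nat.blt a b = true) : a < b := Nat.le_of_ble_eq_true h

section closure

variable {R : ℕ → ℕ → Prop}

lemma gtI_mrg_inv (hr : ∀ x, R x x) (ht : ∀ x y z, R x y → R y z → R x z) {l : List ℕ} {a b : ℕ}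
    (hl : ∀ u, R u (gtI l u)) (hab : R a b) : ∀ u, R u (gtI (mrg l a b) u) := by
  intro u
  unfold gtI mrg
  by_cases hu : u < l.length
  · have h1 : (l.map fun v => bif Nat.beq v a then b else v).getD u u =
        (bif Nat.beq (l.getD u u) a then b else l.getD u u) := by
      rw [List.getD_eq_getElem _ _ (by simpa using hu), List.getD_eq_getElem _ _ hu]
      simp
    rw [h1]
    have h2 := hl u
    unfold gtI at h2
    cases h3 : Nat.beq (l.getD u u) a
    · simpa using h2
    · have : l.getD u u = a := Nat.eq_of_beq_eq_true h3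
      rw [this] at h2
      simpa using ht _ _ _ h2 hab
  · have h1 : (l.map fun v => bif Nat.beq v a then b else v).getD u u = u := by
      rw [List.getD_eq_default _ _ (by simpa using hu)]
    rw [h1]
    exact hr u

lemma stp_inv {k : ℕ} {f : ℕ} (hr : ∀ x, R x x) (hs : ∀ x y, R x y → R y x)
    (ht : ∀ x y z, R x y → R y z → R x z) (hf : ∀ x y, R x y → R (ev k f x) (ev k f y))
    {l : List ℕ} (hl : ∀ u, R u (gtI l u)) (u : ℕ) : ∀ v, R v (gtI (stp k f l u) v) := by
  unfold stp
  simp only
  cases h : Nat.beq (gtI l (ev k f u)) (gtI l (ev k f (gtI l u)))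
  · simp only [cond_false]
    refine gtI_mrg_inv hr ht hl ?_
    exact ht _ _ _ (hs _ _ (hl _)) (ht _ _ _ (hf _ _ (hl u)) (hl _))
  · simpa using hl

lemma pass_inv {k : ℕ} {fs : List ℕ} (hr : ∀ x, R x x) (hs : ∀ x y, R x y → R y x)
    (ht : ∀ x y z, R x y → R y z → R x z)
    (hf : ∀ f ∈ fs, ∀ x y, R x y → R (ev k f x) (ev k f y))
    {l : List ℕ} (hl : ∀ u, R u (gtI l u)) : ∀ v, R v (gtI (pass k fs l) v) := by
  unfold pass
  have key : ∀ (g : List ℕ) (l : List ℕ), (∀ f ∈ g, f ∈ fs) → (∀ u, R u (gtI l u)) →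
      ∀ v, R v (gtI (g.foldl (fun l f => (List.range k).foldl (stp k f) l) l) v) := by
    intro g
    induction g with
    | nil => intro l _ hl; simpa using hl
    | cons f g ih =>
      intro l hg hl
      simp only [List.foldl_cons]
      refine ih _ (fun f' hf' => hg f' (List.mem_cons_of_mem _ hf')) ?_
      have key2 : ∀ (us : List ℕ) (l : List ℕ), (∀ u, R u (gtI l u)) →
          ∀ v, R v (gtI (us.foldl (stp k f) l) v) := by
        intro us
        induction us with
        | nil => intro l hl; simpa using hl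
        | cons u us ih2 =>
          intro l hl
          simp only [List.foldl_cons]
          exact ih2 _ (stp_inv hr hs ht (hf f (hg f (List.mem_cons_self ..))) hl u)
      exact key2 _ _ hl
  exact key fs l (fun f hf => hf) hl

lemma run_inv {k : ℕ} {fs : List ℕ} (hr : ∀ x, R x x) (hs : ∀ x y, R x y → R y x)
    (ht : ∀ x y z, R x y → R y z → R x z)
    (hf : ∀ f ∈ fs, ∀ x y, R x y → R (ev k f x) (ev k f y)) :
    ∀ (n : ℕ) {l : List ℕ}, (∀ u, R u (gtI l u)) → ∀ v, R v (gtI (run k fs n l) v) := by
  intro n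
  induction n with
  | zero => intro l hl; simpa [run] using hl
  | succ n ih =>
    intro l hl
    simp only [run]
    exact ih (pass_inv hr hs ht hf hl)

lemma range_inv (hr : ∀ x, R x x) (k : ℕ) : ∀ u, R u (gtI (List.range k) u) := by
  intro u
  unfold gtI
  by_cases hu : u < k
  · rw [List.getD_eq_getElem _ _ (by simpa using hu)]
    simp only [List.getElem_range]
    exact hr u
  · rw [List.getD_eq_default _ _ (by simpa using hu)]
    exact hr u

lemma refines_spec {k : ℕ} {labs : List ℕ} {t : ℕ} {l : List ℕ}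
    (hs : ∀ x y, R x y → R y x) (ht : ∀ x y z, R x y → R y z → R x z)
    (hl : ∀ u, R u (gtI l u)) (h : refines k labs t l = true)
    {u v : ℕ} (hu : u < k) (hv : v < k) (huv : lb labs t u = lb labs t v) : R u v := by
  unfold refines at h
  rw [List.all_eq_true] at h
  have h1 := Nat.eq_of_beq_eq_true (h u (List.mem_range.2 hu))
  have h2 := Nat.eq_of_beq_eq_true (h v (List.mem_range.2 hv))
  rw [huv, ← h2] at h1
  have h5 := hl u
  rw [h1] at h5
  exact ht _ _ _ h5 (hs _ _ (hl v))

lemma rootOK_spec {k n fuel : ℕ} {fs labs : List ℕ} {p : ℕ × ℕ}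
    (hr : ∀ x, R x x) (hs : ∀ x y, R x y → R y x) (ht : ∀ x y z, R x y → R y z → R x z)
    (hf : ∀ f ∈ fs, ∀ x y, R x y → R (ev k f x) (ev k f y))
    (h : rootOK k n fs labs fuel p = true) (hp : R p.1 p.2)
    {u v : ℕ} (hu : u < k) (hv : v < k)
    (huv : lb labs (dOf labs n p.1 p.2) u = lb labs (dOf labs n p.1 p.2) v) : R u v := by
  unfold rootOK at h
  refine refines_spec hs ht (run_inv hr hs ht hf _ ?_) h hu hv huv
  exact gtI_mrg_inv hr ht (range_inv hr k) hp

lemma m2_inv (hr : ∀ x, R x x) (hs : ∀ x y, R x y → R y x) (ht : ∀ x y z, R x y → R y z → R x z)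
    {l : List ℕ} (hl : ∀ u, R u (gtI l u)) {a b : ℕ} (hab : R a b) :
    ∀ u, R u (gtI (m2 l a b) u) := by
  unfold m2
  cases h5 : Nat.beq (gtI l a) (gtI l b)
  · simp only [cond_false]
    refine gtI_mrg_inv hr ht hl ?_
    exact ht _ _ _ (hs _ _ (hl a)) (ht _ _ _ hab (hl b))
  · simpa using hl

lemma joinL_inv {k : ℕ} {labs : List ℕ} {t s : ℕ}
    (hr : ∀ x, R x x) (hs : ∀ x y, R x y → R y x) (ht : ∀ x y z, R x y → R y z → R x z)
    (h1 : ∀ u, u < k → R u (lb labs t u))
    (h2 : ∀ u, u < k → R u (lb labs s u)) :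
    ∀ u, R u (gtI (joinL k labs t s) u) := by
  unfold joinL
  have key : ∀ (us : List ℕ) (l : List ℕ), (∀ u ∈ us, u < k) → (∀ u, R u (gtI l u)) →
      ∀ w, R w (gtI (us.foldl (fun l u => m2 (m2 l u (lb labs t u)) u (lb labs s u)) l) w) := by
    intro us
    induction us with
    | nil => intro l _ hl; simpa using hl
    | cons u us ih =>
      intro l hus hl
      simp only [List.foldl_cons]
      refine ih _ (fun x hx => hus x (List.mem_cons_of_mem _ hx)) ?_
      have huk : u < k := hus u (List.mem_cons_self ..)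
      exact m2_inv hr hs ht (m2_inv hr hs ht hl (h1 u huk)) (h2 u huk)
  exact key _ _ (fun x hx => List.mem_range.1 hx) (range_inv hr k)

end closure

section sound

variable {k : ℕ} [NeZero k]

/-- The relation on natural numbers induced by an equivalence relation on `Fin k`. -/
def Rel (r : Setoid (Fin k)) (x y : ℕ) : Prop := r (Fin.ofNat k x) (Fin.ofNat k y)

lemma Rel_refl (r : Setoid (Fin k)) (x : ℕ) : Rel r x x := r.refl _

lemma Rel_symm (r : Setoid (Fin k)) (x y : ℕ) (h : Rel r x y) : Rel r y x := r.symm h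

lemma Rel_trans (r : Setoid (Fin k)) (x y z : ℕ) (h : Rel r x y) (h' : Rel r y z) : Rel r x z :=
  r.trans h h'

omit [NeZero k] in
lemma ev_mod (f : ℕ) (x : ℕ) : ev k f (x % k) = ev k f x := by
  show Nat.mod (pk f ((x % k) % k)) k = Nat.mod (pk f (x % k)) k
  rw [Nat.mod_mod]

lemma ev_lt (f : ℕ) (x : ℕ) : ev k f x < k := Nat.mod_lt _ (NeZero.pos k)

lemma Rel_compat {fs : List ℕ} {r : Setoid (Fin k)} (hr : IsCongruence (opsOf k fs) r)
    {f : ℕ} (hf : f ∈ fs) (x y : ℕ) (h : Rel r x y) : Rel r (ev k f x) (ev k f y) := by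
  have hop : (⟨1, fun v : Fin 1 → Fin k => Fin.ofNat k (ev k f (v 0).val)⟩ :
      Σ n : ℕ, (Fin n → Fin k) → Fin k) ∈ opsOf k fs := List.mem_map.2 ⟨f, hf, rfl⟩
  have := hr _ hop (fun _ => Fin.ofNat k x) (fun _ => Fin.ofNat k y) (fun _ => h)
  simpa [Rel, Fin.val_ofNat, ev_mod] using this

lemma Rel_val {r : Setoid (Fin k)} {a b : Fin k} (h : Rel r a.val b.val) : r a b := by
  unfold Rel at h
  have ha : Fin.ofNat k a.val = a := by
    apply Fin.ext
    simp
  have hb : Fin.ofNat k b.val = b := by
    apply Fin.ext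
    simp
  rwa [ha, hb] at h

lemma val_Rel {r : Setoid (Fin k)} {a b : Fin k} (h : r a b) : Rel r a.val b.val := by
  unfold Rel
  have ha : Fin.ofNat k a.val = a := by
    apply Fin.ext
    simp
  have hb : Fin.ofNat k b.val = b := by
    apply Fin.ext
    simp
  rwa [ha, hb]

/-- The block relation of the label list `t` on `Fin k`. -/
def theta (labs : List ℕ) (t : ℕ) : Setoid (Fin k) :=
  Setoid.ker fun v : Fin k => lb labs t v.val

/-- `r` contains the block relation number `t`. -/
def ThetaLE (labs : List ℕ) (t : ℕ) (r : Setoid (Fin k)) : Prop :=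
  ∀ u v : ℕ, u < k → v < k → lb labs t u = lb labs t v → Rel r u v

lemma theta_le_of {labs : List ℕ} {t : ℕ} {r : Setoid (Fin k)} (h : ThetaLE labs t r) :
    theta labs t ≤ r := by
  intro a b hab
  exact Rel_val (h _ _ a.isLt b.isLt hab)

lemma thetaLE_of {labs : List ℕ} {t : ℕ} {r : Setoid (Fin k)} (h : theta labs t ≤ r) :
    ThetaLE labs t r := by
  intro u v hu hv huv
  have : r (⟨u, hu⟩ : Fin k) ⟨v, hv⟩ := h huv
  exact val_Rel this

/-- Property established for a pair. -/
def Good (n : ℕ) (fs labs : List ℕ) (x y : ℕ) : Prop :=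
  ∀ r : Setoid (Fin k), IsCongruence (opsOf k fs) r → Rel r x y → ThetaLE labs (dOf labs n x y) r

lemma good_decode {i : ℕ} (x y : ℕ) (hy : y < k) (hi : i = x * k + y) : i / k = x ∧ i % k = y := by
  have hk : 0 < k := NeZero.pos k
  subst hi
  constructor
  · rw [Nat.add_comm, Nat.add_mul_div_right _ _ hk, Nat.div_eq_of_lt hy, Nat.zero_add]
  · rw [Nat.add_comm, Nat.add_mul_mod_self_right, Nat.mod_eq_of_lt hy]

/-- All bits of `E` are established pairs. -/
def InvE (n : ℕ) (fs labs : List ℕ) (E : ℕ) : Prop :=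
  ∀ i, Nat.testBit E i = true → Good (k := k) n fs labs (i / k) (i % k)

lemma testBit_or_shift (E i j : ℕ) (h : Nat.testBit (E ||| (1 <<< i)) j = true) :
    Nat.testBit E j = true ∨ j = i := by
  rw [Nat.testBit_or, Bool.or_eq_true] at h
  rcases h with h | h
  · exact Or.inl h
  · right
    rw [Nat.one_shiftLeft, Nat.testBit_two_pow] at h
    exact (of_decide_eq_true h).symm

lemma addIf_inv {n m : ℕ} {fs labs : List ℕ}
    (hT : ∀ t s, t < n → s < n → tblLe n m t s = true → ∀ u v, u < k → v < k →
      lb labs t u = lb labs t v → lb labs s u = lb labs s v)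
    (hd : ∀ x y, x < k → y < k → dOf labs n x y < n)
    {E : ℕ} (hE : InvE (k := k) n fs labs E) (i : ℕ) (hi : i < k * k) :
    InvE (k := k) n fs labs (addIf k n m fs labs E i) := by
  have hk : 0 < k := NeZero.pos k
  unfold addIf
  cases h1 : Nat.testBit E i
  · simp only [cond_false]
    cases h2 : fs.any (fun f => Nat.testBit E (ev k f (i / k) * k + ev k f (i % k)) &&
        tblLe n m (dOf labs n (i / k) (i % k))
          (dOf labs n (ev k f (i / k)) (ev k f (i % k))))
    · simpa using hE
    · simp only [cond_true]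
      intro j hj
      rcases testBit_or_shift _ _ _ hj with h3 | h3
      · exact hE j h3
      · subst h3
        obtain ⟨f, hf, h4⟩ := List.any_eq_true.1 h2
        rw [Bool.and_eq_true] at h4
        have h5 := hE _ h4.1
        obtain ⟨h6, h7⟩ := good_decode (k := k) (i := ev k f (j / k) * k + ev k f (j % k))
          (ev k f (j / k)) (ev k f (j % k)) (ev_lt _ _) rfl
        rw [h6, h7] at h5
        intro r hr hxy
        have h8 := h5 r hr (Rel_compat hr hf _ _ hxy)
        intro u v hu hv huv
        have hx : j / k < k := Nat.div_lt_of_lt_mul hi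
        have hy : j % k < k := Nat.mod_lt _ hk
        exact h8 u v hu hv (hT _ _ (hd _ _ hx hy) (hd _ _ (ev_lt _ _) (ev_lt _ _)) h4.2
          u v hu hv huv)
  · simpa using hE

lemma passE_inv {n m : ℕ} {fs labs : List ℕ}
    (hT : ∀ t s, t < n → s < n → tblLe n m t s = true → ∀ u v, u < k → v < k →
      lb labs t u = lb labs t v → lb labs s u = lb labs s v)
    (hd : ∀ x y, x < k → y < k → dOf labs n x y < n)
    {E : ℕ} (hE : InvE (k := k) n fs labs E) :
    InvE (k := k) n fs labs (passE k n m fs labs E) := by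
  unfold passE
  have key : ∀ (is : List ℕ) (E : ℕ), (∀ i ∈ is, i < k * k) → InvE (k := k) n fs labs E →
      InvE (k := k) n fs labs (is.foldl (addIf k n m fs labs) E) := by
    intro is
    induction is with
    | nil => intro E _ hE; simpa using hE
    | cons i is ih =>
      intro E his hE
      simp only [List.foldl_cons]
      exact ih _ (fun x hx => his x (List.mem_cons_of_mem _ hx))
        (addIf_inv hT hd hE i (his i (List.mem_cons_self ..)))
  exact key _ _ (fun x hx => List.mem_range.1 hx) hE

lemma runE_inv {n m : ℕ} {fs labs : List ℕ}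
    (hT : ∀ t s, t < n → s < n → tblLe n m t s = true → ∀ u v, u < k → v < k →
      lb labs t u = lb labs t v → lb labs s u = lb labs s v)
    (hd : ∀ x y, x < k → y < k → dOf labs n x y < n) :
    ∀ (f : ℕ) {E : ℕ}, InvE (k := k) n fs labs E →
      InvE (k := k) n fs labs (runE k n m fs labs f E) := by
  intro f
  induction f with
  | zero => intro E hE; simpa [runE] using hE
  | succ f ih =>
    intro E hE
    simp only [runE]
    exact ih (passE_inv hT hd hE)

lemma rootsE_inv {n fuel : ℕ} {fs labs : List ℕ} (roots : List (ℕ × ℕ)) :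
    InvE (k := k) n fs labs (rootsE k n fs labs fuel roots) := by
  unfold rootsE
  have key : ∀ (ps : List (ℕ × ℕ)) (E : ℕ), InvE (k := k) n fs labs E →
      InvE (k := k) n fs labs (ps.foldl (fun E p => bif Nat.blt p.2 k && rootOK k n fs labs fuel p
        then E ||| (1 <<< (p.1 * k + p.2)) else E) E) := by
    intro ps
    induction ps with
    | nil => intro E hE; simpa using hE
    | cons p ps ih =>
      intro E hE
      simp only [List.foldl_cons]
      refine ih _ ?_
      cases h : Nat.blt p.2 k && rootOK k n fs labs fuel p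
      · simpa using hE
      · simp only [cond_true]
        rw [Bool.and_eq_true] at h
        intro j hj
        rcases testBit_or_shift _ _ _ hj with h3 | h3
        · exact hE j h3
        · have hp : p.2 < k := blt_spec h.1
          obtain ⟨h6, h7⟩ := good_decode (k := k) p.1 p.2 hp h3
          rw [h6, h7]
          intro r hr hxy u v hu hv huv
          exact rootOK_spec (R := Rel r) (Rel_refl r) (Rel_symm r) (Rel_trans r)
            (fun f hf => Rel_compat hr hf) h.2 hxy hu hv huv
  refine key _ _ ?_
  intro i hi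
  simp at hi

end sound

lemma all2_spec {a b : ℕ} {P : ℕ → ℕ → Bool} (h : all2 a b P = true) {x y : ℕ} (hx : x < a)
    (hy : y < b) : P x y = true := by
  unfold all2 at h
  rw [List.all_eq_true] at h
  have h1 := h x (List.mem_range.2 hx)
  rw [List.all_eq_true] at h1
  exact h1 y (List.mem_range.2 hy)

section main

variable {k n m : ℕ} [NeZero k] {fs labs : List ℕ}

lemma isCongruence_theta (hfs : fs.all (compatOK k n labs) = true) {t : ℕ} (ht : t < n) :
    IsCongruence (opsOf k fs) (theta labs t) := by
  intro op hop a b hab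
  obtain ⟨f, hf, rfl⟩ := List.mem_map.1 hop
  have h1 := List.all_eq_true.1 hfs f hf
  have h3 := Nat.eq_of_beq_eq_true (all2_spec h1 ht (a 0).isLt)
  have h4 := Nat.eq_of_beq_eq_true (all2_spec h1 ht (b 0).isLt)
  have hab0 : lb labs t (a 0).val = lb labs t (b 0).val := hab 0
  rw [hab0, ← h4] at h3
  show lb labs t (Fin.ofNat k (ev k f (a 0).val)).val =
    lb labs t (Fin.ofNat k (ev k f (b 0).val)).val
  rw [Fin.val_ofNat, Fin.val_ofNat, Nat.mod_eq_of_lt (ev_lt _ _), Nat.mod_eq_of_lt (ev_lt _ _)]
  exact h3

end main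

/-- Core soundness statement, from the facts the tests establish. -/
theorem repT_core {k n m : ℕ} {fs labs : List ℕ} (hk' : 0 < k) (hn : 0 < n)
    (hfs : fs.all (compatOK k n labs) = true) (hidem : idemOK k n labs = true)
    (hord : orderOK k n m labs = true) (hsort : sortedOK n m = true)
    (hbot : botOK k labs = true) (hjoin : joinOK k n m labs = true)
    (hpairs : ∀ (hne : NeZero k) (x y : ℕ), x < k → y < k → x ≠ y → ∀ r : Setoid (Fin k),
      IsCongruence (opsOf k fs) r → Rel r x y →
        ∃ t, t < n ∧ lb labs t x = lb labs t y ∧ ThetaLE labs t r) :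
    RepT n m := by
  intro P _ hP
  obtain ⟨e, he⟩ := hP
  have hne : NeZero k := ⟨Nat.pos_iff_ne_zero.1 hk'⟩
  have hid1 : ∀ t x, t < n → x < k → lb labs t x < k := by
    intro t x ht hx
    have h1 := all2_spec hidem ht hx
    rw [Bool.and_eq_true] at h1
    exact blt_spec h1.1
  have hid2 : ∀ t x, t < n → x < k → lb labs t (lb labs t x) = lb labs t x := by
    intro t x ht hx
    have h1 := all2_spec hidem ht hx
    rw [Bool.and_eq_true] at h1
    exact Nat.eq_of_beq_eq_true h1.2
  -- order check
  have hordS : ∀ t s, t < n → s < n →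
      (tblLe n m t s = true ↔ ∀ u v, u < k → v < k →
        lb labs t u = lb labs t v → lb labs s u = lb labs s v) := by
    intro t s ht hs
    have h1 := all2_spec hord ht hs
    rw [beq_iff_eq] at h1
    rw [h1, List.all_eq_true]
    constructor
    · intro h2 u v hu hv huv
      have h3 := Nat.eq_of_beq_eq_true (h2 u (List.mem_range.2 hu))
      have h4 := Nat.eq_of_beq_eq_true (h2 v (List.mem_range.2 hv))
      rw [h3, h4, huv]
    · intro h2 x hx
      have hx' := List.mem_range.1 hx
      have h3 := h2 x (lb labs t x) hx' (hid1 t x ht hx') (hid2 t x ht hx').symm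
      rw [h3]
      exact Nat.beq_refl _
  have hT : ∀ t s, t < n → s < n → tblLe n m t s = true → ∀ u v, u < k → v < k →
      lb labs t u = lb labs t v → lb labs s u = lb labs s v :=
    fun t s ht hs hts => (hordS t s ht hs).1 hts
  -- every congruence is a label partition
  have hsurj : ∀ r : Setoid (Fin k), IsCongruence (opsOf k fs) r →
      ∃ j, j < n ∧ r = theta labs j := by
    intro r hr
    classical
    let S : Finset (Fin n) := Finset.univ.filter fun t => ThetaLE labs t.val r
    have h0 : (⟨0, hn⟩ : Fin n) ∈ S := by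
      refine Finset.mem_filter.2 ⟨Finset.mem_univ _, ?_⟩
      intro u v hu hv huv
      have h1 := Nat.eq_of_beq_eq_true (List.all_eq_true.1 hbot u (List.mem_range.2 hu))
      have h2 := Nat.eq_of_beq_eq_true (List.all_eq_true.1 hbot v (List.mem_range.2 hv))
      have huv' : u = v := by rw [← h1, ← h2]; exact huv
      rw [huv']
      exact Rel_refl r v
    obtain ⟨j, hjS, hjmax⟩ := Finset.exists_max_image S (fun t => t.val) ⟨_, h0⟩
    have hjS' : ThetaLE labs j.val r := (Finset.mem_filter.1 hjS).2
    have hsorted : ∀ t s, t < n → s < n → tblLe n m t s = true → t ≤ s := by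
      intro t s ht hs hts
      have h1 := all2_spec hsort ht hs
      rw [hts] at h1
      simp only [Bool.not_true, Bool.false_or] at h1
      exact Nat.le_of_ble_eq_true h1
    have hrefl : ∀ t, t < n → tblLe n m t t = true := by
      intro t ht
      exact (hordS t t ht ht).2 fun u v _ _ huv => huv
    have hle : ∀ t : Fin n, t ∈ S → tblLe n m t.val j.val = true := by
      intro t ht
      have htS : ThetaLE labs t.val r := (Finset.mem_filter.1 ht).2
      have h1 := all2_spec hjoin t.isLt j.isLt
      simp only [Bool.or_eq_true, Bool.and_eq_true] at h1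
      rcases h1 with (h1 | h1) | h1
      · exact h1
      · have h2 := hsorted _ _ j.isLt t.isLt h1
        have h3 := hjmax t ht
        have h4 : t = j := Fin.ext (le_antisymm h3 h2)
        rw [h4]
        exact hrefl _ j.isLt
      · obtain ⟨⟨⟨hq, hq1⟩, hq2⟩, hq3⟩ := h1
        have hqlt : joinIdx n m t.val j.val < n := blt_spec hq
        have hqS : (⟨_, hqlt⟩ : Fin n) ∈ S := by
          refine Finset.mem_filter.2 ⟨Finset.mem_univ _, ?_⟩
          intro u v hu hv huv
          exact refines_spec (Rel_symm r) (Rel_trans r)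
            (joinL_inv (Rel_refl r) (Rel_symm r) (Rel_trans r)
              (fun u hu => htS u _ hu (hid1 _ _ t.isLt hu) (hid2 _ _ t.isLt hu).symm)
              (fun u hu => hjS' u _ hu (hid1 _ _ j.isLt hu) (hid2 _ _ j.isLt hu).symm))
            hq3 hu hv huv
        have h3 := hjmax _ hqS
        have h2 := hsorted _ _ j.isLt hqlt hq2
        have h4 : joinIdx n m t.val j.val = j.val := le_antisymm h3 h2
        rw [h4] at hq1
        exact hq1
    refine ⟨j.val, j.isLt, le_antisymm ?_ (theta_le_of hjS')⟩
    intro a b hab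
    by_cases hne' : a.val = b.val
    · have : a = b := Fin.ext hne'
      rw [this]
    · obtain ⟨t, htn, hlab, hg⟩ := hpairs hne a.val b.val a.isLt b.isLt hne' r hr (val_Rel hab)
      have hmem : (⟨t, htn⟩ : Fin n) ∈ S := Finset.mem_filter.2 ⟨Finset.mem_univ _, hg⟩
      have h3 := hle _ hmem
      have h4 := hT _ _ htn j.isLt h3 a.val b.val a.isLt b.isLt hlab
      exact h4
  -- the isomorphism
  have hcong : ∀ p : P, IsCongruence (opsOf k fs) (theta labs (e p).val) :=
    fun p => isCongruence_theta hfs (e p).isLt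
  let Φ : P → CongLat (opsOf k fs) := fun p => ⟨theta labs (e p).val, hcong p⟩
  have hΦle : ∀ p q, Φ p ≤ Φ q ↔ p ≤ q := by
    intro p q
    rw [he]
    rw [hordS _ _ (e p).isLt (e q).isLt]
    constructor
    · intro h1 u v hu hv huv
      have : theta (k := k) labs (e q).val (⟨u, hu⟩ : Fin k) ⟨v, hv⟩ := h1 huv
      exact this
    · intro h1 a b hab
      exact h1 a.val b.val a.isLt b.isLt hab
  have hinj : Function.Injective Φ := by
    intro p q hpq
    exact le_antisymm ((hΦle p q).1 (le_of_eq hpq)) ((hΦle q p).1 (le_of_eq hpq.symm))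
  have hsur : Function.Surjective Φ := by
    rintro ⟨r, hr⟩
    obtain ⟨j, hj, rfl⟩ := hsurj r hr
    refine ⟨e.symm ⟨j, hj⟩, ?_⟩
    apply Subtype.ext
    simp [Φ]
  refine ⟨Fin k, inferInstance, ⟨⟨0, hk'⟩⟩, opsOf k fs, ⟨?_⟩⟩
  exact { toEquiv := Equiv.ofBijective Φ ⟨hinj, hsur⟩, map_rel_iff' := hΦle _ _ }

/-- Soundness of the certificate test. -/
theorem repT_of_check (d : UData) (h : check d = true) : RepT d.n d.m := by
  unfold check at h
  simp only [Bool.and_eq_true] at h
  obtain ⟨⟨⟨⟨⟨⟨⟨⟨⟨hk, hn⟩, hfs⟩, hidem⟩, hord⟩, hsort⟩, hbot⟩, hjoin⟩, hdok⟩, hpairs⟩ := h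
  refine repT_core (blt_spec hk) (blt_spec hn) hfs hidem hord hsort hbot hjoin ?_
  intro hne x y hx hy hxy r hr hrel
  have hdlt : ∀ x y, x < d.k → y < d.k → dOf d.labs d.n x y < d.n := by
    intro x y hx hy
    have h1 := all2_spec hdok hx hy
    rw [Bool.and_eq_true] at h1
    exact blt_spec h1.1
  have hdeq : ∀ x y, x < d.k → y < d.k →
      lb d.labs (dOf d.labs d.n x y) x = lb d.labs (dOf d.labs d.n x y) y := by
    intro x y hx hy
    have h1 := all2_spec hdok hx hy
    rw [Bool.and_eq_true] at h1
    exact Nat.eq_of_beq_eq_true h1.2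
  have hT : ∀ t s, t < d.n → s < d.n → tblLe d.n d.m t s = true → ∀ u v, u < d.k → v < d.k →
      lb d.labs t u = lb d.labs t v → lb d.labs s u = lb d.labs s v := by
    intro t s ht hs hts u v hu hv huv
    have h1 := all2_spec hord ht hs
    rw [beq_iff_eq] at h1
    rw [h1, List.all_eq_true] at hts
    have h3 := Nat.eq_of_beq_eq_true (hts u (List.mem_range.2 hu))
    have h4 := Nat.eq_of_beq_eq_true (hts v (List.mem_range.2 hv))
    rw [h3, h4, huv]
  have hinv := runE_inv (k := d.k) (n := d.n) (m := d.m) (fs := d.fs) (labs := d.labs) hT hdlt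
    d.fuelE (rootsE_inv (k := d.k) (n := d.n) (fuel := d.fuel) (fs := d.fs) (labs := d.labs)
      d.roots)
  unfold pairsOK at hpairs
  simp only at hpairs
  have h1 := all2_spec hpairs hx hy
  rw [Bool.or_eq_true] at h1
  rcases h1 with h1 | h1
  · exact absurd (Nat.eq_of_beq_eq_true h1) hxy
  · have h2 := hinv _ h1
    obtain ⟨h6, h7⟩ := good_decode (k := d.k) x y hy rfl
    rw [h6, h7] at h2
    exact ⟨_, hdlt x y hx hy, hdeq x y hx hy, h2 r hr hrel⟩

/-- Soundness of the forcing test. -/
theorem repT_of_checkC (d : UData) (h : checkC d = true) : RepT d.n d.m :=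
  repT_of_check d (by rw [← checkC_eq]; exact h)

end UC

end Vale.Agent.Lib.P183
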