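import Vale.Agent.Lib.P183.UCert

/-!
# Certificates for unary algebras with a transitive group of automorphisms

A cheaper test than `UC.check` when the operations contain a group acting transitively.
All loops keep their state in one number, one byte per point.
-/

namespace Vale.Agent.Lib.P183.UC

/-- Fill bytes `i-1, …, 0` with the values of `v`, on top of `A`. -/
def packFn (v : ℕ → ℕ) : ℕ → ℕ → ℕ
  | 0, A => A
  | i + 1, A => packFn v i (Nat.add (Nat.mul A 256) (v i))

/-- Replace the byte value `a` by `b` in the first `k` bytes. -/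
def mrgP (k l a b : ℕ) : ℕ :=
  packFn (fun i => bif Nat.beq (pk l i) a then b else pk l i) k 0

lemma pk_eq (f x : ℕ) : pk f x = f / 2 ^ (8 * x) % 256 := by
  show (f >>> (8 * x)) &&& 255 = _
  rw [Nat.shiftRight_eq_div_pow, show (255 : ℕ) = 2 ^ 8 - 1 from rfl, Nat.and_two_pow_sub_one_eq_mod]

lemma pk_lt (f x : ℕ) : pk f x < 256 := by
  rw [pk_eq]
  exact Nat.mod_lt _ (by norm_num)

lemma pk_zero (A w : ℕ) (hw : w < 256) : pk (Nat.add (Nat.mul A 256) w) 0 = w := by
  rw [pk_eq]
  show (A * 256 + w) / 2 ^ (8 * 0) % 256 = w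
  simp only [Nat.mul_zero, pow_zero, Nat.div_one]
  omega

lemma pk_succ (A w u : ℕ) (hw : w < 256) : pk (Nat.add (Nat.mul A 256) w) (u + 1) = pk A u := by
  rw [pk_eq, pk_eq]
  show (A * 256 + w) / 2 ^ (8 * (u + 1)) % 256 = _
  have h1 : 2 ^ (8 * (u + 1)) = 256 * 2 ^ (8 * u) := by
    rw [Nat.mul_add, pow_add, Nat.mul_comm]
    norm_num
  rw [h1, ← Nat.div_div_eq_div_mul]
  have h2 : (A * 256 + w) / 256 = A := by omega
  rw [h2]

lemma pk_packFn_ge (v : ℕ → ℕ) {N : ℕ} (hv : ∀ j, j < N → v j < 256) :
    ∀ (i A u : ℕ), i ≤ N → i ≤ u → pk (packFn v i A) u = pk A (u - i) := by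
  intro i
  induction i with
  | zero => intro A u _ _; rfl
  | succ i ih =>
    intro A u hN hu
    show pk (packFn v i (Nat.add (Nat.mul A 256) (v i))) u = _
    rw [ih _ _ (by omega) (by omega)]
    have h1 : u - i = (u - (i + 1)) + 1 := by omega
    rw [h1, pk_succ _ _ _ (hv i (by omega))]

lemma pk_packFn_lt (v : ℕ → ℕ) {N : ℕ} (hv : ∀ j, j < N → v j < 256) :
    ∀ (i A u : ℕ), i ≤ N → u < i → pk (packFn v i A) u = v u := by
  intro i
  induction i with
  | zero => intro A u _ hu; omega
  | succ i ih =>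
    intro A u hN hu
    show pk (packFn v i (Nat.add (Nat.mul A 256) (v i))) u = _
    by_cases h : u < i
    · exact ih _ _ (by omega) h
    · have h2 : u = i := by omega
      subst h2
      rw [pk_packFn_ge v hv _ _ _ (by omega) (le_refl _), Nat.sub_self,
        pk_zero _ _ (hv u (by omega))]

/-- One closure step, not forcing. -/
def stpN (k f l u : ℕ) : ℕ :=
  bif Nat.beq (pk l (ev k f u)) (pk l (ev k f (pk l u))) then l
  else mrgP k l (pk l (ev k f u)) (pk l (ev k f (pk l u)))

/-- One closure step, forcing. -/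
def stpP (k f l u : ℕ) (c : ℕ → Bool) : Bool :=
  bif Nat.beq (pk l (ev k f u)) (pk l (ev k f (pk l u))) then c l
  else forceN (mrgP k l (pk l (ev k f u)) (pk l (ev k f (pk l u)))) c

/-- One pass, not forcing. -/
def passN (k : ℕ) (fs : List ℕ) (l : ℕ) : ℕ :=
  fs.foldl (fun l f => (List.range k).foldl (stpN k f) l) l

/-- One pass, forcing. -/
def passP (k : ℕ) (fs : List ℕ) (l : ℕ) (c : ℕ → Bool) : Bool :=
  loopC (fun l f c => loopC (stpP k f) (List.range k) l c) fs l c

/-- Iterate, not forcing. -/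
def runN (k : ℕ) (fs : List ℕ) : ℕ → ℕ → ℕ
  | 0, l => l
  | n + 1, l => runN k fs n (passN k fs l)

/-- Iterate, forcing. -/
def runP (k : ℕ) (fs : List ℕ) : ℕ → ℕ → (ℕ → Bool) → Bool
  | 0, l, c => c l
  | n + 1, l, c => passP k fs l fun l' => runP k fs n l' c

/-- The relation generated so far refines the state on the blocks of `t`. -/
def refinesP (k : ℕ) (labs : List ℕ) (t l : ℕ) : Bool :=
  (List.range k).all fun u => Nat.beq (pk l u) (pk l (lb labs t u))

/-- Test for the pair `(0, y)`. -/
def rootP (k n : ℕ) (fs labs : List ℕ) (fuel y : ℕ) : Bool :=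
  Nat.blt y k && Nat.blt (dOf labs n 0 y) n && Nat.beq (lb labs (dOf labs n 0 y) 0) (lb labs (dOf labs n 0 y) y) &&
    forceN (mrgP k (packFn (fun i => i) k 0) 0 y) fun l0 =>
      runP k fs fuel l0 fun l => refinesP k labs (dOf labs n 0 y) l

/-- Spread a point set backwards along the maps, in one pass. -/
def spreadP (k : ℕ) (P : ℕ → Bool) (gs : List ℕ) (E : ℕ) (c : ℕ → Bool) : Bool :=
  loopC (fun E y c => bif Nat.testBit E y then c E else
    bif gs.any (fun g => P g && Nat.testBit E (ev k g y)) then forceN (E ||| (1 <<< y)) c else c E)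
    (List.range k) E c

/-- Iterate `spreadP`. -/
def spreadR (k : ℕ) (P : ℕ → Bool) (gs : List ℕ) : ℕ → ℕ → (ℕ → Bool) → Bool
  | 0, E, c => c E
  | n + 1, E, c => spreadP k P gs E fun E' => spreadR k P gs n E' c

/-- The data of a homogeneous certificate. -/
structure HData where
  /-- Carrier size -/
  k : ℕ
  /-- Lattice size -/
  n : ℕ
  /-- Order table -/
  m : ℕ
  /-- Mutually inverse maps; the first components are the operations -/
  pairs : List (ℕ × ℕ)
  /-- Label lists -/
  labs : List ℕ
  /-- Points `y` with a test of the pair `(0, y)` -/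
  roots : List ℕ
  /-- Number of operations used by the closure runs -/
  nrun : ℕ
  /-- Fuel of closure runs -/
  fuel : ℕ
  /-- Fuel of spreading over the stabiliser -/
  fuelY : ℕ
  /-- Fuel of spreading over the points -/
  fuelZ : ℕ

/-- The operations. -/
def HData.fs (d : HData) : List ℕ := d.pairs.map Prod.fst

/-- The pairs are mutually inverse. -/
def invOK (k : ℕ) (pairs : List (ℕ × ℕ)) : Bool :=
  pairs.all fun p => (List.range k).all fun x => Nat.beq (ev k p.2 (ev k p.1 x)) x

/-- Bit set of the roots that pass the test. -/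
def rootsP (d : HData) (c : ℕ → Bool) : Bool :=
  loopC (fun E y c => bif rootP d.k d.n (d.fs.take d.nrun) d.labs d.fuel y then
    forceN (E ||| (1 <<< y)) c else c E) d.roots 0 c

/-- The complete test. -/
def checkH (d : HData) : Bool :=
  Nat.blt 0 d.k && Nat.ble d.k 256 && Nat.blt 0 d.n &&
    d.pairs.all (fun p => compatOK d.k d.n d.labs p.1 && compatOK d.k d.n d.labs p.2) &&
    invOK d.k d.pairs && idemOK d.k d.n d.labs &&
    orderOK d.k d.n d.m d.labs && sortedOK d.n d.m && botOK d.k d.labs &&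
    joinOKC d.k d.n d.m d.labs &&
    rootsP d fun E0 =>
      spreadR d.k (fun g => Nat.beq (ev d.k g 0) 0) d.fs d.fuelY E0 fun EY =>
        (List.range d.k).all (fun y => Nat.beq y 0 || Nat.testBit EY y) &&
        spreadR d.k (fun _ => true) d.fs d.fuelZ 1 fun EZ =>
          (List.range d.k).all fun x => Nat.testBit EZ x

/-! ### Soundness -/

/-- One spreading step, not forcing. -/
def spreadStep (k : ℕ) (P : ℕ → Bool) (gs : List ℕ) (E y : ℕ) : ℕ :=
  bif Nat.testBit E y then E else
    bif gs.any (fun g => P g && Nat.testBit E (ev k g y)) then E ||| (1 <<< y) else E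

/-- One spreading pass, not forcing. -/
def spreadN (k : ℕ) (P : ℕ → Bool) (gs : List ℕ) (E : ℕ) : ℕ :=
  (List.range k).foldl (spreadStep k P gs) E

/-- Iterated spreading, not forcing. -/
def spreadRN (k : ℕ) (P : ℕ → Bool) (gs : List ℕ) : ℕ → ℕ → ℕ
  | 0, E => E
  | n + 1, E => spreadRN k P gs n (spreadN k P gs E)

lemma stpP_eq (k f l u : ℕ) (c : ℕ → Bool) : stpP k f l u c = c (stpN k f l u) := by
  unfold stpP stpN
  cases Nat.beq (pk l (ev k f u)) (pk l (ev k f (pk l u)))
  · simp only [cond_false, forceN_eq]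
  · simp only [cond_true]

lemma passP_eq (k : ℕ) (fs : List ℕ) (l : ℕ) (c : ℕ → Bool) : passP k fs l c = c (passN k fs l) := by
  unfold passP passN
  refine loopC_eq (g := fun l f => (List.range k).foldl (stpN k f) l) ?_ fs l c
  intro a x c
  exact loopC_eq (fun a' x' c' => stpP_eq k x a' x' c') _ _ _

lemma runP_eq (k : ℕ) (fs : List ℕ) (n l : ℕ) (c : ℕ → Bool) :
    runP k fs n l c = c (runN k fs n l) := by
  induction n generalizing l with
  | zero => rfl
  | succ n ih => simp only [runP, runN, passP_eq, ih]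

lemma spreadP_eq (k : ℕ) (P : ℕ → Bool) (gs : List ℕ) (E : ℕ) (c : ℕ → Bool) :
    spreadP k P gs E c = c (spreadN k P gs E) := by
  unfold spreadP spreadN
  refine loopC_eq ?_ _ _ c
  intro a y c
  unfold spreadStep
  cases Nat.testBit a y
  · simp only [cond_false]
    cases gs.any (fun g => P g && Nat.testBit a (ev k g y))
    · simp only [cond_false]
    · simp only [cond_true, forceN_eq]
  · simp only [cond_true]

lemma spreadR_eq (k : ℕ) (P : ℕ → Bool) (gs : List ℕ) (n E : ℕ) (c : ℕ → Bool) :
    spreadR k P gs n E c = c (spreadRN k P gs n E) := by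
  induction n generalizing E with
  | zero => rfl
  | succ n ih => simp only [spreadR, spreadRN, spreadP_eq, ih]

section spreading

variable {Q : ℕ → Prop} {k : ℕ} {P : ℕ → Bool} {gs : List ℕ}

lemma spreadStep_inv (hQ : ∀ y g, y < k → g ∈ gs → P g = true → Q (ev k g y) → Q y)
    {E : ℕ} (hE : ∀ i, Nat.testBit E i = true → Q i) {y : ℕ} (hy : y < k) :
    ∀ i, Nat.testBit (spreadStep k P gs E y) i = true → Q i := by
  unfold spreadStep
  cases h1 : Nat.testBit E y
  · simp only [cond_false]
    cases h2 : gs.any (fun g => P g && Nat.testBit E (ev k g y))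
    · simpa using hE
    · simp only [cond_true]
      intro i hi
      rcases testBit_or_shift _ _ _ hi with h3 | h3
      · exact hE i h3
      · subst h3
        obtain ⟨g, hg, h4⟩ := List.any_eq_true.1 h2
        rw [Bool.and_eq_true] at h4
        exact hQ _ g hy hg h4.1 (hE _ h4.2)
  · simpa using hE

lemma spreadN_inv (hQ : ∀ y g, y < k → g ∈ gs → P g = true → Q (ev k g y) → Q y)
    {E : ℕ} (hE : ∀ i, Nat.testBit E i = true → Q i) :
    ∀ i, Nat.testBit (spreadN k P gs E) i = true → Q i := by
  unfold spreadN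
  have key : ∀ (ys : List ℕ) (E : ℕ), (∀ y ∈ ys, y < k) → (∀ i, Nat.testBit E i = true → Q i) →
      ∀ i, Nat.testBit (ys.foldl (spreadStep k P gs) E) i = true → Q i := by
    intro ys
    induction ys with
    | nil => intro E _ hE; simpa using hE
    | cons y ys ih =>
      intro E hys hE
      simp only [List.foldl_cons]
      exact ih _ (fun x hx => hys x (List.mem_cons_of_mem _ hx))
        (spreadStep_inv hQ hE (hys y (List.mem_cons_self ..)))
  exact key _ _ (fun x hx => List.mem_range.1 hx) hE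

lemma spreadRN_inv (hQ : ∀ y g, y < k → g ∈ gs → P g = true → Q (ev k g y) → Q y) :
    ∀ (n : ℕ) {E : ℕ}, (∀ i, Nat.testBit E i = true → Q i) →
      ∀ i, Nat.testBit (spreadRN k P gs n E) i = true → Q i := by
  intro n
  induction n with
  | zero => intro E hE; simpa [spreadRN] using hE
  | succ n ih =>
    intro E hE
    simp only [spreadRN]
    exact ih (spreadN_inv hQ hE)

end spreading

section closureP

variable {R : ℕ → ℕ → Prop} {k : ℕ}

lemma mrgP_inv (hr : ∀ x, R x x) (ht : ∀ x y z, R x y → R y z → R x z) {l a b : ℕ}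
    (hl : ∀ u, u < k → R u (pk l u)) (hab : R a b) (hb : b < 256) :
    ∀ u, u < k → R u (pk (mrgP k l a b) u) := by
  intro u hu
  have hv : ∀ j, j < k → (bif Nat.beq (pk l j) a then b else pk l j) < 256 := by
    intro j _
    cases Nat.beq (pk l j) a
    · exact pk_lt _ _
    · exact hb
  unfold mrgP
  rw [pk_packFn_lt _ hv _ _ _ (le_refl _) hu]
  cases h : Nat.beq (pk l u) a
  · simpa using hl u hu
  · have h2 := hl u hu
    rw [Nat.eq_of_beq_eq_true h] at h2
    simpa using ht _ _ _ h2 hab

lemma stpN_inv {f : ℕ} (hk : 0 < k) (hr : ∀ x, R x x) (hs : ∀ x y, R x y → R y x)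
    (ht : ∀ x y z, R x y → R y z → R x z) (hf : ∀ x y, R x y → R (ev k f x) (ev k f y))
    {l : ℕ} (hl : ∀ u, u < k → R u (pk l u)) {u : ℕ} (hu : u < k) :
    ∀ v, v < k → R v (pk (stpN k f l u) v) := by
  unfold stpN
  have h1 : ev k f u < k := Nat.mod_lt _ hk
  have h2 : ev k f (pk l u) < k := Nat.mod_lt _ hk
  cases h : Nat.beq (pk l (ev k f u)) (pk l (ev k f (pk l u)))
  · simp only [cond_false]
    refine mrgP_inv hr ht hl ?_ (pk_lt _ _)
    exact ht _ _ _ (hs _ _ (hl _ h1)) (ht _ _ _ (hf _ _ (hl u hu)) (hl _ h2))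
  · simpa using hl

lemma passN_inv {fs : List ℕ} (hk : 0 < k) (hr : ∀ x, R x x) (hs : ∀ x y, R x y → R y x)
    (ht : ∀ x y z, R x y → R y z → R x z)
    (hf : ∀ f ∈ fs, ∀ x y, R x y → R (ev k f x) (ev k f y))
    {l : ℕ} (hl : ∀ u, u < k → R u (pk l u)) : ∀ v, v < k → R v (pk (passN k fs l) v) := by
  unfold passN
  have key : ∀ (g : List ℕ) (l : ℕ), (∀ f ∈ g, f ∈ fs) → (∀ u, u < k → R u (pk l u)) →
      ∀ v, v < k → R v (pk (g.foldl (fun l f => (List.range k).foldl (stpN k f) l) l) v) := by
    intro g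
    induction g with
    | nil => intro l _ hl; simpa using hl
    | cons f g ih =>
      intro l hg hl
      simp only [List.foldl_cons]
      refine ih _ (fun f' hf' => hg f' (List.mem_cons_of_mem _ hf')) ?_
      have key2 : ∀ (us : List ℕ) (l : ℕ), (∀ u ∈ us, u < k) → (∀ u, u < k → R u (pk l u)) →
          ∀ v, v < k → R v (pk (us.foldl (stpN k f) l) v) := by
        intro us
        induction us with
        | nil => intro l _ hl; simpa using hl
        | cons u us ih2 =>
          intro l hus hl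
          simp only [List.foldl_cons]
          exact ih2 _ (fun x hx => hus x (List.mem_cons_of_mem _ hx))
            (stpN_inv hk hr hs ht (hf f (hg f (List.mem_cons_self ..))) hl
              (hus u (List.mem_cons_self ..)))
      exact key2 _ _ (fun x hx => List.mem_range.1 hx) hl
  exact key fs l (fun f hf => hf) hl

lemma runN_inv {fs : List ℕ} (hk : 0 < k) (hr : ∀ x, R x x) (hs : ∀ x y, R x y → R y x)
    (ht : ∀ x y z, R x y → R y z → R x z)
    (hf : ∀ f ∈ fs, ∀ x y, R x y → R (ev k f x) (ev k f y)) :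
    ∀ (n : ℕ) {l : ℕ}, (∀ u, u < k → R u (pk l u)) → ∀ v, v < k → R v (pk (runN k fs n l) v) := by
  intro n
  induction n with
  | zero => intro l hl; simpa [runN] using hl
  | succ n ih =>
    intro l hl
    simp only [runN]
    exact ih (passN_inv hk hr hs ht hf hl)

lemma refinesP_spec {labs : List ℕ} {t l : ℕ} (hs : ∀ x y, R x y → R y x)
    (ht : ∀ x y z, R x y → R y z → R x z)
    (hl : ∀ u, u < k → R u (pk l u)) (h : refinesP k labs t l = true)
    {u v : ℕ} (hu : u < k) (hv : v < k) (huv : lb labs t u = lb labs t v) : R u v := by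
  unfold refinesP at h
  rw [List.all_eq_true] at h
  have h1 := Nat.eq_of_beq_eq_true (h u (List.mem_range.2 hu))
  have h2 := Nat.eq_of_beq_eq_true (h v (List.mem_range.2 hv))
  rw [huv, ← h2] at h1
  have h5 := hl u hu
  rw [h1] at h5
  exact ht _ _ _ h5 (hs _ _ (hl v hv))

end closureP

/-- Soundness of the homogeneous test. -/
theorem repT_of_checkH (d : HData) (h : checkH d = true) : RepT d.n d.m := by
  unfold checkH at h
  simp only [Bool.and_eq_true] at h
  obtain ⟨⟨⟨⟨⟨⟨⟨⟨⟨⟨hk, hk2⟩, hn⟩, hfs⟩, hinv⟩, hidem⟩, hord⟩, hsort⟩, hbot⟩, hjoin⟩, hrest⟩ := h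
  have hk' : 0 < d.k := blt_spec hk
  have hk256 : d.k ≤ 256 := Nat.le_of_ble_eq_true hk2
  have hfs1 : d.fs.all (compatOK d.k d.n d.labs) = true := by
    rw [List.all_eq_true]
    intro f hf
    obtain ⟨p, hp, rfl⟩ := List.mem_map.1 hf
    have := List.all_eq_true.1 hfs p hp
    rw [Bool.and_eq_true] at this
    exact this.1
  have hjoin' : joinOK d.k d.n d.m d.labs = true := by
    rw [← joinOKC_eq]; exact hjoin
  refine repT_core hk' (blt_spec hn) hfs1 hidem hord hsort hbot hjoin' ?_
  intro hne
  -- the compatibility of all maps with labels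
  have hlab : ∀ f t a b, compatOK d.k d.n d.labs f = true → t < d.n → a < d.k → b < d.k →
      lb d.labs t a = lb d.labs t b → lb d.labs t (ev d.k f a) = lb d.labs t (ev d.k f b) := by
    intro f t a b hf ht ha hb hab
    have h3 := Nat.eq_of_beq_eq_true (all2_spec hf ht ha)
    have h4 := Nat.eq_of_beq_eq_true (all2_spec hf ht hb)
    rw [hab, ← h4] at h3
    exact h3
  -- the property of pairs
  let Gd : ℕ → ℕ → Prop := fun x y => ∀ r : Setoid (Fin d.k), IsCongruence (opsOf d.k d.fs) r →
    Rel r x y → ∃ t, t < d.n ∧ lb d.labs t x = lb d.labs t y ∧ ThetaLE d.labs t r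
  have htrans : ∀ g x y, g ∈ d.fs → x < d.k → y < d.k → Gd (ev d.k g x) (ev d.k g y) → Gd x y := by
    intro g x y hg hx hy hG r hr hrel
    obtain ⟨p, hp, rfl⟩ := List.mem_map.1 hg
    obtain ⟨t, ht, hl, hle⟩ := hG r hr (Rel_compat hr hg x y hrel)
    refine ⟨t, ht, ?_, hle⟩
    have h1 := List.all_eq_true.1 hfs p hp
    rw [Bool.and_eq_true] at h1
    have h2 := hlab p.2 t _ _ h1.2 ht (ev_lt _ _) (ev_lt _ _) hl
    have h3 := List.all_eq_true.1 hinv p hp
    have h4 := Nat.eq_of_beq_eq_true (List.all_eq_true.1 h3 x (List.mem_range.2 hx))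
    have h5 := Nat.eq_of_beq_eq_true (List.all_eq_true.1 h3 y (List.mem_range.2 hy))
    rwa [h4, h5] at h2
  have hdiag : ∀ x, Gd x x := by
    intro x r _ _
    refine ⟨0, blt_spec hn, rfl, ?_⟩
    intro u v hu hv huv
    have h1 := Nat.eq_of_beq_eq_true (List.all_eq_true.1 hbot u (List.mem_range.2 hu))
    have h2 := Nat.eq_of_beq_eq_true (List.all_eq_true.1 hbot v (List.mem_range.2 hv))
    have huv' : u = v := by rw [← h1, ← h2]; exact huv
    rw [huv']
    exact Rel_refl r v
  -- roots
  have hroot : ∀ y, rootP d.k d.n (d.fs.take d.nrun) d.labs d.fuel y = true → Gd 0 y := by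
    intro y hy r hr hrel
    unfold rootP at hy
    simp only [Bool.and_eq_true, forceN_eq, runP_eq] at hy
    obtain ⟨⟨⟨hyk, h1⟩, h2⟩, h3⟩ := hy
    refine ⟨_, blt_spec h1, Nat.eq_of_beq_eq_true h2, ?_⟩
    intro u v hu hv huv
    refine refinesP_spec (k := d.k) (Rel_symm r) (Rel_trans r) ?_ h3 hu hv huv
    refine runN_inv hk' (Rel_refl r) (Rel_symm r) (Rel_trans r) ?_ _ ?_
    · intro f hf x y hxy
      exact Rel_compat hr (List.mem_of_mem_take hf) x y hxy
    · have h0 : ∀ u, u < d.k → Rel r u (pk (packFn (fun i => i) d.k 0) u) := by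
        intro u hu
        have hv : ∀ j, j < d.k → (fun i => i) j < 256 := fun j hj => lt_of_lt_of_le hj hk256
        rw [pk_packFn_lt _ hv _ _ _ (le_refl _) hu]
        exact Rel_refl r u
      exact mrgP_inv (Rel_refl r) (Rel_trans r) h0 hrel
        (lt_of_lt_of_le (blt_spec hyk) hk256)
  have hrest' := hrest
  unfold rootsP at hrest'
  have hloop := loopC_eq (f := fun E y c => bif rootP d.k d.n (d.fs.take d.nrun) d.labs d.fuel y then
    forceN (E ||| (1 <<< y)) c else c E)
    (g := fun E y => bif rootP d.k d.n (d.fs.take d.nrun) d.labs d.fuel y then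
      E ||| (1 <<< y) else E) (by
      intro a x c
      cases rootP d.k d.n (d.fs.take d.nrun) d.labs d.fuel x
      · simp only [cond_false]
      · simp only [cond_true, forceN_eq]) d.roots 0
  rw [hloop] at hrest'
  simp only [spreadR_eq, Bool.and_eq_true] at hrest'
  obtain ⟨hY, hZ⟩ := hrest'
  -- root bits
  have hE0 : ∀ i, Nat.testBit (d.roots.foldl (fun E y =>
      bif rootP d.k d.n (d.fs.take d.nrun) d.labs d.fuel y then E ||| (1 <<< y) else E) 0) i = true →
      Gd 0 i := by
    have key : ∀ (ys : List ℕ) (E : ℕ), (∀ i, Nat.testBit E i = true → Gd 0 i) →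
        ∀ i, Nat.testBit (ys.foldl (fun E y =>
          bif rootP d.k d.n (d.fs.take d.nrun) d.labs d.fuel y then E ||| (1 <<< y) else E) E) i
          = true → Gd 0 i := by
      intro ys
      induction ys with
      | nil => intro E hE; simpa using hE
      | cons y ys ih =>
        intro E hE
        simp only [List.foldl_cons]
        refine ih _ ?_
        cases h : rootP d.k d.n (d.fs.take d.nrun) d.labs d.fuel y
        · simpa using hE
        · simp only [cond_true]
          intro i hi
          rcases testBit_or_shift _ _ _ hi with h3 | h3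
          · exact hE i h3
          · rw [h3]; exact hroot y h
    refine key _ _ ?_
    intro i hi
    simp at hi
  -- spreading over the stabiliser
  have hYinv := spreadRN_inv (Q := fun y => Gd 0 y) (k := d.k)
    (P := fun g => Nat.beq (ev d.k g 0) 0) (gs := d.fs) (by
      intro y g hy hg hP hQ
      have h0 : ev d.k g 0 = 0 := Nat.eq_of_beq_eq_true hP
      apply htrans g 0 y hg hk' hy
      rw [h0]
      exact hQ) d.fuelY hE0
  have hall0 : ∀ y, y < d.k → Gd 0 y := by
    intro y hy
    have h1 := List.all_eq_true.1 hY y (List.mem_range.2 hy)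
    rw [Bool.or_eq_true] at h1
    rcases h1 with h1 | h1
    · rw [Nat.eq_of_beq_eq_true h1]; exact hdiag 0
    · exact hYinv _ h1
  -- spreading over the points
  have hZinv := spreadRN_inv (Q := fun x => ∀ y, y < d.k → Gd x y) (k := d.k)
    (P := fun _ => true) (gs := d.fs) (by
      intro x g hx hg _ hQ y hy
      exact htrans g x y hg hx hy (hQ _ (ev_lt _ _))) d.fuelZ (E := 1) (by
      intro i hi
      have h1 : i = 0 := by
        by_contra h2
        obtain ⟨j, rfl⟩ := Nat.exists_eq_succ_of_ne_zero h2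
        simp [Nat.testBit_succ] at hi
      rw [h1]
      exact hall0)
  intro x y hx hy _ r hr hrel
  have h1 := List.all_eq_true.1 hZ x (List.mem_range.2 hx)
  exact hZinv _ h1 y hy r hr hrel

end Vale.Agent.Lib.P183.UC
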