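import Vale.Agent.Lib.P183.DoublingC

/-!
# Duals of lattices without `D`-cycles
-/

namespace Vale.Agent.Lib.P183

open OrderDual

section Dual

variable {K : Type} [PartialOrder K] (u : K) (Y : Set K)

/-- The doubled set. -/
def dualC : Set Kᵒᵈ := {x | u ≤ ofDual x ∧ ofDual x ∉ Y}

open Classical in
/-- The flag in the dual. -/
noncomputable def flagD (x : K) (ε : Bool) : Bool :=
  if u ≤ x ∧ x ∉ Y then !ε else decide (∃ c, u ≤ c ∧ c ∉ Y ∧ x ≤ c)

open Classical in
/-- The flag back from the dual. -/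
noncomputable def flagB (x : K) (δ : Bool) : Bool :=
  if u ≤ x ∧ x ∉ Y then !δ else decide (u ≤ x)

variable {u Y}

lemma ble (a b : Bool) : a ≤ b ↔ (a = true → b = true) := by
  cases a <;> cases b <;> decide

lemma flagD_le (hYup : ∀ a b, a ∈ Y → a ≤ b → b ∈ Y) {x x' : K} {ε ε' : Bool}
    (h1 : ε = true → u ≤ x) (h2 : x ∈ Y → ε = true) (h1' : ε' = true → u ≤ x')
    (h2' : x' ∈ Y → ε' = true) (hx : x' ≤ x) : ε' ≤ ε ↔ flagD u Y x ε ≤ flagD u Y x' ε' := by
  classical
  unfold flagD
  by_cases hP : u ≤ x ∧ x ∉ Y <;> by_cases hP' : u ≤ x' ∧ x' ∉ Y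
  · rw [if_pos hP, if_pos hP']
    cases ε <;> cases ε' <;> decide
  · rw [if_pos hP, if_neg hP']
    have e1 : ε' ≤ ε := by
      rw [ble]
      intro h
      have h3 := h1' h
      exact absurd (hYup x' x (by
        by_contra h4
        exact hP' ⟨h3, h4⟩) hx) hP.2
    have e2 : (!ε) ≤ decide (∃ c, u ≤ c ∧ c ∉ Y ∧ x' ≤ c) := by
      rw [ble]
      intro _
      exact decide_eq_true ⟨x, hP.1, hP.2, hx⟩
    exact iff_of_true e1 e2
  · rw [if_neg hP, if_pos hP']
    have e1 : ε' ≤ ε := by
      rw [ble]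
      intro _
      refine h2 ?_
      by_contra h4
      exact hP ⟨le_trans hP'.1 hx, h4⟩
    have e2 : decide (∃ c, u ≤ c ∧ c ∉ Y ∧ x ≤ c) ≤ !ε' := by
      rw [ble]
      intro h
      obtain ⟨c, _, hc, hxc⟩ := of_decide_eq_true h
      exact absurd ⟨le_trans hP'.1 hx, fun h5 => hc (hYup x c h5 hxc)⟩ hP
    exact iff_of_true e1 e2
  · rw [if_neg hP, if_neg hP']
    have e1 : ε' ≤ ε := by
      rw [ble]
      intro h
      have h3 := h1' h
      refine h2 (hYup x' x ?_ hx)
      by_contra h4
      exact hP' ⟨h3, h4⟩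
    have e2 : decide (∃ c, u ≤ c ∧ c ∉ Y ∧ x ≤ c) ≤ decide (∃ c, u ≤ c ∧ c ∉ Y ∧ x' ≤ c) := by
      rw [ble]
      intro h
      obtain ⟨c, h6, hc, hxc⟩ := of_decide_eq_true h
      exact decide_eq_true ⟨c, h6, hc, le_trans hx hxc⟩
    exact iff_of_true e1 e2

lemma flagB_flagD {x : K} {ε : Bool} (h1 : ε = true → u ≤ x) (h2 : x ∈ Y → ε = true) :
    flagB u Y x (flagD u Y x ε) = ε := by
  classical
  unfold flagD flagB
  by_cases hP : u ≤ x ∧ x ∉ Y
  · rw [if_pos hP, if_pos hP, Bool.not_not]
  · rw [if_neg hP]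
    by_cases hu : u ≤ x
    · have hY : x ∈ Y := by
        by_contra h4
        exact hP ⟨hu, h4⟩
      rw [h2 hY]
      exact decide_eq_true hu
    · have hε : ε = false := by
        cases ε with
        | false => rfl
        | true => exact absurd (h1 rfl) hu
      rw [hε]
      exact decide_eq_false hu

lemma flagD_flagB {x : K} {δ : Bool} (h1 : δ = true → ∃ c, u ≤ c ∧ c ∉ Y ∧ x ≤ c)
    (h2 : δ = false → (∃ c, u ≤ c ∧ c ∉ Y ∧ x ≤ c) → u ≤ x ∧ x ∉ Y) :
    flagD u Y x (flagB u Y x δ) = δ := by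
  classical
  unfold flagD flagB
  by_cases hP : u ≤ x ∧ x ∉ Y
  · rw [if_pos hP, if_pos hP, Bool.not_not]
  · rw [if_neg hP]
    cases δ with
    | true => exact decide_eq_true (h1 rfl)
    | false => exact decide_eq_false (fun h => hP (h2 rfl h))

open Classical in
/-- The dual of a Day doubling of a lower pseudo-interval is a Day doubling. -/
noncomputable def dualDoublingIso (hYup : ∀ a b, a ∈ Y → a ≤ b → b ∈ Y) (hYu : ∀ y ∈ Y, u ≤ y) :
    (Doubling K u Y)ᵒᵈ ≃o DayDoubling Kᵒᵈ (dualC u Y) where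
  toFun p := ⟨(toDual (ofDual p).1.1, flagD u Y (ofDual p).1.1 (ofDual p).1.2), by
    constructor
    · intro h
      simp only at h
      unfold flagD at h
      by_cases hP : u ≤ (ofDual p).1.1 ∧ (ofDual p).1.1 ∉ Y
      · exact ⟨toDual (ofDual p).1.1, hP, le_rfl⟩
      · rw [if_neg hP] at h
        obtain ⟨c, h6, hc, hxc⟩ := of_decide_eq_true h
        exact ⟨toDual c, ⟨h6, hc⟩, hxc⟩
    · intro h h'
      simp only at h h'
      unfold flagD at h
      by_cases hP : u ≤ (ofDual p).1.1 ∧ (ofDual p).1.1 ∉ Y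
      · exact hP
      · rw [if_neg hP] at h
        obtain ⟨c, hc, hxc⟩ := h'
        have h5 : decide (∃ c, u ≤ c ∧ c ∉ Y ∧ (ofDual p).1.1 ≤ c) = true :=
          decide_eq_true ⟨ofDual c, hc.1, hc.2, hxc⟩
        rw [h5] at h
        exact absurd h (by decide)⟩
  invFun q := toDual ⟨(ofDual q.1.1, flagB u Y (ofDual q.1.1) q.1.2), by
    constructor
    · intro h
      simp only at h
      unfold flagB at h
      by_cases hP : u ≤ ofDual q.1.1 ∧ ofDual q.1.1 ∉ Y
      · exact hP.1
      · rw [if_neg hP] at h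
        exact of_decide_eq_true h
    · intro h
      simp only
      unfold flagB
      have hP : ¬ (u ≤ ofDual q.1.1 ∧ ofDual q.1.1 ∉ Y) := fun h4 => h4.2 h
      rw [if_neg hP]
      exact decide_eq_true (hYu _ h)⟩
  left_inv p := by
    refine OrderDual.ofDual.injective (Subtype.ext (Prod.ext rfl ?_))
    exact flagB_flagD (ofDual p).2.1 (ofDual p).2.2
  right_inv q := by
    refine Subtype.ext (Prod.ext rfl ?_)
    refine flagD_flagB ?_ ?_
    · intro h
      obtain ⟨c, hc, hle⟩ := q.2.1 h
      exact ⟨ofDual c, hc.1, hc.2, hle⟩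
    · rintro h ⟨c, h1, h2, h3⟩
      exact q.2.2 h ⟨toDual c, ⟨h1, h2⟩, h3⟩
  map_rel_iff' := by
    intro p p'
    have hx := flagD_le hYup (ofDual p).2.1 (ofDual p).2.2 (ofDual p').2.1 (ofDual p').2.2
    constructor
    · intro h
      have h1 : (ofDual p').1.1 ≤ (ofDual p).1.1 := h.1
      have h2 := h.2
      have h3 : (ofDual p').1.2 ≤ (ofDual p).1.2 := (hx h1).2 h2
      exact Prod.mk_le_mk.2 ⟨h1, h3⟩
    · intro h
      have h1 : (ofDual p').1.1 ≤ (ofDual p).1.1 := (Prod.mk_le_mk.1 h).1
      have h3 : (ofDual p').1.2 ≤ (ofDual p).1.2 := (Prod.mk_le_mk.1 h).2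
      exact Prod.mk_le_mk.2 ⟨h1, (hx h1).1 h3⟩

lemma dualC_convex (hYup : ∀ a b, a ∈ Y → a ≤ b → b ∈ Y) :
    ∀ a b c, a ∈ dualC u Y → c ∈ dualC u Y → a ≤ b → b ≤ c → b ∈ dualC u Y := by
  intro a b c ha hc hab hbc
  refine ⟨le_trans hc.1 hbc, fun h => ha.2 (hYup _ _ h hab)⟩

end Dual

/-- Every finite lattice whose dual has no `D`-cycle is representable: the statement for the dual. -/
theorem representable_dual_of_noDCycle : ∀ (n : ℕ) (L : Type) [Lattice L] [Finite L] [Nonempty L],
    Nat.card L = n → NoDCycle L → Representable Lᵒᵈ := by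
  intro n
  induction n using Nat.strong_induction_on with
  | _ n ih =>
    intro L _ _ _ hn hL
    classical
    let _ := Fintype.ofFinite L
    by_cases hsub : Subsingleton L
    · obtain ⟨a⟩ := ‹Nonempty L›
      letI : Unique Lᵒᵈ := { default := toDual a, uniq := fun b => Subsingleton.elim (ofDual b) a }
      exact representable_of_subsingleton Lᵒᵈ
    · letI : OrderBot L := Fintype.toOrderBot L
      -- a join irreducible element
      have hJ : ∃ j : L, SupIrred j := by
        rw [not_subsingleton_iff_nontrivial] at hsub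
        obtain ⟨a, ha⟩ := exists_ne (⊥ : L)
        obtain ⟨s, hs, hirr⟩ := exists_supIrred_decomposition a
        by_contra hcon
        push Not at hcon
        have : s = ∅ := Finset.eq_empty_of_forall_notMem fun b hb => hcon b (hirr hb)
        subst this
        exact ha (by simpa using hs.symm)
      -- a source of the dependency relation
      haveI : Std.Irrefl (Relation.TransGen (JoinDep (L := L))) := ⟨hL⟩
      have hwf := Finite.wellFounded_of_trans_of_irrefl (Relation.TransGen (JoinDep (L := L)))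
      obtain ⟨j, hj⟩ := hJ
      obtain ⟨q, hq, hmin⟩ := hwf.has_min {j | SupIrred j} ⟨j, hj⟩
      have hsrc : ∀ p, ¬ JoinDep p q := fun p hp => hmin p hp.1 (Relation.TransGen.single hp)
      obtain ⟨e⟩ := exists_iso hq hsrc
      have hYup : ∀ a b : KK q, a ∈ {k : KK q | q ≤ k.1} → a ≤ b → b ∈ {k : KK q | q ≤ k.1} := by
        intro a b ha hab
        exact le_trans ha hab
      have hYu : ∀ y ∈ {k : KK q | q ≤ k.1}, (⟨tau q q, tau_tau _ _⟩ : KK q) ≤ y := by
        intro y hy
        show tau q q ≤ y.1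
        calc tau q q ≤ tau q y.1 := tau_mono hy
          _ = y.1 := y.2
      refine representable_congr (e.dual.trans (dualDoublingIso hYup hYu)) ?_
      refine dayDoubling_representable _ (dualC_convex hYup) ?_
      -- the induction hypothesis for the smaller lattice
      have hlt : Nat.card (KK q) < n := by
        rw [← hn]
        haveI := Fintype.ofFinite (KK q)
        rw [Nat.card_eq_fintype_card, Nat.card_eq_fintype_card]
        refine Fintype.card_lt_of_injective_not_surjective (fun k : KK q => k.1)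
          Subtype.val_injective ?_
        intro hs
        obtain ⟨k, hk⟩ := hs q
        have h6 : tau q q = q := by
          have h8 := k.2
          rw [show k.1 = q from hk] at h8
          exact h8
        have h5 : ∃ j ∈ (Finset.univ.filter fun j => SupIrred j ∧ j ≠ q ∧ j ≤ q), id j = q :=
          hq.finset_sup_eq h6
        obtain ⟨j, hj, hj2⟩ := h5
        exact (Finset.mem_filter.1 hj).2.2.1 hj2
      refine ih _ hlt (KK q) rfl ?_
      intro p hp
      have hlift : Relation.TransGen JoinDep p.1 p.1 :=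
        Relation.TransGen.lift (fun k : KK q => k.1) (fun a b hab => joinDep_coe hsrc hq hab) p p hp
      exact hL _ hlift

/-- **Theorem.** Every finite lattice whose dual has no `D`-cycle (an upper bounded lattice) is
representable. -/
theorem representable_of_noDCycle_dual {L : Type} [Lattice L] [Finite L] [Nonempty L]
    (hL : NoDCycle Lᵒᵈ) : Representable L := by
  have h := representable_dual_of_noDCycle _ Lᵒᵈ rfl hL
  exact representable_congr (OrderDual.ofDual (α := L) |> fun _ => (OrderIso.dualDual L)) h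

end Vale.Agent.Lib.P183
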