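import Vale.Agent.Lib.P183.Tables
import Vale.Agent.Lib.P183.Base
import Vale.Agent.Lib.P183.BaseL3
import Vale.Agent.Lib.P183.Seven
import Vale.Agent.Lib.P183.SL64.Final
import Vale.Agent.Lib.P183.IntervalRep

/-!
# Every lattice with at most seven elements is representable
-/

namespace Vale.Agent.Lib.P183.Cl

open UC

/-- The order table of the last lattice `D`: atoms `1, 2, 5`, with `1 < 3`, `1 < 4`, `2 < 3`,
coatoms `3, 4, 5`. -/
def mD : ℕ := 284795138682239

/-- The enumeration of `Seven` matching the table `mD`. -/
def sevenIdx : Seven → Fin 7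
  | .bot => 0
  | .c => 1
  | .b => 2
  | .e => 3
  | .d => 4
  | .a => 5
  | .top => 6

lemma sevenIdx_bij : Function.Bijective sevenIdx := by
  constructor
  · intro x y h
    cases x <;> cases y <;> first | rfl | exact absurd h (by decide)
  · intro i
    fin_cases i
    · exact ⟨.bot, rfl⟩
    · exact ⟨.c, rfl⟩
    · exact ⟨.b, rfl⟩
    · exact ⟨.e, rfl⟩
    · exact ⟨.d, rfl⟩
    · exact ⟨.a, rfl⟩
    · exact ⟨.top, rfl⟩

lemma seven_table : ∀ x y : Seven,
    x ≤ y ↔ tblLe 7 mD (sevenIdx x).val (sevenIdx y).val = true := by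
  intro x y
  show Seven.leB x y = true ↔ _
  cases x <;> cases y <;> decide

/-- The last lattice is representable, by the subgroup interval in `SL(2,64)`. -/
theorem repT_mD : RepT 7 mD := by
  intro P _ hP
  obtain ⟨e, he⟩ := hP
  have hS : Representable Seven := representable_of_iso_icc SL64.HH SL64.isoIcc
  let f : Seven ≃ Fin 7 := Equiv.ofBijective sevenIdx sevenIdx_bij
  refine representable_congr ?_ hS
  refine { toEquiv := e.trans f.symm, map_rel_iff' := ?_ }
  intro x y
  have hx : ∀ p : P, sevenIdx ((e.trans f.symm) p) = e p := fun p => f.apply_symm_apply (e p)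
  rw [seven_table, hx, hx, he]

theorem chain_ok : chainOK baseKnown steps = true := by decide +kernel

/-- All lattices known from the base. -/
def allKnown : List (ℕ × ℕ) := baseKnown ++ steps.map fun s => (s.n', s.m')

theorem base_rep : ∀ p ∈ baseKnown, RepT p.1 p.2 := by
  intro p hp
  simp only [baseKnown, List.mem_cons, List.not_mem_nil, or_false] at hp
  rcases hp with rfl | rfl | rfl | rfl | rfl | rfl | rfl | rfl | rfl | rfl | rfl | rfl | rfl
  · exact repT_one
  · exact rep_dM3
  · exact rep_dM4
  · exact rep_dM62
  · exact rep_dM64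
  · exact rep_dM5
  · exact rep_dL3
  · exact rep_dL4
  · exact rep_dL6
  · exact repT_mD
  · exact rep_dL15
  · exact rep_dL18
  · exact rep_dL23

theorem allKnown_rep : ∀ p ∈ allKnown, RepT p.1 p.2 := by
  intro p hp
  rcases List.mem_append.1 hp with h | h
  · exact base_rep p h
  · obtain ⟨s, hs, rfl⟩ := List.mem_map.1 h
    exact chain_sound steps baseKnown base_rep chain_ok s hs

theorem tab2 : forallT (checkE allKnown 2 es2) (positions 2) (T0 2) 0 = true := by decide +kernel
theorem tab3 : forallT (checkE allKnown 3 es3) (positions 3) (T0 3) 0 = true := by decide +kernel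
theorem tab4 : forallT (checkE allKnown 4 es4) (positions 4) (T0 4) 0 = true := by decide +kernel
theorem tab5 : forallT (checkE allKnown 5 es5) (positions 5) (T0 5) 0 = true := by decide +kernel
theorem tab6 : forallT (checkE allKnown 6 es6) (positions 6) (T0 6) 0 = true := by decide +kernel
theorem tab7 : forallT (checkE allKnown 7 es7) (positions 7) (T0 7) 0 = true := by decide +kernel

/-- Every finite lattice with at most seven elements is representable. -/
theorem rep_le7 (L : Type) [Lattice L] [Fintype L] [Nonempty L]
    (h : Fintype.card L ≤ 7) : Representable L := by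
  have hk := allKnown_rep
  have hpos : 0 < Fintype.card L := Fintype.card_pos
  obtain h1 | h2 | h3 | h4 | h5 | h6 | h7 :
      Fintype.card L = 1 ∨ Fintype.card L = 2 ∨ Fintype.card L = 3 ∨ Fintype.card L = 4 ∨
      Fintype.card L = 5 ∨ Fintype.card L = 6 ∨ Fintype.card L = 7 := by omega
  · obtain ⟨u⟩ := Fintype.card_eq_one_iff_nonempty_unique.1 h1
    exact @representable_of_subsingleton L _ u
  · exact rep_of_tables hk tab2 L h2
  · exact rep_of_tables hk tab3 L h3
  · exact rep_of_tables hk tab4 L h4
  · exact rep_of_tables hk tab5 L h5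
  · exact rep_of_tables hk tab6 L h6
  · exact rep_of_tables hk tab7 L h7

end Vale.Agent.Lib.P183.Cl
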